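import Vale.Agent.Lib.P063.Joint

/-!
Consequences of invariance under vertex permutations: the Fourier weights, the averaged weights and
the influences are constant on orbits; the orbit of a set of edges is large.
-/

set_option linter.unusedVariables false
set_option linter.unusedSectionVars false
set_option linter.unusedSimpArgs false

namespace Vale.Agent.Lib.P063

open Finset

section Generic

variable {ι : Type*} [Fintype ι] [DecidableEq ι]

/-- A relabelling of the coordinates preserves a product measure with constant bias. -/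
lemma Ex_perm (p : ℝ) (σ : Equiv.Perm ι) (h : (ι → Bool) → ℝ) :
    Ex (fun _ : ι => p) (fun x => h (fun e => x (σ e))) = Ex (fun _ : ι => p) h := by
  unfold Ex
  have hw : ∀ x : ι → Bool, wt (fun _ : ι => p) x = wt (fun _ : ι => p) (fun e => x (σ e)) := by
    intro x
    unfold wt
    exact (Equiv.prod_comp σ (fun i => bw p (x i))).symm
  let e : (ι → Bool) ≃ (ι → Bool) := Equiv.arrowCongr σ.symm (Equiv.refl _)
  have he : ∀ x, e x = fun i => x (σ i) := fun x => rfl
  calc ∑ x, wt (fun _ : ι => p) x * h (fun e => x (σ e))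
      = ∑ x, wt (fun _ : ι => p) (e x) * h (e x) := by
        refine Finset.sum_congr rfl fun x _ => ?_
        rw [hw x, he]
    _ = ∑ x, wt (fun _ : ι => p) x * h x :=
        Equiv.sum_comp e (fun x => wt (fun _ : ι => p) x * h x)

lemma coef_perm {p : ℝ} {f : (ι → Bool) → ℝ} {σ : Equiv.Perm ι}
    (hf : ∀ x, f (fun e => x (σ e)) = f x) (S : Finset ι) :
    coef (fun _ => p) f (S.map σ.toEmbedding) = coef (fun _ => p) f S := by
  unfold coef
  rw [← Ex_perm p σ (fun x => f x * phi (fun _ => p) S x)]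
  refine Ex_congr fun x => ?_
  rw [hf]
  congr 1
  unfold phi chi
  rw [Finset.prod_map]
  rfl

lemma MM_perm {w : Finset ι → ℝ} {σ : Equiv.Perm ι}
    (hw : ∀ S, w (S.map σ.toEmbedding) = w S) (θ : ℝ) (U : Finset ι) :
    MM w θ (U.map σ.toEmbedding) = MM w θ U := by
  unfold MM
  symm
  refine Finset.sum_equiv (Equiv.finsetCongr σ) ?_ ?_
  · intro S
    simp only [Finset.mem_filter, Finset.mem_univ, true_and, Equiv.finsetCongr_apply]
    exact (Finset.map_subset_map).symm
  · intro S _
    simp only [Equiv.finsetCongr_apply]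
    rw [hw, ← Finset.map_sdiff, Finset.card_map]

lemma infl_perm {p : ℝ} (hp0 : 0 < p) (hp1 : p < 1) {f : (ι → Bool) → ℝ} {σ : Equiv.Perm ι}
    (hf : ∀ x, f (fun e => x (σ e)) = f x) (k : ι) :
    infl (fun _ => p) f (σ k) = infl (fun _ => p) f k := by
  have hb : Bias (fun _ : ι => p) := fun _ => ⟨hp0, hp1⟩
  have hs := sg_pos hp0 hp1
  have hs2 : sg p ^ 2 ≠ 0 := by positivity
  apply mul_left_cancel₀ hs2
  have h1 := sum_coef_mem hb f (σ k)
  have h2 := sum_coef_mem hb f k
  rw [← h1, ← h2]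
  symm
  refine Finset.sum_equiv (Equiv.finsetCongr σ) ?_ ?_
  · intro S
    simp only [Finset.mem_filter, Finset.mem_univ, true_and, Equiv.finsetCongr_apply]
    simp
  · intro S _
    simp only [Equiv.finsetCongr_apply]
    rw [coef_perm hf]

end Generic

section Vertices

variable {n r : ℕ}

/-- A set of vertices can be moved onto any other of the same size. -/
lemma exists_perm_map (V B : Finset (Fin n)) (h : V.card = B.card) :
    ∃ π : Equiv.Perm (Fin n), V.map π.toEmbedding = B := by
  classical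
  let e : {x // x ∈ V} ≃ {x // x ∈ B} := Finset.equivOfCardEq h
  refine ⟨e.extendSubtype, ?_⟩
  apply Finset.eq_of_subset_of_card_le
  · intro y hy
    obtain ⟨x, hx, rfl⟩ := Finset.mem_map.mp hy
    simp only [Equiv.coe_toEmbedding]
    rw [Equiv.extendSubtype_apply_of_mem e x hx]
    exact (e ⟨x, hx⟩).2
  · rw [Finset.card_map, h]

lemma span_map (π : Equiv.Perm (Fin n)) (U : Finset (Edge n r)) :
    span (U.map (relabel π).toEmbedding) = (span U).map π.toEmbedding := by
  unfold span
  ext y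
  constructor
  · intro hy
    obtain ⟨e', he', hy'⟩ := Finset.mem_biUnion.mp hy
    obtain ⟨e, he, rfl⟩ := Finset.mem_map.mp he'
    obtain ⟨x, hx, rfl⟩ := Finset.mem_map.mp hy'
    exact Finset.mem_map.mpr ⟨x, Finset.mem_biUnion.mpr ⟨e, he, hx⟩, rfl⟩
  · intro hy
    obtain ⟨x, hx, rfl⟩ := Finset.mem_map.mp hy
    obtain ⟨e, he, hxe⟩ := Finset.mem_biUnion.mp hx
    refine Finset.mem_biUnion.mpr ⟨relabel π e, Finset.mem_map.mpr ⟨e, he, rfl⟩, ?_⟩
    exact Finset.mem_map.mpr ⟨x, hxe, rfl⟩

/-- An invariant function on hypergraphs. -/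
def FInv (f : (Edge n r → Bool) → ℝ) : Prop :=
  ∀ (π : Equiv.Perm (Fin n)) (x : Edge n r → Bool), f (fun e => x (relabel π e)) = f x

lemma ww_relabel {f : (Edge n r → Bool) → ℝ} (hf : FInv f) (p : ℝ) (π : Equiv.Perm (Fin n))
    (S : Finset (Edge n r)) : ww f p (S.map (relabel π).toEmbedding) = ww f p S := by
  unfold ww
  rw [coef_perm (hf π)]

lemma MM_relabel {f : (Edge n r → Bool) → ℝ} (hf : FInv f) (p θ : ℝ) (π : Equiv.Perm (Fin n))
    (U : Finset (Edge n r)) : MM (ww f p) θ (U.map (relabel π).toEmbedding) = MM (ww f p) θ U :=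
  MM_perm (ww_relabel hf p π) θ U

/-- The orbit bound. -/
theorem orbit_bound {f : (Edge n r → Bool) → ℝ} (hf : FInv f) (p : ℝ) {θ : ℝ} (h0 : 0 ≤ θ) (h1 : θ ≤ 1)
    {U : Finset (Edge n r)} (hU : U.Nonempty) :
    (n.choose (span U).card : ℝ) * (θ ^ U.card * MM (ww f p) θ U) ≤
      ∑ S ∈ univ.filter (fun S : Finset (Edge n r) => S.Nonempty), ww f p S := by
  classical
  set v := (span U).card with hv
  have hex : ∀ B ∈ (univ : Finset (Fin n)).powersetCard v,
      ∃ π : Equiv.Perm (Fin n), (span U).map π.toEmbedding = B := by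
    intro B hB
    exact exists_perm_map _ _ (by rw [(Finset.mem_powersetCard.mp hB).2])
  choose! π hπ using hex
  set T : Finset (Fin n) → Finset (Edge n r) := fun B => U.map (relabel (π B)).toEmbedding with hT
  have hspan : ∀ B ∈ (univ : Finset (Fin n)).powersetCard v, span (T B) = B := by
    intro B hB
    simp only [hT]
    rw [span_map, hπ B hB]
  have hinj : Set.InjOn T ((univ : Finset (Fin n)).powersetCard v : Finset (Finset (Fin n))) := by
    intro B hB B' hB' h
    rw [← hspan B hB, ← hspan B' hB', h]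
  have hterm : ∀ B ∈ (univ : Finset (Fin n)).powersetCard v,
      θ ^ U.card * MM (ww f p) θ U = θ ^ (T B).card * MM (ww f p) θ (T B) := by
    intro B hB
    simp only [hT]
    rw [MM_relabel hf, Finset.card_map]
  have hcard : ((univ : Finset (Fin n)).powersetCard v).card = n.choose v := by
    rw [Finset.card_powersetCard, Finset.card_univ, Fintype.card_fin]
  calc (n.choose v : ℝ) * (θ ^ U.card * MM (ww f p) θ U)
      = ∑ B ∈ (univ : Finset (Fin n)).powersetCard v, θ ^ U.card * MM (ww f p) θ U := by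
        rw [Finset.sum_const, hcard, nsmul_eq_mul]
    _ = ∑ B ∈ (univ : Finset (Fin n)).powersetCard v, θ ^ (T B).card * MM (ww f p) θ (T B) :=
        Finset.sum_congr rfl hterm
    _ = ∑ U' ∈ ((univ : Finset (Fin n)).powersetCard v).image T, θ ^ U'.card * MM (ww f p) θ U' := by
        rw [Finset.sum_image hinj]
    _ ≤ ∑ U' ∈ univ.filter (fun S : Finset (Edge n r) => S.Nonempty), θ ^ U'.card * MM (ww f p) θ U' := by
        apply Finset.sum_le_sum_of_subset_of_nonneg
        · intro U' hU'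
          obtain ⟨B, _, rfl⟩ := Finset.mem_image.mp hU'
          simp only [Finset.mem_filter, Finset.mem_univ, true_and, hT]
          exact hU.map
        · intro U' _ _
          exact mul_nonneg (pow_nonneg h0 _) (MM_nonneg (ww_nonneg f p) h1 U')
    _ ≤ _ := sum_nonempty_MM_le (ww_nonneg f p) h0 h1

/-- All influences of an invariant function coincide. -/
lemma infl_eq_of_inv {p : ℝ} (hp0 : 0 < p) (hp1 : p < 1) {f : (Edge n r → Bool) → ℝ} (hf : FInv f)
    (e e' : Edge n r) : infl (fun _ => p) f e' = infl (fun _ => p) f e := by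
  obtain ⟨π, hπ⟩ := exists_perm_map e.1 e'.1 (by rw [e.2, e'.2])
  have : relabel π e = e' := Subtype.ext hπ
  rw [← this]
  exact infl_perm hp0 hp1 (hf π) e

lemma totI_eq_of_inv {p : ℝ} (hp0 : 0 < p) (hp1 : p < 1) {f : (Edge n r → Bool) → ℝ} (hf : FInv f)
    (e : Edge n r) :
    totI (fun _ => p) f = (Fintype.card (Edge n r) : ℝ) * infl (fun _ => p) f e := by
  unfold totI
  rw [Finset.sum_congr rfl (fun e' _ => infl_eq_of_inv hp0 hp1 hf e e'), Finset.sum_const,
    Finset.card_univ, nsmul_eq_mul]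

/-- Low levels: the weight below level `l` is bounded in terms of the total influence. -/
theorem low_levels {p : ℝ} (hp0 : 0 < p) (hp1 : p < 1) {f : (Edge n r → Bool) → ℝ} (hfb : IsBool f)
    (hf : FInv f) {r₀ : ℝ} (hr0 : 0 < r₀) (hr1 : r₀ ^ 2 ≤ 1 / 4) (hr2 : 3 * r₀ ^ 4 ≤ sg p ^ 2)
    (l : ℕ) :
    ∑ S ∈ univ.filter (fun S : Finset (Edge n r) => 1 ≤ S.card ∧ S.card ≤ l), ww f p S ≤
      sg p ^ 2 * ((r₀ ^ 2)⁻¹) ^ l * ((Fintype.card (Edge n r) : ℝ) *
        (totI (fun _ => p) f / (Fintype.card (Edge n r) : ℝ)) ^ (3 / 2 : ℝ)) := by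
  classical
  have hb : Bias (fun _ : Edge n r => p) := fun _ => ⟨hp0, hp1⟩
  set N := (Fintype.card (Edge n r) : ℝ) with hN
  have hbound : ∀ e : Edge n r, ∑ S ∈ univ.filter (fun S : Finset (Edge n r) => e ∈ S ∧ S.card ≤ l),
      ww f p S ≤ sg p ^ 2 * ((r₀ ^ 2)⁻¹) ^ l * (totI (fun _ => p) f / N) ^ (3 / 2 : ℝ) := by
    intro e
    have hNpos : 0 < N := by
      rw [hN]
      exact_mod_cast Fintype.card_pos_iff.mpr ⟨e⟩
    have h1 : totI (fun _ => p) f / N = infl (fun _ => p) f e := by
      rw [totI_eq_of_inv hp0 hp1 hf e, ← hN]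
      field_simp
    rw [h1]
    exact kkl hb hfb hr0 hr1 (fun _ => hr2) e l
  have h1 : ∀ S ∈ univ.filter (fun S : Finset (Edge n r) => 1 ≤ S.card ∧ S.card ≤ l), ww f p S ≤
      ∑ e : Edge n r, if (e ∈ S ∧ S.card ≤ l) then ww f p S else 0 := by
    intro S hS
    have hS' := (Finset.mem_filter.mp hS).2
    obtain ⟨e, he⟩ := Finset.card_pos.mp hS'.1
    have := Finset.single_le_sum (f := fun e => if (e ∈ S ∧ S.card ≤ l) then ww f p S else 0)
      (s := univ) (fun i _ => by split_ifs <;> first | positivity | exact ww_nonneg f p S)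
      (Finset.mem_univ e)
    have hval : (if (e ∈ S ∧ S.card ≤ l) then ww f p S else 0) = ww f p S := if_pos ⟨he, hS'.2⟩
    calc ww f p S = _ := hval.symm
      _ ≤ _ := this
  refine le_trans (Finset.sum_le_sum h1) ?_
  rw [Finset.sum_comm]
  have h2 : ∀ e ∈ (univ : Finset (Edge n r)),
      ∑ S ∈ univ.filter (fun S : Finset (Edge n r) => 1 ≤ S.card ∧ S.card ≤ l),
        (if (e ∈ S ∧ S.card ≤ l) then ww f p S else 0) ≤
      sg p ^ 2 * ((r₀ ^ 2)⁻¹) ^ l * (totI (fun _ => p) f / N) ^ (3 / 2 : ℝ) := by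
    intro e _
    refine le_trans ?_ (hbound e)
    conv_rhs => rw [Finset.sum_filter]
    apply Finset.sum_le_sum_of_subset_of_nonneg (Finset.subset_univ _)
    intro S _ _
    split_ifs <;> first | positivity | exact ww_nonneg f p S
  refine le_trans (Finset.sum_le_sum h2) (le_of_eq ?_)
  rw [Finset.sum_const, Finset.card_univ, nsmul_eq_mul]
  ring

end Vertices

end Vale.Agent.Lib.P063
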