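import Vale.Agent.Lib.P063.Defs

/-!
The spread lemma: a random `q`-subset of a set `S` of graph edges is, with probability at least
`2/5`, nonempty, of size at most `tm`, and with at most three edges per vertex spanned.
-/

namespace Vale.Agent.Lib.P063

open Finset

section Law

variable {α : Type*} [DecidableEq α]

lemma pw_nonneg {q : ℝ} (h0 : 0 ≤ q) (h1 : q ≤ 1) (S U : Finset α) : 0 ≤ pw q S U :=
  mul_nonneg (pow_nonneg h0 _) (pow_nonneg (by linarith) _)

lemma pw_sum_eq_one (q : ℝ) (S : Finset α) : ∑ U ∈ S.powerset, pw q S U = 1 := by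
  have h := Finset.sum_pow_mul_eq_add_pow q (1 - q) S
  have h2 : ∑ U ∈ S.powerset, pw q S U = ∑ U ∈ S.powerset, q ^ U.card * (1 - q) ^ (S.card - U.card) := by
    refine Finset.sum_congr rfl fun U hU => ?_
    unfold pw
    rw [Finset.card_sdiff_of_subset (Finset.mem_powerset.1 hU)]
  rw [h2, h]
  simp

lemma pw_contain (q : ℝ) {S Z : Finset α} (hZ : Z ⊆ S) :
    ∑ U ∈ S.powerset.filter (fun U => Z ⊆ U), pw q S U = q ^ Z.card := by
  have key : ∑ U ∈ S.powerset.filter (fun U => Z ⊆ U), pw q S U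
      = ∑ V ∈ (S \ Z).powerset, q ^ Z.card * pw q (S \ Z) V := by
    refine Finset.sum_nbij' (fun U => U \ Z) (fun V => V ∪ Z) ?_ ?_ ?_ ?_ ?_
    · intro U hU
      simp only [mem_filter, mem_powerset] at hU
      simp only [mem_powerset]
      exact Finset.sdiff_subset_sdiff hU.1 (le_refl _)
    · intro V hV
      simp only [mem_powerset] at hV
      simp only [mem_filter, mem_powerset]
      refine ⟨Finset.union_subset (hV.trans Finset.sdiff_subset) hZ, Finset.subset_union_right⟩
    · intro U hU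
      simp only [mem_filter, mem_powerset] at hU
      exact Finset.sdiff_union_of_subset hU.2
    · intro V hV
      simp only [mem_powerset] at hV
      have hd : Disjoint V Z := Finset.disjoint_of_subset_left hV Finset.sdiff_disjoint
      exact Finset.union_sdiff_cancel_right hd
    · intro U hU
      simp only [mem_filter, mem_powerset] at hU
      unfold pw
      have h1 : U.card = Z.card + (U \ Z).card := by
        rw [Finset.card_sdiff_of_subset hU.2]
        have := Finset.card_le_card hU.2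
        omega
      have h2 : (S \ Z) \ (U \ Z) = S \ U := by
        ext x
        simp only [mem_sdiff]
        constructor
        · rintro ⟨⟨hxS, hxZ⟩, hx⟩
          exact ⟨hxS, fun hxU => hx ⟨hxU, hxZ⟩⟩
        · rintro ⟨hxS, hxU⟩
          exact ⟨⟨hxS, fun hxZ => hxU (hU.2 hxZ)⟩, fun h => hxU h.1⟩
      rw [h2]
      conv_lhs => rw [h1, pow_add]
      ring
  rw [key, ← Finset.mul_sum, pw_sum_eq_one, mul_one]

lemma pw_expect (q : ℝ) (S : Finset α) :
    ∑ U ∈ S.powerset, (U.card : ℝ) * pw q S U = q * S.card := by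
  have h1 : ∀ U ∈ S.powerset, (U.card : ℝ) * pw q S U
      = ∑ e ∈ S, if e ∈ U then pw q S U else 0 := by
    intro U hU
    have hU' := Finset.mem_powerset.1 hU
    rw [Finset.sum_ite_mem, Finset.inter_eq_right.2 hU', Finset.sum_const, nsmul_eq_mul]
  rw [Finset.sum_congr rfl h1, Finset.sum_comm]
  have h2 : ∀ e ∈ S, ∑ U ∈ S.powerset, (if e ∈ U then pw q S U else 0) = q := by
    intro e he
    rw [← Finset.sum_filter]
    have := pw_contain q (S := S) (Z := {e}) (by simpa using he)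
    simp only [Finset.singleton_subset_iff, Finset.card_singleton, pow_one] at this
    exact this
  rw [Finset.sum_congr rfl h2, Finset.sum_const, nsmul_eq_mul]
  ring

lemma pw_markov {q : ℝ} (h0 : 0 ≤ q) (h1 : q ≤ 1) (S : Finset α) {t : ℕ} (ht : 0 < t) :
    ∑ U ∈ S.powerset.filter (fun U => t < U.card), pw q S U ≤ q * S.card / t := by
  have ht' : (0 : ℝ) < t := by exact_mod_cast ht
  rw [le_div_iff₀ ht', ← pw_expect, Finset.sum_mul]
  calc ∑ U ∈ S.powerset.filter (fun U => t < U.card), pw q S U * t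
      ≤ ∑ U ∈ S.powerset.filter (fun U => t < U.card), (U.card : ℝ) * pw q S U := by
        refine Finset.sum_le_sum fun U hU => ?_
        have hlt : t < U.card := (Finset.mem_filter.1 hU).2
        have hle : (t : ℝ) ≤ U.card := by exact_mod_cast hlt.le
        have := pw_nonneg h0 h1 S U
        nlinarith
    _ ≤ ∑ U ∈ S.powerset, (U.card : ℝ) * pw q S U := by
        refine Finset.sum_le_sum_of_subset_of_nonneg (Finset.filter_subset _ _) fun U _ _ => ?_
        exact mul_nonneg (Nat.cast_nonneg _) (pw_nonneg h0 h1 S U)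

end Law

/-! ### The numerics -/

lemma term_bound {l s : ℕ} {q : ℝ} (hq : 0 < q) (hs : 1 ≤ s) (hqs : q * s ≤ 1 / 5)
    (hql : q ^ 2 * l ≤ 1 / 100) :
    (l.choose s : ℝ) * ((2 * s ^ 2).choose (2 * s) : ℝ) * q ^ (3 * s) ≤ (1 / 24 : ℝ) ^ s := by
  have hs0 : (0 : ℝ) < s := by exact_mod_cast hs
  have hf1 : ((s : ℝ)) ^ s / (s.factorial : ℝ) ≤ Real.exp s :=
    Real.pow_div_factorial_le_exp (s : ℝ) hs0.le s
  have hf2 : ((2 * s : ℕ) : ℝ) ^ (2 * s) / ((2 * s).factorial : ℝ) ≤ Real.exp (2 * s : ℕ) :=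
    Real.pow_div_factorial_le_exp ((2 * s : ℕ) : ℝ) (by positivity) (2 * s)
  have hc1 : (l.choose s : ℝ) ≤ (l : ℝ) ^ s / (s.factorial : ℝ) := Nat.choose_le_pow_div s l
  have hc2 : ((2 * s ^ 2).choose (2 * s) : ℝ) ≤ (((2 * s ^ 2 : ℕ) : ℝ)) ^ (2 * s) / ((2 * s).factorial : ℝ) :=
    Nat.choose_le_pow_div (2 * s) (2 * s ^ 2)
  have hfac1 : (0 : ℝ) < (s.factorial : ℝ) := by exact_mod_cast Nat.factorial_pos s
  have hfac2 : (0 : ℝ) < ((2 * s).factorial : ℝ) := by exact_mod_cast Nat.factorial_pos _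
  -- reshaping
  have h1 : (l : ℝ) ^ s / (s.factorial : ℝ) ≤ ((l : ℝ) * Real.exp 1 / s) ^ s := by
    have : (l : ℝ) ^ s / (s.factorial : ℝ) = ((l : ℝ) / s) ^ s * ((s : ℝ) ^ s / (s.factorial : ℝ)) := by
      rw [div_pow]
      field_simp
    rw [this]
    have he : Real.exp s = (Real.exp 1) ^ s := by
      rw [← Real.exp_nat_mul]; simp
    have : ((l : ℝ) * Real.exp 1 / s) ^ s = ((l : ℝ) / s) ^ s * (Real.exp 1) ^ s := by
      rw [← mul_pow]; congr 1; ring
    rw [this, ← he]
    exact mul_le_mul_of_nonneg_left hf1 (by positivity)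
  have h2 : (((2 * s ^ 2 : ℕ) : ℝ)) ^ (2 * s) / ((2 * s).factorial : ℝ)
      ≤ ((s : ℝ) ^ 2 * (Real.exp 1) ^ 2) ^ s := by
    have : (((2 * s ^ 2 : ℕ) : ℝ)) ^ (2 * s) / ((2 * s).factorial : ℝ)
        = (s : ℝ) ^ (2 * s) * (((2 * s : ℕ) : ℝ) ^ (2 * s) / ((2 * s).factorial : ℝ)) := by
      have e : (((2 * s ^ 2 : ℕ) : ℝ)) = (s : ℝ) * ((2 * s : ℕ) : ℝ) := by
        push_cast; ring
      rw [e, mul_pow]
      field_simp
    rw [this]
    have he : Real.exp (2 * s : ℕ) = ((Real.exp 1) ^ 2) ^ s := by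
      rw [← pow_mul, ← Real.exp_nat_mul]; simp
    have : ((s : ℝ) ^ 2 * (Real.exp 1) ^ 2) ^ s = (s : ℝ) ^ (2 * s) * ((Real.exp 1) ^ 2) ^ s := by
      rw [mul_pow, pow_mul]
    rw [this, ← he]
    exact mul_le_mul_of_nonneg_left hf2 (by positivity)
  have hprod : (l.choose s : ℝ) * ((2 * s ^ 2).choose (2 * s) : ℝ) * q ^ (3 * s)
      ≤ ((l : ℝ) * Real.exp 1 / s) ^ s * ((s : ℝ) ^ 2 * (Real.exp 1) ^ 2) ^ s * q ^ (3 * s) := by
    refine mul_le_mul_of_nonneg_right ?_ (by positivity)
    exact mul_le_mul (hc1.trans h1) (hc2.trans h2) (by positivity) (by positivity)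
  refine hprod.trans ?_
  have hre : ((l : ℝ) * Real.exp 1 / s) ^ s * ((s : ℝ) ^ 2 * (Real.exp 1) ^ 2) ^ s * q ^ (3 * s)
      = ((q ^ 2 * l) * (q * s) * (Real.exp 1) ^ 3) ^ s := by
    rw [pow_mul q 3 s, ← mul_pow, ← mul_pow]
    congr 1
    field_simp
  rw [hre]
  have he3 : (Real.exp 1) ^ 3 ≤ 20.5 := by
    have h := Real.exp_one_lt_d9
    have h0 := Real.exp_pos 1
    have : (Real.exp 1) ^ 3 ≤ (2.7182818286 : ℝ) ^ 3 := by gcongr
    norm_num at this ⊢
    linarith
  refine pow_le_pow_left₀ (by positivity) ?_ s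
  have hl0 : (0 : ℝ) ≤ q ^ 2 * l := by positivity
  have hq0 : (0 : ℝ) ≤ q * s := by positivity
  have he0 : (0 : ℝ) ≤ (Real.exp 1) ^ 3 := by positivity
  calc (q ^ 2 * l) * (q * s) * (Real.exp 1) ^ 3 ≤ (1 / 100) * (1 / 5) * 20.5 := by gcongr
    _ ≤ 1 / 24 := by norm_num

lemma geom_bound (R : Finset ℕ) (hR : ∀ s ∈ R, 1 ≤ s) :
    ∑ s ∈ R, (1 / 24 : ℝ) ^ s ≤ 1 / 23 := by
  have hsub : R ⊆ Finset.Icc 1 (R.sup id) := by
    intro s hs
    exact Finset.mem_Icc.2 ⟨hR s hs, Finset.le_sup (f := id) hs⟩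
  have hK : ∀ K : ℕ, ∑ s ∈ Finset.Icc 1 K, (1 / 24 : ℝ) ^ s ≤ 1 / 23 - (1 / 23) * (1 / 24 : ℝ) ^ K := by
    intro K
    induction K with
    | zero => simp
    | succ K ih =>
      rw [Finset.sum_Icc_succ_top (by omega)]
      have : (1 / 24 : ℝ) ^ (K + 1) = (1 / 24) * (1 / 24 : ℝ) ^ K := by ring
      rw [this]
      linarith
  calc ∑ s ∈ R, (1 / 24 : ℝ) ^ s ≤ ∑ s ∈ Finset.Icc 1 (R.sup id), (1 / 24 : ℝ) ^ s :=
        Finset.sum_le_sum_of_subset_of_nonneg hsub fun _ _ _ => by positivity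
    _ ≤ 1 / 23 - (1 / 23) * (1 / 24 : ℝ) ^ (R.sup id) := hK _
    _ ≤ 1 / 23 := by
        have : (0 : ℝ) ≤ (1 / 24 : ℝ) ^ (R.sup id) := by positivity
        linarith

/-! ### The combinatorics of bad sets -/

variable {n : ℕ}

lemma edge_nonempty (e : Edge n 2) : e.1.Nonempty := by
  rw [← Finset.card_pos, e.2]; norm_num

lemma card_span_le (U : Finset (Edge n 2)) : (span U).card ≤ 2 * U.card := by
  unfold span
  refine (Finset.card_biUnion_le).trans ?_
  have : ∀ e ∈ U, (e.1 : Finset (Fin n)).card = 2 := fun e _ => e.2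
  rw [Finset.sum_congr rfl this, Finset.sum_const, smul_eq_mul, mul_comm]

lemma mem_span {U : Finset (Edge n 2)} {v : Fin n} : v ∈ span U ↔ ∃ e ∈ U, v ∈ e.1 := by
  simp [span]

lemma bad_cover {U : Finset (Edge n 2)} (hne : U.Nonempty) (hbad : 3 * (span U).card < U.card) :
    ∃ U0 T : Finset (Edge n 2), U0 ⊆ U ∧ T ⊆ U ∧ Disjoint U0 T ∧ U0.Nonempty ∧
      U0.card ≤ (span U).card ∧ T.card = 2 * U0.card ∧ ∀ e ∈ T, e.1 ⊆ span U0 := by
  classical
  obtain ⟨e0, he0⟩ := hne
  have : Nonempty (Edge n 2) := ⟨e0⟩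
  have h : ∀ v ∈ span U, ∃ e ∈ U, v ∈ e.1 := fun v hv => mem_span.1 hv
  choose! f hfU hfv using h
  have hU0sub : (span U).image f ⊆ U := by
    intro e he
    obtain ⟨v, hv, rfl⟩ := Finset.mem_image.1 he
    exact hfU v hv
  have hspan : span U ⊆ span ((span U).image f) := by
    intro v hv
    exact mem_span.2 ⟨f v, Finset.mem_image_of_mem f hv, hfv v hv⟩
  have hcard : ((span U).image f).card ≤ (span U).card := Finset.card_image_le
  have hdiff : 2 * ((span U).image f).card ≤ (U \ (span U).image f).card := by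
    rw [Finset.card_sdiff_of_subset hU0sub]
    omega
  obtain ⟨T, hT, hTc⟩ := Finset.exists_subset_card_eq hdiff
  refine ⟨(span U).image f, T, hU0sub, hT.trans Finset.sdiff_subset, ?_, ?_, hcard, hTc, ?_⟩
  · exact Finset.disjoint_of_subset_right hT Finset.disjoint_sdiff
  · have hv := edge_nonempty e0
    obtain ⟨v, hv⟩ := hv
    exact ⟨f v, Finset.mem_image_of_mem f (mem_span.2 ⟨e0, he0, hv⟩)⟩
  · intro e he v hv
    apply hspan
    exact mem_span.2 ⟨e, (hT.trans Finset.sdiff_subset) he, hv⟩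

/-- Edges of `S \ U0` inside the vertex span of `U0`. -/
def Pairs (S U0 : Finset (Edge n 2)) : Finset (Edge n 2) :=
  (S \ U0).filter (fun e => e.1 ⊆ span U0)

lemma card_pairs (S U0 : Finset (Edge n 2)) : (Pairs S U0).card ≤ 2 * U0.card ^ 2 := by
  have h1 : (Pairs S U0).card ≤ (Finset.powersetCard 2 (span U0)).card := by
    refine Finset.card_le_card_of_injOn (fun e => e.1) ?_ ?_
    · intro e he
      have he' := (Finset.mem_filter.1 he).2
      exact Finset.mem_powersetCard.2 ⟨he', e.2⟩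
    · intro a _ b _ hab
      exact Subtype.ext hab
  rw [Finset.card_powersetCard] at h1
  have h2 : (span U0).card.choose 2 ≤ (2 * U0.card).choose 2 :=
    Nat.choose_le_choose 2 (card_span_le U0)
  have h3 : (2 * U0.card).choose 2 ≤ 2 * U0.card ^ 2 := by
    rw [Nat.choose_two_right]
    refine Nat.div_le_of_le_mul ?_
    have : 2 * U0.card - 1 ≤ 2 * U0.card := Nat.sub_le _ _
    calc 2 * U0.card * (2 * U0.card - 1) ≤ 2 * U0.card * (2 * U0.card) := Nat.mul_le_mul_left _ this
      _ = 2 * (2 * U0.card ^ 2) := by ring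
  omega

/-- The sum over bad sets is bounded by the union bound. -/
lemma bad_bound (S : Finset (Edge n 2)) {q : ℝ} (hq0 : 0 < q) (hq1 : q ≤ 1 / 2)
    (h2 : q ^ 2 * S.card ≤ 1 / 100) {tm : ℕ} (htm2 : q * tm ≤ 3 / 5) :
    ∑ U ∈ S.powerset.filter
      (fun U => U.Nonempty ∧ U.card ≤ tm ∧ 3 * (span U).card < U.card), pw q S U ≤ 1 / 23 := by
  classical
  set R : Finset ℕ := (Finset.Icc 1 tm).filter (fun s => q * s ≤ 1 / 5) with hR
  have hq1' : q ≤ 1 := by linarith
  set F : Finset (Edge n 2) → ℝ := fun U =>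
    ∑ s ∈ R, ∑ U0 ∈ Finset.powersetCard s S, ∑ T ∈ Finset.powersetCard (2 * s) (Pairs S U0),
      (if U0 ∪ T ⊆ U then pw q S U else 0) with hF
  have hF0 : ∀ U, 0 ≤ F U := by
    intro U
    refine Finset.sum_nonneg fun s _ => Finset.sum_nonneg fun U0 _ => Finset.sum_nonneg fun T _ => ?_
    split_ifs
    · exact pw_nonneg hq0.le hq1' S U
    · exact le_refl _
  have hpoint : ∀ U ∈ S.powerset.filter
      (fun U => U.Nonempty ∧ U.card ≤ tm ∧ 3 * (span U).card < U.card), pw q S U ≤ F U := by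
    intro U hU
    obtain ⟨hUS, hne, hle, hbad⟩ := Finset.mem_filter.1 hU
    have hUS' := Finset.mem_powerset.1 hUS
    obtain ⟨U0, T, h0U, hTU, hdis, h0ne, h0c, hTc, hT⟩ := bad_cover hne hbad
    have hsR : U0.card ∈ R := by
      refine Finset.mem_filter.2 ⟨Finset.mem_Icc.2 ⟨Finset.card_pos.2 h0ne, ?_⟩, ?_⟩
      · omega
      · have : 3 * U0.card ≤ tm := by omega
        have h3 : (3 * U0.card : ℝ) ≤ tm := by exact_mod_cast this
        have : q * (3 * U0.card : ℝ) ≤ q * tm := mul_le_mul_of_nonneg_left h3 hq0.le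
        linarith
    have hU0mem : U0 ∈ Finset.powersetCard U0.card S :=
      Finset.mem_powersetCard.2 ⟨h0U.trans hUS', rfl⟩
    have hTmem : T ∈ Finset.powersetCard (2 * U0.card) (Pairs S U0) := by
      refine Finset.mem_powersetCard.2 ⟨?_, hTc⟩
      intro e he
      refine Finset.mem_filter.2 ⟨Finset.mem_sdiff.2 ⟨hUS' (hTU he), ?_⟩, hT e he⟩
      intro he0
      exact (Finset.disjoint_left.1 hdis he0) he
    have hterm : pw q S U = if U0 ∪ T ⊆ U then pw q S U else 0 := by
      rw [if_pos (Finset.union_subset h0U hTU)]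
    rw [hterm]
    have hnn3 : ∀ (s : ℕ) (U0 : Finset (Edge n 2)) (T : Finset (Edge n 2)),
        0 ≤ (if U0 ∪ T ⊆ U then pw q S U else 0) := by
      intro s U0 T
      split_ifs
      · exact pw_nonneg hq0.le hq1' S U
      · exact le_refl _
    calc (if U0 ∪ T ⊆ U then pw q S U else 0)
        ≤ ∑ T ∈ Finset.powersetCard (2 * U0.card) (Pairs S U0), (if U0 ∪ T ⊆ U then pw q S U else 0) :=
          Finset.single_le_sum (f := fun T => if U0 ∪ T ⊆ U then pw q S U else 0)
            (fun T _ => hnn3 0 U0 T) hTmem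
      _ ≤ ∑ U0' ∈ Finset.powersetCard U0.card S,
            ∑ T ∈ Finset.powersetCard (2 * U0.card) (Pairs S U0'), (if U0' ∪ T ⊆ U then pw q S U else 0) :=
          Finset.single_le_sum (f := fun U0' => ∑ T ∈ Finset.powersetCard (2 * U0.card) (Pairs S U0'),
              (if U0' ∪ T ⊆ U then pw q S U else 0))
            (fun U0' _ => Finset.sum_nonneg fun T _ => hnn3 0 U0' T) hU0mem
      _ ≤ F U :=
          Finset.single_le_sum (f := fun s => ∑ U0' ∈ Finset.powersetCard s S,
              ∑ T ∈ Finset.powersetCard (2 * s) (Pairs S U0'), (if U0' ∪ T ⊆ U then pw q S U else 0))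
            (fun s _ => Finset.sum_nonneg fun U0' _ => Finset.sum_nonneg fun T _ => hnn3 0 U0' T) hsR
  have hswap : ∑ U ∈ S.powerset, F U
      = ∑ s ∈ R, ∑ U0 ∈ Finset.powersetCard s S, ∑ T ∈ Finset.powersetCard (2 * s) (Pairs S U0),
          ∑ U ∈ S.powerset, (if U0 ∪ T ⊆ U then pw q S U else 0) := by
    simp only [hF]
    rw [Finset.sum_comm]
    refine Finset.sum_congr rfl fun s _ => ?_
    rw [Finset.sum_comm]
    refine Finset.sum_congr rfl fun U0 _ => ?_
    rw [Finset.sum_comm]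
  have hinner : ∀ s ∈ R, ∑ U0 ∈ Finset.powersetCard s S, ∑ T ∈ Finset.powersetCard (2 * s) (Pairs S U0),
      ∑ U ∈ S.powerset, (if U0 ∪ T ⊆ U then pw q S U else 0) ≤ (1 / 24 : ℝ) ^ s := by
    intro s hs
    have hs' := Finset.mem_filter.1 hs
    have hs1 : 1 ≤ s := (Finset.mem_Icc.1 hs'.1).1
    have hterm : ∀ U0 ∈ Finset.powersetCard s S, ∑ T ∈ Finset.powersetCard (2 * s) (Pairs S U0),
        ∑ U ∈ S.powerset, (if U0 ∪ T ⊆ U then pw q S U else 0)
          ≤ ((2 * s ^ 2).choose (2 * s) : ℝ) * q ^ (3 * s) := by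
      intro U0 hU0
      obtain ⟨hU0S, hU0c⟩ := Finset.mem_powersetCard.1 hU0
      have hT : ∀ T ∈ Finset.powersetCard (2 * s) (Pairs S U0),
          ∑ U ∈ S.powerset, (if U0 ∪ T ⊆ U then pw q S U else 0) = q ^ (3 * s) := by
        intro T hT
        obtain ⟨hTP, hTc⟩ := Finset.mem_powersetCard.1 hT
        have hTS : T ⊆ S := fun e he =>
          (Finset.mem_sdiff.1 (Finset.mem_filter.1 (hTP he)).1).1
        have hdis : Disjoint U0 T := by
          rw [Finset.disjoint_right]
          intro e he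
          exact (Finset.mem_sdiff.1 (Finset.mem_filter.1 (hTP he)).1).2
        rw [← Finset.sum_filter, pw_contain q (Finset.union_subset hU0S hTS),
          Finset.card_union_of_disjoint hdis, hU0c, hTc]
        congr 1
        ring
      rw [Finset.sum_congr rfl hT, Finset.sum_const, nsmul_eq_mul, Finset.card_powersetCard]
      have hcmp : (Pairs S U0).card.choose (2 * s) ≤ (2 * s ^ 2).choose (2 * s) :=
        Nat.choose_le_choose _ (by have := card_pairs S U0; rwa [hU0c] at this)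
      have hcmp' : ((Pairs S U0).card.choose (2 * s) : ℝ) ≤ ((2 * s ^ 2).choose (2 * s) : ℝ) := by
        exact_mod_cast hcmp
      exact mul_le_mul_of_nonneg_right hcmp' (by positivity)
    calc _ ≤ ∑ U0 ∈ Finset.powersetCard s S, ((2 * s ^ 2).choose (2 * s) : ℝ) * q ^ (3 * s) :=
          Finset.sum_le_sum hterm
      _ = (S.card.choose s : ℝ) * ((2 * s ^ 2).choose (2 * s) : ℝ) * q ^ (3 * s) := by
          rw [Finset.sum_const, nsmul_eq_mul, Finset.card_powersetCard]; ring
      _ ≤ (1 / 24 : ℝ) ^ s := term_bound hq0 hs1 hs'.2 h2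
  calc ∑ U ∈ S.powerset.filter
        (fun U => U.Nonempty ∧ U.card ≤ tm ∧ 3 * (span U).card < U.card), pw q S U
      ≤ ∑ U ∈ S.powerset.filter
        (fun U => U.Nonempty ∧ U.card ≤ tm ∧ 3 * (span U).card < U.card), F U :=
        Finset.sum_le_sum hpoint
    _ ≤ ∑ U ∈ S.powerset, F U :=
        Finset.sum_le_sum_of_subset_of_nonneg (Finset.filter_subset _ _) fun U _ _ => hF0 U
    _ = _ := hswap
    _ ≤ ∑ s ∈ R, (1 / 24 : ℝ) ^ s := Finset.sum_le_sum hinner
    _ ≤ 1 / 23 := geom_bound R fun s hs => (Finset.mem_Icc.1 (Finset.mem_filter.1 hs).1).1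

/-- **The spread lemma.** -/
theorem spread {tm : ℕ} [DecidablePred (Good (n := n) (r := 2) tm)]
    (S : Finset (Edge n 2)) {q : ℝ} (hq0 : 0 < q) (hq1 : q ≤ 1 / 2)
    (h1 : 1 ≤ q * S.card) (h2 : q ^ 2 * S.card ≤ 1 / 100) (htm : 10 * q * S.card ≤ tm)
    (htm2 : q * tm ≤ 3 / 5) :
    2 / 5 ≤ ∑ U ∈ S.powerset.filter (Good tm), pw q S U := by
  classical
  have hq1' : q ≤ 1 := by linarith
  -- the three exceptional events
  have hE : pw q S ∅ ≤ 0.368 := by
    have : pw q S ∅ = (1 - q) ^ S.card := by simp [pw]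
    rw [this]
    have hexp : 1 - q ≤ Real.exp (-q) := Real.one_sub_le_exp_neg q
    have : (1 - q) ^ S.card ≤ Real.exp (-q) ^ S.card :=
      pow_le_pow_left₀ (by linarith) hexp _
    refine this.trans ?_
    rw [← Real.exp_nat_mul]
    have h3 : Real.exp (S.card * (-q)) ≤ Real.exp (-1) :=
      Real.exp_le_exp.2 (by nlinarith)
    refine h3.trans ?_
    rw [Real.exp_neg, inv_le_comm₀ (Real.exp_pos 1) (by norm_num)]
    have := Real.exp_one_gt_d9
    norm_num at this ⊢
    linarith
  have htmpos : 0 < tm := by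
    have : (10 : ℝ) ≤ tm := by nlinarith
    have : (0 : ℝ) < tm := by linarith
    exact_mod_cast this
  have hM : ∑ U ∈ S.powerset.filter (fun U => tm < U.card), pw q S U ≤ 1 / 10 := by
    refine (pw_markov hq0.le hq1' S htmpos).trans ?_
    have : (0 : ℝ) < tm := by exact_mod_cast htmpos
    rw [div_le_iff₀ this]
    linarith
  have hB := bad_bound S hq0 hq1 h2 htm2
  have hcover : (1 : ℝ) ≤ ∑ U ∈ S.powerset.filter (Good tm), pw q S U + pw q S ∅
      + ∑ U ∈ S.powerset.filter (fun U => tm < U.card), pw q S U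
      + ∑ U ∈ S.powerset.filter
        (fun U => U.Nonempty ∧ U.card ≤ tm ∧ 3 * (span U).card < U.card), pw q S U := by
    rw [← pw_sum_eq_one q S]
    have hpoint : ∀ U ∈ S.powerset, pw q S U ≤ (if Good tm U then pw q S U else 0)
        + (if U = ∅ then pw q S U else 0) + (if tm < U.card then pw q S U else 0)
        + (if U.Nonempty ∧ U.card ≤ tm ∧ 3 * (span U).card < U.card then pw q S U else 0) := by
      intro U _
      have hp := pw_nonneg hq0.le hq1' S U
      by_cases hg : Good tm U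
      · rw [if_pos hg]
        have h1 : 0 ≤ (if U = ∅ then pw q S U else 0) := by split_ifs <;> linarith
        have h2 : 0 ≤ (if tm < U.card then pw q S U else 0) := by split_ifs <;> linarith
        have h3 : 0 ≤ (if U.Nonempty ∧ U.card ≤ tm ∧ 3 * (span U).card < U.card then pw q S U else 0) := by
          split_ifs <;> linarith
        linarith
      · rw [if_neg hg]
        have h2 : 0 ≤ (if tm < U.card then pw q S U else 0) := by split_ifs <;> linarith
        have h3 : 0 ≤ (if U.Nonempty ∧ U.card ≤ tm ∧ 3 * (span U).card < U.card then pw q S U else 0) := by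
          split_ifs <;> linarith
        have h1 : 0 ≤ (if U = ∅ then pw q S U else 0) := by split_ifs <;> linarith
        by_cases he : U = ∅
        · rw [if_pos he]; linarith
        · by_cases ht : tm < U.card
          · rw [if_pos ht]; linarith
          · have : U.Nonempty ∧ U.card ≤ tm ∧ 3 * (span U).card < U.card := by
              refine ⟨Finset.nonempty_iff_ne_empty.2 he, by omega, ?_⟩
              by_contra hlt
              exact hg ⟨Finset.nonempty_iff_ne_empty.2 he, by omega, by omega⟩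
            rw [if_pos this]; linarith
    refine (Finset.sum_le_sum hpoint).trans ?_
    rw [Finset.sum_add_distrib, Finset.sum_add_distrib, Finset.sum_add_distrib,
      ← Finset.sum_filter, ← Finset.sum_filter, ← Finset.sum_filter, ← Finset.sum_filter]
    have hempty : ∑ U ∈ S.powerset.filter (fun U => U = ∅), pw q S U = pw q S ∅ := by
      have : S.powerset.filter (fun U => U = ∅) = {∅} := by
        ext U
        simp only [mem_filter, mem_powerset, mem_singleton]
        constructor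
        · exact fun h => h.2
        · rintro rfl; exact ⟨Finset.empty_subset _, rfl⟩
      rw [this, Finset.sum_singleton]
    rw [hempty]
  norm_num at hE hM hB hcover ⊢
  linarith

end Vale.Agent.Lib.P063
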