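import Vale.Agent.Lib.P063.Main1
import Vale.Agent.Lib.P063.Graph
import Vale.Agent.Lib.P063.Spread

/-!
The core estimate for graph properties: under explicit numerical hypotheses, half of the variance
lives above level `m`.
-/

set_option linter.unusedVariables false
set_option linter.unusedSectionVars false
set_option linter.unusedSimpArgs false

namespace Vale.Agent.Lib.P063

open Finset

variable {n : ℕ}

lemma span_card_le (U : Finset (Edge n 2)) : (span U).card ≤ 2 * U.card := by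
  unfold span
  refine le_trans Finset.card_biUnion_le ?_
  rw [mul_comm, ← smul_eq_mul]
  have : ∀ e ∈ U, (e.1).card ≤ 2 := fun e _ => le_of_eq e.2
  have h := Finset.sum_le_card_nsmul U (fun e : Edge n 2 => (e.1).card) 2 this
  exact h

lemma sum_ww_le_one {f : (Edge n 2 → Bool) → ℝ} (hfb : IsBool f) {p : ℝ} (hp0 : 0 < p) (hp1 : p < 1) :
    ∑ S ∈ univ.filter (fun S : Finset (Edge n 2) => S.Nonempty), ww f p S ≤ 1 := by
  have hb : Bias (fun _ : Edge n 2 => p) := fun _ => ⟨hp0, hp1⟩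
  refine le_trans (Finset.sum_le_sum_of_subset_of_nonneg (Finset.subset_univ _)
    (fun S _ _ => ww_nonneg f p S)) ?_
  have := Ex_sq_eq hb f
  unfold ww
  rw [← this]
  exact Ex_le_one_of_le_one hb hfb.sq_le_one

/-- Real-variable form of the estimate for one large coefficient. -/
lemma big_term_real {y θ A B C : ℝ} {t : ℕ} (hy0 : 0 ≤ y) (hθ0 : 0 < θ) (hA : 0 ≤ A) (hB : 0 < B)
    (hy1 : y ≤ 1 / C) (hn : 2 * 2 ^ t * A * (1 / C) ^ (B / 2) ≤ 3 / 20) :
    (2 * θ) ^ t * (2 * A * y ^ (1 + B / 2)) ≤ 3 / 20 * (θ ^ t * y) := by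
  have hpow : y ^ (B / 2) ≤ (1 / C) ^ (B / 2) := Real.rpow_le_rpow hy0 hy1 (by positivity)
  have hbr : 2 * 2 ^ t * A * y ^ (B / 2) ≤ 3 / 20 :=
    le_trans (mul_le_mul_of_nonneg_left hpow (by positivity)) hn
  have hsplit : y ^ (1 + B / 2) = y * y ^ (B / 2) := by
    rcases hy0.eq_or_lt with h | h
    · rw [← h, Real.zero_rpow (by positivity), Real.zero_rpow (by positivity)]
      simp
    · rw [Real.rpow_add h, Real.rpow_one]
  rw [hsplit, mul_pow]
  have e : 2 ^ t * θ ^ t * (2 * A * (y * y ^ (B / 2))) =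
      (2 * 2 ^ t * A * y ^ (B / 2)) * (θ ^ t * y) := by ring
  rw [e]
  exact mul_le_mul_of_nonneg_right hbr (by positivity)

/-- The estimate for the large coefficients on good sets. -/
lemma core_big {f : (Edge n 2 → Bool) → ℝ} (hfb : IsBool f) (hf : FInv f)
    {θ p β : ℝ} (hθ0 : 0 < θ) (hθ1 : θ ≤ 1) (hp0 : 0 < p) (hp1 : p < 1) (hβ0 : 0 < β)
    (tm : ℕ) (a : ℕ → ℝ) (ha : ∀ t, 0 < a t)
    (hnum : ∀ t v : ℕ, 1 ≤ t → t ≤ tm → t ≤ 3 * v → v ≤ 2 * t → v ≤ n →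
      2 * 2 ^ t * a t ^ (-β) * (1 / ((n.choose v : ℝ) * θ ^ t)) ^ (β / 2) ≤ 3 / 20)
    (G : Finset (Finset (Edge n 2))) (hG : ∀ U ∈ G, Good tm U) :
    ∑ U ∈ G, (2 * θ) ^ U.card * (2 * a U.card ^ (-β) * MM (ww f p) θ U ^ (1 + β / 2)) ≤
      3 / 20 * ∑ S ∈ univ.filter (fun S : Finset (Edge n 2) => S.Nonempty), ww f p S := by
  classical
  have hw0 : ∀ S, 0 ≤ ww f p S := ww_nonneg f p
  have hVar1 := sum_ww_le_one hfb hp0 hp1
  have hterm : ∀ U ∈ G, (2 * θ) ^ U.card * (2 * a U.card ^ (-β) * MM (ww f p) θ U ^ (1 + β / 2)) ≤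
      3 / 20 * (θ ^ U.card * MM (ww f p) θ U) := by
    intro U hU
    have hU' := hG U hU
    have hy0 : 0 ≤ MM (ww f p) θ U := MM_nonneg hw0 hθ1 U
    have hvn : (span U).card ≤ n := by
      have := Finset.card_le_univ (span U)
      simpa using this
    have hC : 0 < (n.choose (span U).card : ℝ) := by exact_mod_cast Nat.choose_pos hvn
    have hθt : 0 < θ ^ U.card := by positivity
    have hCθ : 0 < (n.choose (span U).card : ℝ) * θ ^ U.card := by positivity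
    have horb := orbit_bound hf p hθ0.le hθ1 hU'.1
    have hy1 : MM (ww f p) θ U ≤ 1 / ((n.choose (span U).card : ℝ) * θ ^ U.card) := by
      rw [le_div_iff₀ hCθ]
      calc MM (ww f p) θ U * ((n.choose (span U).card : ℝ) * θ ^ U.card)
          = (n.choose (span U).card : ℝ) * (θ ^ U.card * MM (ww f p) θ U) := by ring
        _ ≤ _ := horb
        _ ≤ 1 := hVar1
    have hn := hnum U.card (span U).card (Finset.card_pos.mpr hU'.1) hU'.2.1 hU'.2.2 (span_card_le U) hvn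
    exact big_term_real hy0 hθ0 (Real.rpow_pos_of_pos (ha _) _).le hβ0 hy1 hn
  refine le_trans (Finset.sum_le_sum hterm) ?_
  rw [← Finset.mul_sum]
  apply mul_le_mul_of_nonneg_left _ (by norm_num)
  refine le_trans ?_ (sum_nonempty_MM_le hw0 hθ0.le hθ1)
  apply Finset.sum_le_sum_of_subset_of_nonneg
  · intro U hU
    simp only [Finset.mem_filter, Finset.mem_univ, true_and]
    exact (hG U hU).1
  · intro U _ _
    exact mul_nonneg (pow_nonneg hθ0.le _) (MM_nonneg hw0 hθ1 U)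

/-- The middle levels carry little weight. -/
lemma core_mid {tm : ℕ} [DecidablePred (Good (n := n) (r := 2) tm)] (f : (Edge n 2 → Bool) → ℝ)
    {p θ : ℝ} (hθ0 : 0 < θ) (hθ1 : θ ≤ 1 / 4) (l m : ℕ)
    (hl : 1 ≤ 2 * θ * l) (hm : (2 * θ) ^ 2 * m ≤ 1 / 100) (hmt : 10 * (2 * θ) * m ≤ tm)
    (htm : 2 * θ * tm ≤ 3 / 5) :
    2 / 5 * ∑ S ∈ univ.filter (fun S : Finset (Edge n 2) => l ≤ S.card ∧ S.card ≤ m), ww f p S ≤
      ∑ U ∈ univ.filter (Good tm), (2 * θ) ^ U.card * MM (ww f p) (2 * θ) U := by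
  have hw0 : ∀ S, 0 ≤ ww f p S := ww_nonneg f p
  rw [sum_family_MM, Finset.mul_sum, Finset.sum_filter]
  refine Finset.sum_le_sum fun S _ => ?_
  have hq0 : 0 ≤ 2 * θ := by positivity
  have hq1 : 2 * θ ≤ 1 := by linarith
  split_ifs with hS
  · have hcardl : (l : ℝ) ≤ S.card := by exact_mod_cast hS.1
    have hcardm : (S.card : ℝ) ≤ m := by exact_mod_cast hS.2
    have h1 : 1 ≤ 2 * θ * S.card :=
      le_trans hl (mul_le_mul_of_nonneg_left hcardl hq0)
    have h2 : (2 * θ) ^ 2 * S.card ≤ 1 / 100 :=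
      le_trans (mul_le_mul_of_nonneg_left hcardm (by positivity)) hm
    have h3 : 10 * (2 * θ) * S.card ≤ tm :=
      le_trans (mul_le_mul_of_nonneg_left hcardm (by positivity)) hmt
    have hsp := spread (tm := tm) S (q := 2 * θ) (by positivity) (by linarith) h1 h2 h3 htm
    have he : S.powerset ∩ univ.filter (Good tm) = S.powerset.filter (Good tm) := by
      ext U
      simp [Finset.mem_filter]
    rw [he]
    calc 2 / 5 * ww f p S = ww f p S * (2 / 5) := by ring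
      _ ≤ _ := mul_le_mul_of_nonneg_left hsp (hw0 S)
  · apply mul_nonneg (hw0 S)
    apply Finset.sum_nonneg
    intro U _
    exact pw_nonneg_s hq0 hq1 S U

/-- Every nonempty set lies in one of the three level ranges. -/
lemma core_cover (w : Finset (Edge n 2) → ℝ) (hw0 : ∀ S, 0 ≤ w S) (l m : ℕ) :
    ∑ S ∈ univ.filter (fun S : Finset (Edge n 2) => S.Nonempty), w S ≤
      ∑ S ∈ univ.filter (fun S : Finset (Edge n 2) => 1 ≤ S.card ∧ S.card ≤ l), w S
      + ∑ S ∈ univ.filter (fun S : Finset (Edge n 2) => l ≤ S.card ∧ S.card ≤ m), w S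
      + ∑ S ∈ univ.filter (fun S : Finset (Edge n 2) => m < S.card), w S := by
  simp only [Finset.sum_filter]
  rw [← Finset.sum_add_distrib, ← Finset.sum_add_distrib]
  refine Finset.sum_le_sum fun S _ => ?_
  have := hw0 S
  by_cases h1 : S.Nonempty
  · have hc : 1 ≤ S.card := Finset.card_pos.mpr h1
    rw [if_pos h1]
    have hcases : (1 ≤ S.card ∧ S.card ≤ l) ∨ (l ≤ S.card ∧ S.card ≤ m) ∨ m < S.card := by omega
    rcases hcases with h | h | h
    · rw [if_pos h]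
      split_ifs <;> linarith
    · rw [if_pos h]
      split_ifs <;> linarith
    · rw [if_pos h]
      split_ifs <;> linarith
  · rw [if_neg h1]
    split_ifs <;> linarith

/-- The high levels control the total influence. -/
lemma core_high (f : (Edge n 2 → Bool) → ℝ) {p : ℝ} (hp0 : 0 < p) (hp1 : p < 1) (m : ℕ) :
    (m : ℝ) * ∑ S ∈ univ.filter (fun S : Finset (Edge n 2) => m < S.card), ww f p S ≤
      sg p ^ 2 * totI (fun _ => p) f := by
  have hb : Bias (fun _ : Edge n 2 => p) := fun _ => ⟨hp0, hp1⟩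
  have hw0 : ∀ S, 0 ≤ ww f p S := ww_nonneg f p
  rw [← sum_card_coef hb f, Finset.mul_sum]
  refine le_trans (Finset.sum_le_sum (g := fun U => (U.card : ℝ) * ww f p U) ?_)
    (Finset.sum_le_sum_of_subset_of_nonneg (Finset.subset_univ _) ?_)
  · intro U hU
    have : (m : ℝ) ≤ U.card := by
      have := (Finset.mem_filter.mp hU).2
      exact_mod_cast this.le
    exact mul_le_mul_of_nonneg_right this (hw0 U)
  · intro U _ _
    exact mul_nonneg (by positivity) (hw0 U)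

/-- The core estimate. -/
theorem core {f : (Edge n 2 → Bool) → ℝ} (hfb : IsBool f) (hf : FInv f)
    {θ p ρs ρx β τ K : ℝ} (hθ0 : 0 < θ) (hθ1 : θ ≤ 1 / 4) (hp0 : 0 < p) (hp1 : p < 1)
    (hs0 : 0 < ρs) (hx0 : 0 < ρx) (hs1 : ρs ^ 2 ≤ 1 / 4) (hx1 : ρx ^ 2 ≤ 1 / 4)
    (hs2 : 3 * ρs ^ 4 ≤ sg θ ^ 2) (hx2 : 3 * ρx ^ 4 ≤ sg p ^ 2) (hβ0 : 0 < β) (hβ1 : β < 1)
    (hq : 1 - 2 * θ ≤ (ρx ^ β) ^ 2 * ((ρs ^ β) ^ 2 * (θ * (1 - θ)) + (1 - θ) ^ 2))
    (tm l m : ℕ) (a : ℕ → ℝ) (ha : ∀ t, 0 < a t) (hτ : 0 < τ) (hK : 0 < K)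
    (hnum : ∀ t v : ℕ, 1 ≤ t → t ≤ tm → t ≤ 3 * v → v ≤ 2 * t → v ≤ n →
      2 * 2 ^ t * a t ^ (-β) * (1 / ((n.choose v : ℝ) * θ ^ t)) ^ (β / 2) ≤ 3 / 20)
    (hl : 1 ≤ 2 * θ * l) (hm : (2 * θ) ^ 2 * m ≤ 1 / 100) (hmt : 10 * (2 * θ) * m ≤ tm)
    (htm : 2 * θ * tm ≤ 3 / 5)
    (htiny : 5 / 2 * (2 ^ (tm + 1) * (sg p ^ 2 * ((ρx ^ 2)⁻¹) ^ tm * √τ * K
        + ∑ t ∈ Finset.Icc 1 tm, (K / τ) ^ t * a t ^ 2 + θ * totI (fun _ => p) f / K))
      + sg p ^ 2 * ((ρx ^ 2)⁻¹) ^ l * ((Fintype.card (Edge n 2) : ℝ) *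
        (totI (fun _ => p) f / (Fintype.card (Edge n 2) : ℝ)) ^ (3 / 2 : ℝ)) ≤
      (∑ S ∈ univ.filter (fun S : Finset (Edge n 2) => S.Nonempty), ww f p S) / 8) :
    (m : ℝ) * ((∑ S ∈ univ.filter (fun S : Finset (Edge n 2) => S.Nonempty), ww f p S) / 2) ≤
      sg p ^ 2 * totI (fun _ => p) f := by
  classical
  have hw0 : ∀ S, 0 ≤ ww f p S := ww_nonneg f p
  have hGc : ∀ U ∈ univ.filter (Good (n := n) (r := 2) tm), 1 ≤ U.card ∧ U.card ≤ tm := by
    intro U hU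
    have h := (Finset.mem_filter.mp hU).2
    exact ⟨Finset.card_pos.mpr h.1, h.2.1⟩
  have hmain := main_sum (f := f) hθ0 (by linarith) hp0 hp1 hfb hs0 hx0 hs1 hx1 hs2 hx2 hβ0 hβ1 hq tm a ha
    hτ hK (univ.filter (Good (n := n) (r := 2) tm)) hGc
  have hbig := core_big hfb hf (p := p) (β := β) hθ0 (by linarith) hp0 hp1 hβ0 tm a ha hnum
    (univ.filter (Good (n := n) (r := 2) tm)) (fun U hU => (Finset.mem_filter.mp hU).2)
  have hmid := core_mid (tm := tm) f (p := p) hθ0 hθ1 l m hl hm hmt htm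
  have hlow := low_levels hp0 hp1 hfb hf hx0 hx1 hx2 l
  have hcov := core_cover (ww f p) hw0 l m
  have hhigh := core_high f hp0 hp1 m
  generalize (∑ S ∈ univ.filter (fun S : Finset (Edge n 2) => S.Nonempty), ww f p S) = Var at *
  generalize (∑ S ∈ univ.filter (fun S : Finset (Edge n 2) => m < S.card), ww f p S) = Hi at *
  generalize (∑ S ∈ univ.filter (fun S : Finset (Edge n 2) => l ≤ S.card ∧ S.card ≤ m), ww f p S) = Mi at *
  generalize (∑ S ∈ univ.filter (fun S : Finset (Edge n 2) => 1 ≤ S.card ∧ S.card ≤ l), ww f p S) = Lo at *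
  generalize (2 ^ (tm + 1) * (sg p ^ 2 * ((ρx ^ 2)⁻¹) ^ tm * √τ * K
        + ∑ t ∈ Finset.Icc 1 tm, (K / τ) ^ t * a t ^ 2 + θ * totI (fun _ => p) f / K)) = T1 at *
  generalize (sg p ^ 2 * ((ρx ^ 2)⁻¹) ^ l * ((Fintype.card (Edge n 2) : ℝ) *
        (totI (fun _ => p) f / (Fintype.card (Edge n 2) : ℝ)) ^ (3 / 2 : ℝ))) = T2 at *
  have hHi : Var / 2 ≤ Hi := by linarith
  exact le_trans (mul_le_mul_of_nonneg_left hHi (by positivity)) hhigh

end Vale.Agent.Lib.P063
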