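import Mathlib

/-!
Biased Fourier analysis on the finite cube `ι → Bool`, with a bias per coordinate:
expectation, characters, coefficients, expansion, Parseval, the tower rule.
-/

set_option linter.unusedVariables false
set_option linter.unusedSectionVars false
set_option linter.unusedSimpArgs false

namespace Vale.Agent.Lib.P063

open Finset

/-- Weight of a single bit with bias `b`. -/
noncomputable def bw (b : ℝ) (v : Bool) : ℝ := if v then b else 1 - b

@[simp] lemma bw_true (b : ℝ) : bw b true = b := by simp [bw]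
@[simp] lemma bw_false (b : ℝ) : bw b false = 1 - b := by simp [bw]

/-- Standard deviation of a bit of bias `b`. -/
noncomputable def sg (b : ℝ) : ℝ := √(b * (1 - b))

/-- The normalised character of a single bit. -/
noncomputable def chi1 (b : ℝ) (v : Bool) : ℝ := ((if v then 1 else 0) - b) / sg b

lemma sg_pos {b : ℝ} (h0 : 0 < b) (h1 : b < 1) : 0 < sg b :=
  Real.sqrt_pos.mpr (mul_pos h0 (by linarith))

lemma sg_sq {b : ℝ} (h0 : 0 < b) (h1 : b < 1) : sg b ^ 2 = b * (1 - b) :=
  Real.sq_sqrt (mul_pos h0 (by linarith)).le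

lemma sg_le_half {b : ℝ} (h0 : 0 < b) (h1 : b < 1) : sg b ≤ 1 / 2 := by
  have h := sg_sq h0 h1
  have hs := sg_pos h0 h1
  nlinarith [sq_nonneg (b - 1 / 2)]

@[simp] lemma chi1_true (b : ℝ) : chi1 b true = (1 - b) / sg b := by simp [chi1]
@[simp] lemma chi1_false (b : ℝ) : chi1 b false = - b / sg b := by simp [chi1]

lemma chi1_mean {b : ℝ} : b * chi1 b true + (1 - b) * chi1 b false = 0 := by
  simp only [chi1_true, chi1_false]
  ring

lemma chi1_second {b : ℝ} (h0 : 0 < b) (h1 : b < 1) :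
    b * chi1 b true ^ 2 + (1 - b) * chi1 b false ^ 2 = 1 := by
  have hs := sg_pos h0 h1
  have h2 := sg_sq h0 h1
  simp only [chi1_true, chi1_false, div_pow]
  field_simp
  rw [h2]
  ring

/-- Third moment of the character of a bit. -/
lemma chi1_third {b : ℝ} (h0 : 0 < b) (h1 : b < 1) :
    b * chi1 b true ^ 3 + (1 - b) * chi1 b false ^ 3 = (1 - 2 * b) / sg b := by
  have hs := sg_pos h0 h1
  have h2 := sg_sq h0 h1
  simp only [chi1_true, chi1_false, div_pow]
  field_simp
  rw [show sg b ^ 2 = b * (1 - b) from h2]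
  ring

/-- Fourth moment of the character of a bit. -/
lemma chi1_fourth {b : ℝ} (h0 : 0 < b) (h1 : b < 1) :
    b * chi1 b true ^ 4 + (1 - b) * chi1 b false ^ 4 = (1 - 3 * (b * (1 - b))) / sg b ^ 2 := by
  have hs := sg_pos h0 h1
  have h2 := sg_sq h0 h1
  simp only [chi1_true, chi1_false, div_pow]
  have h4 : sg b ^ 4 = (b * (1 - b)) ^ 2 := by rw [← h2]; ring
  rw [h4, h2]
  have hb : b * (1 - b) ≠ 0 := (mul_pos h0 (by linarith)).ne'
  have h1b : (1 - b) ≠ 0 := by linarith
  field_simp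
  ring

lemma chi1_kernel {b : ℝ} (h0 : 0 < b) (h1 : b < 1) (u v : Bool) :
    bw b v * (1 + chi1 b u * chi1 b v) = if u = v then 1 else 0 := by
  have hs := sg_pos h0 h1
  have h2 := sg_sq h0 h1
  have h1b : (1 - b) ≠ 0 := by linarith
  have hb : b ≠ 0 := h0.ne'
  have hd : ∀ x y : ℝ, x / sg b * (y / sg b) = x * y / (b * (1 - b)) := by
    intro x y
    rw [← h2]
    field_simp
  cases u <;> cases v <;> simp only [bw_true, bw_false, chi1_true, chi1_false, hd]
  · rw [if_pos trivial]; field_simp; ring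
  · rw [if_neg (by simp)]; field_simp; ring
  · rw [if_neg (by simp)]; field_simp; ring
  · rw [if_pos trivial]; field_simp; ring

section Cube

variable {ι : Type*} [Fintype ι] [DecidableEq ι]

/-- All biases lie strictly between `0` and `1`. -/
def Bias (b : ι → ℝ) : Prop := ∀ i, 0 < b i ∧ b i < 1

/-- Product weight of a point. -/
noncomputable def wt (b : ι → ℝ) (x : ι → Bool) : ℝ := ∏ i, bw (b i) (x i)

/-- Expectation under the product measure with biases `b`. -/
noncomputable def Ex (b : ι → ℝ) (h : (ι → Bool) → ℝ) : ℝ := ∑ x, wt b x * h x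

/-- The character of coordinate `i`. -/
noncomputable def chi (b : ι → ℝ) (i : ι) (x : ι → Bool) : ℝ := chi1 (b i) (x i)

/-- The Fourier character of a set of coordinates. -/
noncomputable def phi (b : ι → ℝ) (S : Finset ι) (x : ι → Bool) : ℝ := ∏ i ∈ S, chi b i x

/-- Fourier coefficient. -/
noncomputable def coef (b : ι → ℝ) (h : (ι → Bool) → ℝ) (S : Finset ι) : ℝ :=
  Ex b (fun x => h x * phi b S x)

lemma bw_nonneg {b : ℝ} (h0 : 0 < b) (h1 : b < 1) (v : Bool) : 0 ≤ bw b v := by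
  cases v <;> simp <;> linarith

lemma wt_nonneg {b : ι → ℝ} (hb : Bias b) (x : ι → Bool) : 0 ≤ wt b x :=
  Finset.prod_nonneg fun i _ => bw_nonneg (hb i).1 (hb i).2 _

lemma bw_pos {b : ℝ} (h0 : 0 < b) (h1 : b < 1) (v : Bool) : 0 < bw b v := by
  cases v <;> simp <;> linarith

lemma wt_pos {b : ι → ℝ} (hb : Bias b) (x : ι → Bool) : 0 < wt b x :=
  Finset.prod_pos fun i _ => bw_pos (hb i).1 (hb i).2 _

lemma Ex_congr {b : ι → ℝ} {g h : (ι → Bool) → ℝ} (H : ∀ x, g x = h x) : Ex b g = Ex b h := by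
  unfold Ex
  exact Finset.sum_congr rfl fun x _ => by rw [H]

lemma Ex_add (b : ι → ℝ) (g h : (ι → Bool) → ℝ) :
    Ex b (fun x => g x + h x) = Ex b g + Ex b h := by
  unfold Ex
  rw [← Finset.sum_add_distrib]
  exact Finset.sum_congr rfl fun x _ => by ring

lemma Ex_sub (b : ι → ℝ) (g h : (ι → Bool) → ℝ) :
    Ex b (fun x => g x - h x) = Ex b g - Ex b h := by
  unfold Ex
  rw [← Finset.sum_sub_distrib]
  exact Finset.sum_congr rfl fun x _ => by ring

lemma Ex_const_mul (b : ι → ℝ) (c : ℝ) (h : (ι → Bool) → ℝ) :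
    Ex b (fun x => c * h x) = c * Ex b h := by
  unfold Ex
  rw [Finset.mul_sum]
  exact Finset.sum_congr rfl fun x _ => by ring

lemma Ex_mul_const (b : ι → ℝ) (c : ℝ) (h : (ι → Bool) → ℝ) :
    Ex b (fun x => h x * c) = Ex b h * c := by
  unfold Ex
  rw [Finset.sum_mul]
  exact Finset.sum_congr rfl fun x _ => by ring

lemma Ex_sum {α : Type*} (s : Finset α) (b : ι → ℝ) (h : α → (ι → Bool) → ℝ) :
    Ex b (fun x => ∑ a ∈ s, h a x) = ∑ a ∈ s, Ex b (h a) := by
  unfold Ex
  rw [Finset.sum_comm]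
  exact Finset.sum_congr rfl fun x _ => by rw [Finset.mul_sum]

lemma Ex_nonneg {b : ι → ℝ} (hb : Bias b) {h : (ι → Bool) → ℝ} (H : ∀ x, 0 ≤ h x) :
    0 ≤ Ex b h :=
  Finset.sum_nonneg fun x _ => mul_nonneg (wt_nonneg hb x) (H x)

lemma Ex_mono {b : ι → ℝ} (hb : Bias b) {g h : (ι → Bool) → ℝ} (H : ∀ x, g x ≤ h x) :
    Ex b g ≤ Ex b h :=
  Finset.sum_le_sum fun x _ => mul_le_mul_of_nonneg_left (H x) (wt_nonneg hb x)

/-- Expectation of a product function. -/
lemma Ex_prod (b : ι → ℝ) (h : ι → Bool → ℝ) :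
    Ex b (fun x => ∏ i, h i (x i)) = ∏ i, (b i * h i true + (1 - b i) * h i false) := by
  have := Finset.prod_univ_sum (fun _ : ι => (Finset.univ : Finset Bool))
    (fun i v => bw (b i) v * h i v)
  simp only [Fintype.piFinset_univ] at this
  unfold Ex wt
  simp only [← Finset.prod_mul_distrib]
  rw [← this]
  refine Finset.prod_congr rfl fun i _ => ?_
  simp

lemma Ex_one (b : ι → ℝ) : Ex b (fun _ => 1) = 1 := by
  have := Ex_prod b (fun _ _ => 1)
  simp only [Finset.prod_const_one, mul_one] at this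
  rw [this]
  apply Finset.prod_eq_one
  intro i _
  ring

lemma Ex_const (b : ι → ℝ) (c : ℝ) : Ex b (fun _ => c) = c := by
  have := Ex_const_mul b c (fun _ => 1)
  simp only [mul_one] at this
  rw [this, Ex_one, mul_one]

lemma sum_wt (b : ι → ℝ) : ∑ x, wt b x = 1 := by
  have := Ex_one b
  simpa [Ex] using this

/-- Tower rule: integrate out coordinate `k`. -/
lemma Ex_tower (b : ι → ℝ) (k : ι) (G : (ι → Bool) → ℝ) :
    Ex b G = Ex b (fun y => b k * G (Function.update y k true)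
      + (1 - b k) * G (Function.update y k false)) := by
  classical
  -- split the sum over the coordinate `k`
  set e := Equiv.funSplitAt k Bool with he
  have key : ∀ F : (ι → Bool) → ℝ, ∑ x, F x = ∑ v : Bool, ∑ z : ({j // j ≠ k} → Bool),
      F (e.symm (v, z)) := by
    intro F
    rw [← Fintype.sum_prod_type' (f := fun v z => F (e.symm (v, z)))]
    exact (Equiv.sum_comp e.symm F).symm
  have hk : ∀ v z, (e.symm (v, z)) k = v := by
    intro v z
    simp [he, Equiv.funSplitAt, Equiv.piSplitAt]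
  have hne : ∀ v z (j : ι) (hj : j ≠ k), (e.symm (v, z)) j = z ⟨j, hj⟩ := by
    intro v z j hj
    simp [he, Equiv.funSplitAt, Equiv.piSplitAt, hj]
  have hupd : ∀ v w z, Function.update (e.symm (v, z)) k w = e.symm (w, z) := by
    intro v w z
    funext j
    by_cases hj : j = k
    · subst hj
      simp [hk]
    · rw [Function.update_of_ne hj, hne _ _ _ hj, hne _ _ _ hj]
  have hwt : ∀ v z, wt b (e.symm (v, z)) = bw (b k) v *
      ∏ j : {j // j ≠ k}, bw (b j) (z j) := by
    intro v z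
    unfold wt
    rw [← Finset.mul_prod_erase Finset.univ _ (Finset.mem_univ k), hk]
    congr 1
    rw [Finset.prod_subtype (Finset.univ.erase k) (p := fun j => j ≠ k) (by simp)
      (fun j => bw (b j) ((e.symm (v, z)) j))]
    refine Finset.prod_congr rfl fun j _ => ?_
    rw [hne _ _ _ j.2]
  unfold Ex
  rw [key, key]
  simp only [Fintype.sum_bool, hwt, hupd, bw_true, bw_false]
  rw [← Finset.sum_add_distrib, ← Finset.sum_add_distrib]
  refine Finset.sum_congr rfl fun z _ => ?_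
  ring

/-- Independence from one coordinate: a factor depending on coordinate `k` alone splits off. -/
lemma Ex_indep (b : ι → ℝ) (k : ι) {G : (ι → Bool) → ℝ}
    (hG : ∀ y v, G (Function.update y k v) = G y) (u : Bool → ℝ) :
    Ex b (fun y => G y * u (y k)) = Ex b G * (b k * u true + (1 - b k) * u false) := by
  rw [Ex_tower b k, ← Ex_mul_const]
  refine Ex_congr fun y => ?_
  simp only [hG, Function.update_self]
  ring

lemma phi_update {b : ι → ℝ} {S : Finset ι} {k : ι} (hk : k ∉ S) (y : ι → Bool) (v : Bool) :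
    phi b S (Function.update y k v) = phi b S y := by
  unfold phi chi
  refine Finset.prod_congr rfl fun i hi => ?_
  have : i ≠ k := fun h => hk (h ▸ hi)
  rw [Function.update_of_ne this]

/-- Product of two characters as a product over all coordinates. -/
lemma phi_mul_phi (b : ι → ℝ) (S T : Finset ι) (x : ι → Bool) :
    phi b S x * phi b T x = ∏ i, ((if i ∈ S then chi1 (b i) (x i) else 1) *
      (if i ∈ T then chi1 (b i) (x i) else 1)) := by
  rw [Finset.prod_mul_distrib, Finset.prod_ite_mem, Finset.prod_ite_mem]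
  simp [phi, chi]

/-- Orthonormality of the characters. -/
lemma Ex_phi_mul_phi {b : ι → ℝ} (hb : Bias b) (S T : Finset ι) :
    Ex b (fun x => phi b S x * phi b T x) = if S = T then 1 else 0 := by
  have h1 : (fun x => phi b S x * phi b T x) = fun x => ∏ i, (fun i v =>
      (if i ∈ S then chi1 (b i) v else 1) * (if i ∈ T then chi1 (b i) v else 1)) i (x i) := by
    funext x
    exact phi_mul_phi b S T x
  rw [h1, Ex_prod b (fun i v =>
      (if i ∈ S then chi1 (b i) v else 1) * (if i ∈ T then chi1 (b i) v else 1))]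
  have hfac : ∀ i, b i * ((if i ∈ S then chi1 (b i) true else 1) *
      (if i ∈ T then chi1 (b i) true else 1)) + (1 - b i) *
      ((if i ∈ S then chi1 (b i) false else 1) * (if i ∈ T then chi1 (b i) false else 1)) =
      if (i ∈ S ↔ i ∈ T) then 1 else 0 := by
    intro i
    have m1 := chi1_mean (b := b i)
    have m2 := chi1_second (hb i).1 (hb i).2
    by_cases hS : i ∈ S <;> by_cases hT : i ∈ T <;>
      simp only [hS, hT, if_true, if_false, mul_one, one_mul, iff_self, iff_false, false_iff,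
        not_true_eq_false, not_false_eq_true, iff_true, true_iff]
    · linear_combination m2
    · linear_combination m1
    · linear_combination m1
    · ring
  simp only [hfac]
  by_cases hST : S = T
  · subst hST
    simp
  · rw [if_neg hST]
    have : ∃ i, ¬ (i ∈ S ↔ i ∈ T) := by
      by_contra hcon
      push Not at hcon
      exact hST (Finset.ext hcon)
    obtain ⟨i, hi⟩ := this
    exact Finset.prod_eq_zero (Finset.mem_univ i) (by simp [hi])

/-- The reproducing kernel of the characters. -/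
lemma sum_phi_mul_phi (b : ι → ℝ) (x y : ι → Bool) :
    ∑ S : Finset ι, phi b S y * phi b S x = ∏ i, (1 + chi1 (b i) (x i) * chi1 (b i) (y i)) := by
  rw [Finset.prod_one_add, Finset.powerset_univ]
  refine Finset.sum_congr rfl fun S _ => ?_
  unfold phi chi
  rw [← Finset.prod_mul_distrib]
  exact Finset.prod_congr rfl fun i _ => by ring

/-- Fourier expansion. -/
lemma expansion {b : ι → ℝ} (hb : Bias b) (h : (ι → Bool) → ℝ) (x : ι → Bool) :
    ∑ S : Finset ι, coef b h S * phi b S x = h x := by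
  unfold coef Ex
  simp only [Finset.sum_mul]
  rw [Finset.sum_comm]
  have hy : ∀ y, ∑ S : Finset ι, wt b y * (h y * phi b S y) * phi b S x =
      h y * (if x = y then 1 else 0) := by
    intro y
    have e1 : ∀ S : Finset ι, wt b y * (h y * phi b S y) * phi b S x =
        wt b y * h y * (phi b S y * phi b S x) := fun S => by ring
    simp only [e1]
    rw [← Finset.mul_sum, sum_phi_mul_phi]
    have e2 : wt b y * ∏ i, (1 + chi1 (b i) (x i) * chi1 (b i) (y i)) =
        ∏ i, (if x i = y i then (1 : ℝ) else 0) := by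
      unfold wt
      rw [← Finset.prod_mul_distrib]
      exact Finset.prod_congr rfl fun i _ => chi1_kernel (hb i).1 (hb i).2 _ _
    have e3 : (∏ i, (if x i = y i then (1 : ℝ) else 0)) = if x = y then 1 else 0 := by
      by_cases hxy : x = y
      · subst hxy
        simp
      · rw [if_neg hxy]
        have : ∃ i, x i ≠ y i := by
          by_contra hcon
          push Not at hcon
          exact hxy (funext hcon)
        obtain ⟨i, hi⟩ := this
        exact Finset.prod_eq_zero (Finset.mem_univ i) (by simp [hi])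
    calc wt b y * h y * ∏ i, (1 + chi1 (b i) (x i) * chi1 (b i) (y i))
        = h y * (wt b y * ∏ i, (1 + chi1 (b i) (x i) * chi1 (b i) (y i))) := by ring
      _ = h y * (if x = y then 1 else 0) := by rw [e2, e3]
  simp only [hy]
  simp

lemma expansion_fun {b : ι → ℝ} (hb : Bias b) (h : (ι → Bool) → ℝ) :
    (fun x => ∑ S : Finset ι, coef b h S * phi b S x) = h :=
  funext (expansion hb h)

/-- Parseval. -/
lemma parseval {b : ι → ℝ} (hb : Bias b) (g h : (ι → Bool) → ℝ) :
    Ex b (fun x => g x * h x) = ∑ S : Finset ι, coef b g S * coef b h S := by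
  have e : (fun x => g x * h x) =
      fun x => ∑ S : Finset ι, coef b g S * (h x * phi b S x) := by
    funext x
    conv_lhs => rw [← expansion hb g x]
    rw [Finset.sum_mul]
    exact Finset.sum_congr rfl fun S _ => by ring
  rw [e, Ex_sum]
  refine Finset.sum_congr rfl fun S _ => ?_
  rw [Ex_const_mul]
  rfl

lemma Ex_sq_eq {b : ι → ℝ} (hb : Bias b) (h : (ι → Bool) → ℝ) :
    Ex b (fun x => h x ^ 2) = ∑ S : Finset ι, coef b h S ^ 2 := by
  have := parseval hb h h
  simp only [← sq] at this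
  exact this

lemma coef_congr {b : ι → ℝ} {g h : (ι → Bool) → ℝ} (H : ∀ x, g x = h x) (S : Finset ι) :
    coef b g S = coef b h S := by
  unfold coef
  exact Ex_congr fun x => by rw [H]

lemma coef_add (b : ι → ℝ) (g h : (ι → Bool) → ℝ) (S : Finset ι) :
    coef b (fun x => g x + h x) S = coef b g S + coef b h S := by
  unfold coef
  rw [← Ex_add]
  exact Ex_congr fun x => by ring

lemma coef_const_mul (b : ι → ℝ) (c : ℝ) (h : (ι → Bool) → ℝ) (S : Finset ι) :
    coef b (fun x => c * h x) S = c * coef b h S := by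
  unfold coef
  rw [← Ex_const_mul]
  exact Ex_congr fun x => by ring

lemma coef_sum {α : Type*} (s : Finset α) (b : ι → ℝ) (h : α → (ι → Bool) → ℝ) (S : Finset ι) :
    coef b (fun x => ∑ a ∈ s, h a x) S = ∑ a ∈ s, coef b (h a) S := by
  unfold coef
  rw [← Ex_sum]
  exact Ex_congr fun x => by rw [Finset.sum_mul]

lemma coef_phi {b : ι → ℝ} (hb : Bias b) (T S : Finset ι) :
    coef b (phi b T) S = if T = S then 1 else 0 :=
  Ex_phi_mul_phi hb T S

/-- Coefficients of a function given by an explicit expansion. -/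
lemma coef_of_expansion {b : ι → ℝ} (hb : Bias b) (d : Finset ι → ℝ) (T : Finset ι) :
    coef b (fun x => ∑ S : Finset ι, d S * phi b S x) T = d T := by
  rw [coef_sum]
  simp only [coef_const_mul, coef_phi hb]
  simp

/-- The noise operator with coordinate multipliers `r`. -/
noncomputable def noise (b r : ι → ℝ) (h : (ι → Bool) → ℝ) (x : ι → Bool) : ℝ :=
  ∑ S : Finset ι, ((∏ i ∈ S, r i) * coef b h S) * phi b S x

lemma coef_noise {b : ι → ℝ} (hb : Bias b) (r : ι → ℝ) (h : (ι → Bool) → ℝ) (S : Finset ι) :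
    coef b (noise b r h) S = (∏ i ∈ S, r i) * coef b h S :=
  coef_of_expansion hb _ S

lemma noise_add (b r : ι → ℝ) (g h : (ι → Bool) → ℝ) (x : ι → Bool) :
    noise b r (fun x => g x + h x) x = noise b r g x + noise b r h x := by
  unfold noise
  rw [← Finset.sum_add_distrib]
  refine Finset.sum_congr rfl fun S _ => ?_
  rw [coef_add]
  ring

lemma noise_congr {b r : ι → ℝ} {g h : (ι → Bool) → ℝ} (H : ∀ x, g x = h x) (x : ι → Bool) :
    noise b r g x = noise b r h x := by
  unfold noise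
  refine Finset.sum_congr rfl fun S _ => ?_
  rw [coef_congr H]

lemma Ex_noise_sq {b : ι → ℝ} (hb : Bias b) (r : ι → ℝ) (h : (ι → Bool) → ℝ) :
    Ex b (fun x => noise b r h x ^ 2) = ∑ S : Finset ι, (∏ i ∈ S, r i) ^ 2 * coef b h S ^ 2 := by
  rw [Ex_sq_eq hb]
  refine Finset.sum_congr rfl fun S _ => ?_
  rw [coef_noise hb]
  ring

/-- Self-adjointness in the form used below. -/
lemma Ex_mul_noise_noise {b : ι → ℝ} (hb : Bias b) (r : ι → ℝ) (G : (ι → Bool) → ℝ) :
    Ex b (fun x => G x * noise b r (noise b r G) x) = Ex b (fun x => noise b r G x ^ 2) := by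
  rw [parseval hb, Ex_noise_sq hb]
  refine Finset.sum_congr rfl fun S _ => ?_
  rw [coef_noise hb, coef_noise hb]
  ring

/-- Cauchy-Schwarz for the expectation. -/
lemma Ex_cs {b : ι → ℝ} (hb : Bias b) (g h : (ι → Bool) → ℝ) :
    Ex b (fun x => g x * h x) ^ 2 ≤ Ex b (fun x => g x ^ 2) * Ex b (fun x => h x ^ 2) := by
  have := Finset.sum_mul_sq_le_sq_mul_sq Finset.univ (fun x => √(wt b x) * g x)
    (fun x => √(wt b x) * h x)
  have hw : ∀ x, √(wt b x) * √(wt b x) = wt b x := fun x => Real.mul_self_sqrt (wt_nonneg hb x)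
  have e1 : ∀ x, √(wt b x) * g x * (√(wt b x) * h x) = wt b x * (g x * h x) := by
    intro x
    calc _ = (√(wt b x) * √(wt b x)) * (g x * h x) := by ring
      _ = _ := by rw [hw x]
  have e2 : ∀ (k : (ι → Bool) → ℝ) x, (√(wt b x) * k x) ^ 2 = wt b x * k x ^ 2 := by
    intro k x
    calc _ = (√(wt b x) * √(wt b x)) * k x ^ 2 := by ring
      _ = _ := by rw [hw x]
  simp only [e1, e2] at this
  exact this

/-- One-bit inequality behind the Bonami lemma. -/
lemma bit_ineq {b r A B : ℝ} (h0 : 0 < b) (h1 : b < 1) (hr1 : r ^ 2 ≤ 1 / 4)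
    (hr2 : 3 * r ^ 4 ≤ sg b ^ 2) :
    b * (A + r * chi1 b true * B) ^ 4 + (1 - b) * (A + r * chi1 b false * B) ^ 4 ≤
      A ^ 4 + 2 * A ^ 2 * B ^ 2 + B ^ 4 := by
  set χ1 := chi1 b true with hχ1
  set χ0 := chi1 b false with hχ0
  have m1 : b * χ1 + (1 - b) * χ0 = 0 := chi1_mean
  have m2 : b * χ1 ^ 2 + (1 - b) * χ0 ^ 2 = 1 := chi1_second h0 h1
  have m3 : b * χ1 ^ 3 + (1 - b) * χ0 ^ 3 = (1 - 2 * b) / sg b := chi1_third h0 h1
  have m4 : b * χ1 ^ 4 + (1 - b) * χ0 ^ 4 = (1 - 3 * (b * (1 - b))) / sg b ^ 2 := chi1_fourth h0 h1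
  set M3 := (1 - 2 * b) / sg b with hM3
  set M4 := (1 - 3 * (b * (1 - b))) / sg b ^ 2 with hM4
  have hs := sg_pos h0 h1
  have hs2 := sg_sq h0 h1
  have expand : b * (A + r * χ1 * B) ^ 4 + (1 - b) * (A + r * χ0 * B) ^ 4 =
      A ^ 4 * (b + (1 - b)) + 4 * A ^ 3 * r * B * (b * χ1 + (1 - b) * χ0)
        + 6 * A ^ 2 * r ^ 2 * B ^ 2 * (b * χ1 ^ 2 + (1 - b) * χ0 ^ 2)
        + 4 * A * r ^ 3 * B ^ 3 * (b * χ1 ^ 3 + (1 - b) * χ0 ^ 3)
        + r ^ 4 * B ^ 4 * (b * χ1 ^ 4 + (1 - b) * χ0 ^ 4) := by ring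
  rw [expand, m1, m2, m3, m4]
  have hM : r ^ 4 * (M4 + 2 * M3 ^ 2) ≤ 1 := by
    have : M4 + 2 * M3 ^ 2 = (3 - 11 * (b * (1 - b))) / sg b ^ 2 := by
      rw [hM4, hM3, div_pow, hs2]
      have hb1 : b * (1 - b) ≠ 0 := (mul_pos h0 (by linarith)).ne'
      field_simp
      ring
    rw [this, ← mul_div_assoc, div_le_one (by positivity)]
    have h4 : 0 ≤ r ^ 4 := by positivity
    have h5 : 0 ≤ b * (1 - b) := (mul_pos h0 (by linarith)).le
    nlinarith [mul_nonneg h4 h5]
  have amgm : 4 * A * r ^ 3 * B ^ 3 * M3 ≤ 2 * r ^ 2 * A ^ 2 * B ^ 2 + 2 * r ^ 4 * B ^ 4 * M3 ^ 2 := by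
    nlinarith [sq_nonneg (r * A * B - r ^ 2 * B ^ 2 * M3)]
  have hA : 0 ≤ A ^ 2 * B ^ 2 := by positivity
  have hB : 0 ≤ B ^ 4 := by positivity
  nlinarith [mul_le_mul_of_nonneg_right hr1 hA, mul_le_mul_of_nonneg_right hM hB]

/-- The truncated polynomial used in the induction for the Bonami lemma. -/
noncomputable def polyJ (b r : ι → ℝ) (J : Finset ι) (c : Finset ι → ℝ) (x : ι → Bool) : ℝ :=
  ∑ S ∈ J.powerset, (c S * ∏ i ∈ S, r i) * phi b S x

lemma polyJ_update {b r : ι → ℝ} {J : Finset ι} {k : ι} (hk : k ∉ J) (c : Finset ι → ℝ)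
    (y : ι → Bool) (v : Bool) : polyJ b r J c (Function.update y k v) = polyJ b r J c y := by
  unfold polyJ
  refine Finset.sum_congr rfl fun S hS => ?_
  have : k ∉ S := fun h => hk (Finset.mem_powerset.mp hS h)
  rw [phi_update this]

lemma polyJ_insert {b r : ι → ℝ} {J : Finset ι} {k : ι} (hk : k ∉ J) (c : Finset ι → ℝ)
    (x : ι → Bool) : polyJ b r (insert k J) c x =
      polyJ b r J c x + r k * chi b k x * polyJ b r J (fun S => c (insert k S)) x := by
  unfold polyJ
  rw [Finset.sum_powerset_insert hk, Finset.mul_sum]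
  congr 1
  refine Finset.sum_congr rfl fun S hS => ?_
  have hkS : k ∉ S := fun h => hk (Finset.mem_powerset.mp hS h)
  unfold phi
  rw [Finset.prod_insert hkS, Finset.prod_insert hkS]
  ring

/-- The Bonami lemma in coefficient form, by induction on the coordinates. -/
lemma bonami_aux {b r : ι → ℝ} (hb : Bias b) (hr1 : ∀ i, r i ^ 2 ≤ 1 / 4)
    (hr2 : ∀ i, 3 * r i ^ 4 ≤ sg (b i) ^ 2) (J : Finset ι) :
    ∀ c : Finset ι → ℝ, Ex b (fun x => polyJ b r J c x ^ 4) ≤ (∑ S ∈ J.powerset, c S ^ 2) ^ 2 := by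
  induction J using Finset.induction_on with
  | empty =>
    intro c
    simp only [polyJ, Finset.powerset_empty, Finset.sum_singleton, Finset.prod_empty, mul_one, phi,
      Ex_const]
    apply le_of_eq
    ring
  | insert k J hk ih =>
    intro c
    set c' : Finset ι → ℝ := fun S => c (insert k S) with hc'
    set A := polyJ b r J c with hA
    set B := polyJ b r J c' with hB
    have hAu : ∀ y v, A (Function.update y k v) = A y := polyJ_update hk c
    have hBu : ∀ y v, B (Function.update y k v) = B y := polyJ_update hk c'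
    have e1 : ∀ x, polyJ b r (insert k J) c x = A x + r k * chi b k x * B x :=
      fun x => polyJ_insert hk c x
    set X := ∑ S ∈ J.powerset, c S ^ 2 with hX
    set Y := ∑ S ∈ J.powerset, c' S ^ 2 with hY
    have hX0 : 0 ≤ X := Finset.sum_nonneg fun _ _ => sq_nonneg _
    have hY0 : 0 ≤ Y := Finset.sum_nonneg fun _ _ => sq_nonneg _
    have hsum : ∑ S ∈ (insert k J).powerset, c S ^ 2 = X + Y := by
      rw [Finset.sum_powerset_insert hk]
    rw [hsum]
    have hA4 : Ex b (fun x => A x ^ 4) ≤ X ^ 2 := ih c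
    have hB4 : Ex b (fun x => B x ^ 4) ≤ Y ^ 2 := ih c'
    have hA40 : 0 ≤ Ex b (fun x => A x ^ 4) := Ex_nonneg hb fun x => by positivity
    have hB40 : 0 ≤ Ex b (fun x => B x ^ 4) := Ex_nonneg hb fun x => by positivity
    have hAB : Ex b (fun x => A x ^ 2 * B x ^ 2) ≤ X * Y := by
      have hcs := Ex_cs hb (fun x => A x ^ 2) (fun x => B x ^ 2)
      have e : ∀ k : (ι → Bool) → ℝ, (fun x => (k x ^ 2) ^ 2) = fun x => k x ^ 4 := by
        intro k
        funext x
        ring
      simp only [e] at hcs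
      have h2 : Ex b (fun x => A x ^ 2 * B x ^ 2) ^ 2 ≤ (X * Y) ^ 2 := by
        calc _ ≤ Ex b (fun x => A x ^ 4) * Ex b (fun x => B x ^ 4) := hcs
          _ ≤ X ^ 2 * Y ^ 2 := mul_le_mul hA4 hB4 hB40 (by positivity)
          _ = (X * Y) ^ 2 := by ring
      exact abs_le_of_sq_le_sq' h2 (mul_nonneg hX0 hY0) |>.2
    have step : Ex b (fun x => polyJ b r (insert k J) c x ^ 4) ≤
        Ex b (fun x => A x ^ 4 + 2 * (A x ^ 2 * B x ^ 2) + B x ^ 4) := by
      rw [Ex_tower b k]
      apply Ex_mono hb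
      intro y
      simp only [e1, hAu, hBu]
      have hc1 : chi b k (Function.update y k true) = chi1 (b k) true := by simp [chi]
      have hc0 : chi b k (Function.update y k false) = chi1 (b k) false := by simp [chi]
      rw [hc1, hc0]
      have := bit_ineq (A := A y) (B := B y) (hb k).1 (hb k).2 (hr1 k) (hr2 k)
      nlinarith
    have e2 : Ex b (fun x => A x ^ 4 + 2 * (A x ^ 2 * B x ^ 2) + B x ^ 4) =
        Ex b (fun x => A x ^ 4) + 2 * Ex b (fun x => A x ^ 2 * B x ^ 2) + Ex b (fun x => B x ^ 4) := by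
      rw [Ex_add, Ex_add, Ex_const_mul]
    rw [e2] at step
    nlinarith

/-- The Bonami lemma on a biased product space. -/
theorem bonami {b r : ι → ℝ} (hb : Bias b) (hr1 : ∀ i, r i ^ 2 ≤ 1 / 4)
    (hr2 : ∀ i, 3 * r i ^ 4 ≤ sg (b i) ^ 2) (h : (ι → Bool) → ℝ) :
    Ex b (fun x => noise b r h x ^ 4) ≤ Ex b (fun x => h x ^ 2) ^ 2 := by
  have := bonami_aux hb hr1 hr2 Finset.univ (coef b h)
  rw [Finset.powerset_univ, ← Ex_sq_eq hb] at this
  refine le_trans (le_of_eq ?_) this
  refine Ex_congr fun x => ?_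
  unfold polyJ noise
  rw [Finset.powerset_univ]
  congr 1
  refine Finset.sum_congr rfl fun S _ => ?_
  ring

/-- Small-support estimate: the dual form of the Bonami lemma in squared form. -/
theorem dual_sq {b r : ι → ℝ} (hb : Bias b) (hr1 : ∀ i, r i ^ 2 ≤ 1 / 4)
    (hr2 : ∀ i, 3 * r i ^ 4 ≤ sg (b i) ^ 2) (G : (ι → Bool) → ℝ) {a : ℝ} (ha : 0 < a)
    (hG : ∀ x, G x ≠ 0 → a ≤ |G x|) :
    Ex b (fun x => noise b r G x ^ 2) ^ 2 * a ^ 2 ≤ Ex b (fun x => G x ^ 2) ^ 3 := by
  classical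
  set A := Ex b (fun x => noise b r G x ^ 2) with hA
  set B := Ex b (fun x => G x ^ 2) with hB
  have hA0 : 0 ≤ A := Ex_nonneg hb fun x => by positivity
  have hB0 : 0 ≤ B := Ex_nonneg hb fun x => by positivity
  set H := noise b r (noise b r G) with hH
  set ind : (ι → Bool) → ℝ := fun x => if G x ≠ 0 then 1 else 0 with hind
  set P := Ex b ind with hP
  have hP0 : 0 ≤ P := Ex_nonneg hb fun x => by simp only [hind]; split_ifs <;> norm_num
  -- P ≤ B / a^2
  have hPB : P * a ^ 2 ≤ B := by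
    rw [hP, ← Ex_mul_const]
    apply Ex_mono hb
    intro x
    simp only [hind]
    split_ifs with hx
    · have := hG x hx
      have h2 : a ^ 2 ≤ |G x| ^ 2 := pow_le_pow_left₀ ha.le this 2
      rwa [sq_abs, one_mul] at *
    · simp only [zero_mul]
      positivity
  -- first Cauchy-Schwarz
  have hGH : A = Ex b (fun x => G x * (H x * ind x)) := by
    rw [hA, ← Ex_mul_noise_noise hb]
    refine Ex_congr fun x => ?_
    simp only [hind]
    by_cases hx : G x = 0
    · simp [hx]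
    · simp [hx, hH]
  have cs1 : A ^ 2 ≤ B * Ex b (fun x => (H x * ind x) ^ 2) := by
    rw [hGH]
    exact Ex_cs hb _ _
  -- second Cauchy-Schwarz
  have hind2 : ∀ x, ind x ^ 2 = ind x := by
    intro x
    simp only [hind]
    split_ifs <;> norm_num
  have e : Ex b (fun x => (H x * ind x) ^ 2) = Ex b (fun x => H x ^ 2 * ind x) := by
    refine Ex_congr fun x => ?_
    rw [mul_pow, hind2]
  have hQ0 : 0 ≤ Ex b (fun x => H x ^ 2 * ind x) :=
    Ex_nonneg hb fun x => mul_nonneg (by positivity) (by simp only [hind]; split_ifs <;> norm_num)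
  have cs2 : Ex b (fun x => H x ^ 2 * ind x) ^ 2 ≤ Ex b (fun x => H x ^ 4) * P := by
    have := Ex_cs hb (fun x => H x ^ 2) ind
    have e4 : (fun x => (H x ^ 2) ^ 2) = fun x => H x ^ 4 := by
      funext x
      ring
    have ei : (fun x => ind x ^ 2) = ind := funext hind2
    rwa [e4, ei] at this
  have hH4 : Ex b (fun x => H x ^ 4) ≤ A ^ 2 := bonami hb hr1 hr2 (noise b r G)
  rw [e] at cs1
  set Q := Ex b (fun x => H x ^ 2 * ind x) with hQ
  have hQ2 : Q ^ 2 ≤ A ^ 2 * P := le_trans cs2 (mul_le_mul_of_nonneg_right hH4 hP0)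
  -- combine
  have hA4 : A ^ 4 ≤ B ^ 2 * (A ^ 2 * P) := by
    have h1 : (A ^ 2) ^ 2 ≤ (B * Q) ^ 2 := pow_le_pow_left₀ (by positivity) cs1 2
    have h2 : (B * Q) ^ 2 = B ^ 2 * Q ^ 2 := by ring
    calc A ^ 4 = (A ^ 2) ^ 2 := by ring
      _ ≤ B ^ 2 * Q ^ 2 := by rw [← h2]; exact h1
      _ ≤ B ^ 2 * (A ^ 2 * P) := mul_le_mul_of_nonneg_left hQ2 (by positivity)
  by_cases hA00 : A = 0
  · rw [hA00]
    have : 0 ≤ B ^ 3 := by positivity
    simpa using this
  · have hApos : 0 < A ^ 2 := by positivity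
    have h3 : A ^ 2 ≤ B ^ 2 * P := by
      have : A ^ 2 * A ^ 2 ≤ A ^ 2 * (B ^ 2 * P) := by nlinarith
      exact le_of_mul_le_mul_left this hApos
    calc A ^ 2 * a ^ 2 ≤ B ^ 2 * P * a ^ 2 := mul_le_mul_of_nonneg_right h3 (by positivity)
      _ = B ^ 2 * (P * a ^ 2) := by ring
      _ ≤ B ^ 2 * B := mul_le_mul_of_nonneg_left hPB (by positivity)
      _ = B ^ 3 := by ring

/-- Small-support estimate, real power form. -/
theorem dual {b r : ι → ℝ} (hb : Bias b) (hr1 : ∀ i, r i ^ 2 ≤ 1 / 4)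
    (hr2 : ∀ i, 3 * r i ^ 4 ≤ sg (b i) ^ 2) (G : (ι → Bool) → ℝ) {a : ℝ} (ha : 0 < a)
    (hG : ∀ x, G x ≠ 0 → a ≤ |G x|) :
    Ex b (fun x => noise b r G x ^ 2) ≤ a⁻¹ * Ex b (fun x => G x ^ 2) ^ (3 / 2 : ℝ) := by
  have h := dual_sq hb hr1 hr2 G ha hG
  set A := Ex b (fun x => noise b r G x ^ 2) with hA
  set B := Ex b (fun x => G x ^ 2) with hB
  have hA0 : 0 ≤ A := Ex_nonneg hb fun x => by positivity
  have hB0 : 0 ≤ B := Ex_nonneg hb fun x => by positivity
  have hR0 : 0 ≤ a⁻¹ * B ^ (3 / 2 : ℝ) := by positivity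
  apply abs_le_of_sq_le_sq' _ hR0 |>.2
  have e3 : (B ^ (3 / 2 : ℝ)) ^ 2 = B ^ 3 := by
    rw [← Real.rpow_natCast (B ^ (3 / 2 : ℝ)) 2, ← Real.rpow_mul hB0]
    norm_num
  rw [mul_pow, e3, inv_pow, ← div_eq_inv_mul, le_div_iff₀ (by positivity)]
  exact h

/-- Finite Hoelder inequality in the form needed for interpolation. -/
lemma holder_interp {α : Type*} (s : Finset α) (a t : α → ℝ) (ha : ∀ i, 0 ≤ a i) (ht : ∀ i, 0 ≤ t i)
    {β : ℝ} (h0 : 0 < β) (h1 : β < 1) :
    ∑ i ∈ s, a i * t i ^ β ≤ (∑ i ∈ s, a i) ^ (1 - β) * (∑ i ∈ s, a i * t i) ^ β := by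
  have hpq : (1 / (1 - β)).HolderConjugate (1 / β) := by
    rw [Real.holderConjugate_iff]
    refine ⟨?_, ?_⟩
    · rw [lt_div_iff₀ (by linarith)]
      linarith
    · field_simp
      ring
  have := Real.inner_le_Lp_mul_Lq s (fun i => a i ^ (1 - β)) (fun i => (a i * t i) ^ β) hpq
  have e1 : ∀ i, |a i ^ (1 - β)| ^ (1 / (1 - β)) = a i := by
    intro i
    rw [abs_of_nonneg (Real.rpow_nonneg (ha i) _), ← Real.rpow_mul (ha i)]
    have : (1 - β) * (1 / (1 - β)) = 1 := by
      have : (1 - β) ≠ 0 := by linarith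
      field_simp
    rw [this, Real.rpow_one]
  have e2 : ∀ i, |(a i * t i) ^ β| ^ (1 / β) = a i * t i := by
    intro i
    have hn : 0 ≤ a i * t i := mul_nonneg (ha i) (ht i)
    rw [abs_of_nonneg (Real.rpow_nonneg hn _), ← Real.rpow_mul hn]
    have : β * (1 / β) = 1 := by
      field_simp
    rw [this, Real.rpow_one]
  simp only [e1, e2] at this
  have e3 : ∀ i, a i ^ (1 - β) * (a i * t i) ^ β = a i * t i ^ β := by
    intro i
    rw [Real.mul_rpow (ha i) (ht i), ← mul_assoc]
    rcases (ha i).eq_or_lt with hi | hi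
    · rw [← hi, Real.zero_rpow (by linarith), Real.zero_rpow h0.ne']
      simp
    · rw [← Real.rpow_add hi]
      simp
  simp only [e3] at this
  refine le_trans this (le_of_eq ?_)
  simp

/-- Coordinatewise real powers of the noise multipliers. -/
noncomputable def rp (r : ι → ℝ) (β : ℝ) (i : ι) : ℝ := r i ^ β

/-- Interpolation: fractional powers of the noise operator. -/
theorem interp {b r : ι → ℝ} (hb : Bias b) (hr0 : ∀ i, 0 < r i) {β : ℝ} (h0 : 0 < β) (h1 : β < 1)
    (h : (ι → Bool) → ℝ) :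
    Ex b (fun x => noise b (rp r β) h x ^ 2) ≤
      Ex b (fun x => h x ^ 2) ^ (1 - β) * Ex b (fun x => noise b r h x ^ 2) ^ β := by
  rw [Ex_noise_sq hb, Ex_noise_sq hb, Ex_sq_eq hb]
  have hp : ∀ S : Finset ι, (∏ i ∈ S, rp r β i) ^ 2 = ((∏ i ∈ S, r i) ^ 2) ^ β := by
    intro S
    unfold rp
    have hn : ∀ i ∈ S, 0 ≤ r i := fun i _ => (hr0 i).le
    rw [Real.finsetProd_rpow S r hn]
    have hP : 0 ≤ ∏ i ∈ S, r i := Finset.prod_nonneg hn
    rw [← Real.rpow_natCast, ← Real.rpow_natCast, ← Real.rpow_mul hP, ← Real.rpow_mul hP]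
    congr 1
    ring
  simp only [hp]
  have := holder_interp Finset.univ (fun S : Finset ι => coef b h S ^ 2)
    (fun S => (∏ i ∈ S, r i) ^ 2) (fun _ => sq_nonneg _) (fun _ => sq_nonneg _) h0 h1
  refine le_trans (le_of_eq ?_) (le_trans this (le_of_eq ?_))
  · exact Finset.sum_congr rfl fun S _ => by ring
  · congr 2
    exact Finset.sum_congr rfl fun S _ => by ring

/-- The noise operator is an `L²`-contraction when the multipliers lie in `[0,1]`. -/
theorem noise_contract {b r : ι → ℝ} (hb : Bias b) (hr0 : ∀ i, 0 ≤ r i) (hr1 : ∀ i, r i ≤ 1)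
    (h : (ι → Bool) → ℝ) :
    Ex b (fun x => noise b r h x ^ 2) ≤ Ex b (fun x => h x ^ 2) := by
  rw [Ex_noise_sq hb, Ex_sq_eq hb]
  refine Finset.sum_le_sum fun S _ => ?_
  have h1 : ∏ i ∈ S, r i ≤ 1 := Finset.prod_le_one (fun i _ => hr0 i) (fun i _ => hr1 i)
  have h0 : 0 ≤ ∏ i ∈ S, r i := Finset.prod_nonneg fun i _ => hr0 i
  have h2 : (∏ i ∈ S, r i) ^ 2 ≤ 1 := pow_le_one₀ h0 h1
  nlinarith [sq_nonneg (coef b h S)]

/-- The main analytic estimate: splitting into large and small values. -/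
theorem split_bound {b r : ι → ℝ} (hb : Bias b) (hr0 : ∀ i, 0 < r i) (hr1 : ∀ i, r i ^ 2 ≤ 1 / 4)
    (hr2 : ∀ i, 3 * r i ^ 4 ≤ sg (b i) ^ 2) {β : ℝ} (h0 : 0 < β) (h1 : β < 1) {a : ℝ} (ha : 0 < a)
    (G : (ι → Bool) → ℝ) :
    Ex b (fun x => noise b (rp r β) G x ^ 2) ≤
      2 * a ^ (-β) * Ex b (fun x => G x ^ 2) ^ (1 + β / 2)
        + 2 * Ex b (fun x => G x ^ 2 * (if |G x| < a then 1 else 0)) := by
  classical
  set Gb : (ι → Bool) → ℝ := fun x => if |G x| < a then 0 else G x with hGb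
  set Gs : (ι → Bool) → ℝ := fun x => if |G x| < a then G x else 0 with hGs
  have hsplit : ∀ x, G x = Gb x + Gs x := by
    intro x
    simp only [hGb, hGs]
    split_ifs <;> simp
  have hr01 : ∀ i, r i ≤ 1 := by
    intro i
    nlinarith [hr1 i, hr0 i]
  have hn : ∀ x, noise b (rp r β) G x = noise b (rp r β) Gb x + noise b (rp r β) Gs x := by
    intro x
    rw [noise_congr hsplit x, noise_add]
  set B := Ex b (fun x => G x ^ 2) with hB
  set Bb := Ex b (fun x => Gb x ^ 2) with hBb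
  have hB0 : 0 ≤ B := Ex_nonneg hb fun x => by positivity
  have hBb0 : 0 ≤ Bb := Ex_nonneg hb fun x => by positivity
  have hBbB : Bb ≤ B := by
    apply Ex_mono hb
    intro x
    simp only [hGb]
    split_ifs
    · simp only [ne_eq, OfNat.ofNat_ne_zero, not_false_eq_true, zero_pow]
      positivity
    · exact le_rfl
  -- small part
  have hsmall : Ex b (fun x => noise b (rp r β) Gs x ^ 2) ≤
      Ex b (fun x => G x ^ 2 * (if |G x| < a then 1 else 0)) := by
    refine le_trans (noise_contract hb (fun i => Real.rpow_nonneg (hr0 i).le _)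
      (fun i => Real.rpow_le_one (hr0 i).le (hr01 i) h0.le) Gs) (le_of_eq ?_)
    refine Ex_congr fun x => ?_
    simp only [hGs]
    split_ifs <;> simp
  -- big part
  have hdual : Ex b (fun x => noise b r Gb x ^ 2) ≤ a⁻¹ * Bb ^ (3 / 2 : ℝ) := by
    apply dual hb hr1 hr2 Gb ha
    intro x hx
    simp only [hGb] at hx ⊢
    split_ifs at hx ⊢ with hlt
    · exact absurd rfl hx
    · exact not_lt.mp hlt
  have hbig : Ex b (fun x => noise b (rp r β) Gb x ^ 2) ≤ a ^ (-β) * B ^ (1 + β / 2) := by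
    have h2 := interp hb hr0 h0 h1 Gb
    have h3 : Ex b (fun x => noise b r Gb x ^ 2) ^ β ≤ (a⁻¹ * Bb ^ (3 / 2 : ℝ)) ^ β :=
      Real.rpow_le_rpow (Ex_nonneg hb fun x => by positivity) hdual h0.le
    have h4 : Bb ^ (1 - β) * (a⁻¹ * Bb ^ (3 / 2 : ℝ)) ^ β = a ^ (-β) * Bb ^ (1 + β / 2) := by
      rcases hBb0.eq_or_lt with hz | hz
      · rw [← hz, Real.zero_rpow (by linarith : (0 : ℝ) < 1 - β).ne',
          Real.zero_rpow (by positivity : (0 : ℝ) < 1 + β / 2).ne']
        simp
      · rw [Real.mul_rpow (by positivity) (by positivity), Real.inv_rpow ha.le, Real.rpow_neg ha.le,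
          ← Real.rpow_mul hz.le, mul_left_comm, ← Real.rpow_add hz]
        congr 2
        ring
    calc Ex b (fun x => noise b (rp r β) Gb x ^ 2)
        ≤ Bb ^ (1 - β) * Ex b (fun x => noise b r Gb x ^ 2) ^ β := h2
      _ ≤ Bb ^ (1 - β) * (a⁻¹ * Bb ^ (3 / 2 : ℝ)) ^ β :=
          mul_le_mul_of_nonneg_left h3 (by positivity)
      _ = a ^ (-β) * Bb ^ (1 + β / 2) := h4
      _ ≤ a ^ (-β) * B ^ (1 + β / 2) :=
          mul_le_mul_of_nonneg_left (Real.rpow_le_rpow hBb0 hBbB (by positivity)) (by positivity)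
  -- combine
  have hsq : Ex b (fun x => noise b (rp r β) G x ^ 2) ≤
      2 * Ex b (fun x => noise b (rp r β) Gb x ^ 2) + 2 * Ex b (fun x => noise b (rp r β) Gs x ^ 2) := by
    rw [← Ex_const_mul, ← Ex_const_mul, ← Ex_add]
    apply Ex_mono hb
    intro x
    rw [hn]
    nlinarith [sq_nonneg (noise b (rp r β) Gb x - noise b (rp r β) Gs x)]
  nlinarith

end Cube

end Vale.Agent.Lib.P063
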