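import Vale.Agent.Lib.P063.Cube

/-!
Definitions for the threshold-width theorem: the complete `r`-uniform hypergraph on `Fin n`,
hypergraph properties, the measure `μ_p`, `p_a`, the width; and the auxiliary objects of the proof
(Boolean derivative, influence, subset law `pw`, the weights `MM`, the vertex span, `Good`).
-/

set_option linter.unusedVariables false
set_option linter.unusedSectionVars false

namespace Vale.Agent.Lib.P063

open Finset

/-! ### The problem statement objects -/

/-- Edges of the complete `r`-uniform hypergraph on `Fin n`: the `r`-subsets of `Fin n`. -/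
abbrev Edge (n r : ℕ) := {e : Finset (Fin n) // e.card = r}

/-- Relabelling of the edges by a permutation of the vertices. -/
def relabel {n r : ℕ} (π : Equiv.Perm (Fin n)) : Equiv.Perm (Edge n r) where
  toFun e := ⟨e.1.map π.toEmbedding, by simp [e.2]⟩
  invFun e := ⟨e.1.map π.symm.toEmbedding, by simp [e.2]⟩
  left_inv e := by
    apply Subtype.ext
    ext v
    simp
  right_inv e := by
    apply Subtype.ext
    ext v
    simp

/-- A hypergraph property: invariant under all permutations of the vertices. -/
def IsInvariant {n r : ℕ} (P : Set (Edge n r → Bool)) : Prop :=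
  ∀ (π : Equiv.Perm (Fin n)) (x : Edge n r → Bool), x ∈ P ↔ (fun e => x (relabel π e)) ∈ P

/-- Increasing: adding edges preserves membership (pointwise order on `Bool`, `false ≤ true`). -/
def IsIncreasing {n r : ℕ} (P : Set (Edge n r → Bool)) : Prop :=
  ∀ x y : Edge n r → Bool, (∀ e, x e = true → y e = true) → x ∈ P → y ∈ P

/-- Nontrivial: neither empty nor everything. -/
def IsNontrivial {n r : ℕ} (P : Set (Edge n r → Bool)) : Prop :=
  P.Nonempty ∧ P ≠ Set.univ

open Classical in
/-- `μ_p(P)`: probability that the random hypergraph with edge probability `p` lies in `P`. -/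
noncomputable def mu {n r : ℕ} (p : ℝ) (P : Set (Edge n r → Bool)) : ℝ :=
  ∑ x : Edge n r → Bool, if x ∈ P then ∏ e, (if x e then p else 1 - p) else 0

/-- `p_a(P) = inf {p ∈ [0,1] : μ_p(P) ≥ a}`. -/
noncomputable def pa {n r : ℕ} (a : ℝ) (P : Set (Edge n r → Bool)) : ℝ :=
  sInf {p : ℝ | p ∈ Set.Icc (0 : ℝ) 1 ∧ a ≤ mu p P}

/-- The threshold width `w_ε(P) = p_{1-ε}(P) - p_ε(P)`. -/
noncomputable def width {n r : ℕ} (ε : ℝ) (P : Set (Edge n r → Bool)) : ℝ :=
  pa (1 - ε) P - pa ε P

/-! ### Objects of the proof -/

section Aux

variable {ι : Type*} [Fintype ι] [DecidableEq ι]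

/-- Boolean derivative in direction `k`. -/
noncomputable def D (k : ι) (g : (ι → Bool) → ℝ) (y : ι → Bool) : ℝ :=
  g (Function.update y k true) - g (Function.update y k false)

/-- Influence of coordinate `k`. -/
noncomputable def infl (b : ι → ℝ) (g : (ι → Bool) → ℝ) (k : ι) : ℝ :=
  Ex b (fun y => D k g y ^ 2)

/-- Boolean-valued functions. -/
def IsBool (g : (ι → Bool) → ℝ) : Prop := ∀ x, g x = 0 ∨ g x = 1

end Aux

/-- The law of the random subset `U` of `S` in which each element is kept with probability `q`. -/
noncomputable def pw {α : Type*} [DecidableEq α] (q : ℝ) (S U : Finset α) : ℝ :=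
  q ^ U.card * (1 - q) ^ (S \ U).card

/-- The averaged weight above `U`: the expected squared coefficient at `U` of a random restriction
with alive probability `θ`. -/
noncomputable def MM {E : Type*} [Fintype E] [DecidableEq E] (w : Finset E → ℝ) (θ : ℝ)
    (U : Finset E) : ℝ :=
  ∑ S ∈ univ.filter (fun S => U ⊆ S), (1 - θ) ^ (S \ U).card * w S

/-- The vertices spanned by a set of edges. -/
def span {n r : ℕ} (U : Finset (Edge n r)) : Finset (Fin n) := U.biUnion Subtype.val

/-- The sets of edges to which the counting argument applies. -/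
def Good {n r : ℕ} (tm : ℕ) (U : Finset (Edge n r)) : Prop :=
  U.Nonempty ∧ U.card ≤ tm ∧ U.card ≤ 3 * (span U).card

end Vale.Agent.Lib.P063
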