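import Vale.Agent.Lib.P063.NumA

/-!
Numeric facts on the parameters (2): the counting estimate.
-/

set_option linter.unusedVariables false
set_option linter.unusedSectionVars false
set_option linter.unusedSimpArgs false

namespace Vale.Agent.Lib.P063

open Filter

/-- Lower bound for a binomial coefficient. -/
lemma choose_lower {n v : ℕ} {L : ℝ} (hv1 : 1 ≤ v) (hvL : (v : ℝ) ≤ L) (hn : 2 * L ≤ n) :
    ((n : ℝ) / (2 * L)) ^ v ≤ (n.choose v : ℝ) := by
  have hv0 : (0 : ℝ) < v := by exact_mod_cast hv1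
  have hLpos : 0 < L := lt_of_lt_of_le hv0 hvL
  have hnpos : (0 : ℝ) < n := by linarith
  have h := Nat.pow_le_choose (α := ℝ) v n
  refine le_trans ?_ h
  have hvn : v ≤ n + 1 := by
    have : (v : ℝ) ≤ n := by linarith
    have h2 : v ≤ n := by exact_mod_cast this
    omega
  have h1 : (n : ℝ) / 2 ≤ ((n + 1 - v : ℕ) : ℝ) := by
    rw [Nat.cast_sub hvn]
    push_cast
    linarith
  have h2 : ((v.factorial : ℕ) : ℝ) ≤ L ^ v := by
    have h3 : ((v.factorial : ℕ) : ℝ) ≤ (v : ℝ) ^ v := by exact_mod_cast Nat.factorial_le_pow v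
    exact le_trans h3 (pow_le_pow_left₀ hv0.le hvL v)
  have e : ((n : ℝ) / (2 * L)) ^ v = ((n : ℝ) / 2) ^ v / L ^ v := by
    rw [← div_pow]
    congr 1
    field_simp
  rw [e]
  apply div_le_div₀ (by positivity) (pow_le_pow_left₀ (by positivity) h1 v) (by positivity) h2

lemma exp_twenty_nine : (20 : ℝ) / 3 ≤ Real.exp (29 / 15) := by
  by_contra hcon
  push Not at hcon
  have h0 : 0 < Real.exp (29 / 15) := Real.exp_pos _
  have h1 : Real.exp (29 / 15) ^ 15 < ((20 : ℝ) / 3) ^ 15 := pow_lt_pow_left₀ hcon h0.le (by norm_num)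
  have h2 : Real.exp (29 / 15) ^ 15 = Real.exp 1 ^ 29 := by
    rw [← Real.exp_nat_mul, ← Real.exp_nat_mul]
    congr 1
    norm_num
  have h3 : (2.718 : ℝ) ≤ Real.exp 1 := by
    have := Real.exp_one_gt_d9
    linarith
  have h4 : (2.718 : ℝ) ^ 29 ≤ Real.exp 1 ^ 29 := pow_le_pow_left₀ (by norm_num) h3 29
  have h5 : ((20 : ℝ) / 3) ^ 15 ≤ (2.718 : ℝ) ^ 29 := by norm_num
  linarith

/-- The final exponential estimate of the counting lemma. -/
lemma count_final {t : ℕ} (ht : 1 ≤ t) :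
    2 * 2 ^ t * Real.exp (5 * ((t : ℝ) + 1) / 6) * Real.exp (-(5 * (t : ℝ))) ≤ 3 / 20 := by
  have h2 : (2 : ℝ) ≤ Real.exp (7 / 10) := by
    have h := Real.log_two_lt_d9
    have h3 : Real.log 2 ≤ 7 / 10 := by
      norm_num at h ⊢
      linarith
    calc (2 : ℝ) = Real.exp (Real.log 2) := (Real.exp_log (by norm_num)).symm
      _ ≤ _ := Real.exp_le_exp.mpr h3
  have h3 : (2 : ℝ) * 2 ^ t ≤ Real.exp (7 * ((t : ℝ) + 1) / 10) := by
    have h4 : (2 : ℝ) ^ (t + 1) ≤ Real.exp (7 / 10) ^ (t + 1) := pow_le_pow_left₀ (by norm_num) h2 _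
    rw [← Real.exp_nat_mul] at h4
    rw [pow_succ] at h4
    have e : (((t + 1 : ℕ) : ℝ)) * (7 / 10) = 7 * ((t : ℝ) + 1) / 10 := by
      push_cast
      ring
    rw [e] at h4
    linarith
  have ht' : (1 : ℝ) ≤ t := by exact_mod_cast ht
  calc 2 * 2 ^ t * Real.exp (5 * ((t : ℝ) + 1) / 6) * Real.exp (-(5 * (t : ℝ)))
      ≤ Real.exp (7 * ((t : ℝ) + 1) / 10) * Real.exp (5 * ((t : ℝ) + 1) / 6) * Real.exp (-(5 * (t : ℝ))) := by
        apply mul_le_mul_of_nonneg_right _ (Real.exp_pos _).le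
        exact mul_le_mul_of_nonneg_right h3 (Real.exp_pos _).le
    _ = Real.exp (7 * ((t : ℝ) + 1) / 10 + 5 * ((t : ℝ) + 1) / 6 + -(5 * (t : ℝ))) := by
        rw [Real.exp_add, Real.exp_add]
    _ ≤ Real.exp (-(29 / 15)) := by
        apply Real.exp_le_exp.mpr
        nlinarith
    _ ≤ 3 / 20 := by
        rw [Real.exp_neg, inv_le_comm₀ (Real.exp_pos _) (by norm_num)]
        have := exp_twenty_nine
        norm_num at this ⊢
        linarith

/-- NUM3: counting. -/
theorem num_count : ∃ L₀ : ℝ, ∀ (n : ℕ) (L : ℝ), L = Real.log n → L₀ ≤ L → ∀ σ : ℝ, 1 / (2 * L) ≤ σ → σ ≤ 1 / 2 →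
    ∀ t v : ℕ, 1 ≤ t → t ≤ ptm (pθ L σ) → t ≤ 3 * v → v ≤ 2 * t → v ≤ n →
      2 * 2 ^ t * pa_ L t ^ (-(40 / L)) *
        (1 / ((n.choose v : ℝ) * pθ L σ ^ t)) ^ (40 / L / 2) ≤ 3 / 20 := by
  obtain ⟨L0, hL0, hbasic⟩ := num_basic
  obtain ⟨L1, hL1⟩ := eventually_atTop.mp (log_ev (c := 20) (a := 1) (by norm_num) (by norm_num))
  obtain ⟨L2, hL2⟩ := eventually_atTop.mp (log_ev (c := 10) (a := 2) (by norm_num) (by norm_num))
  refine ⟨max L0 (max L1 L2), ?_⟩
  intro n L hLn hL σ hσ1 hσ2 t v ht1 ht2 ht3 hv2 hvn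
  have hLL0 : L0 ≤ L := le_trans (le_max_left _ _) hL
  have hLL1 : L1 ≤ L := le_trans (le_trans (le_max_left _ _) (le_max_right _ _)) hL
  have hLL2 : L2 ≤ L := le_trans (le_trans (le_max_right _ _) (le_max_right _ _)) hL
  have hL40 : 40 < L := lt_of_lt_of_le hL0 hLL0
  have hLpos : 0 < L := by linarith
  have hlog1 : 20 * Real.log L ≤ L := by
    have := hL1 L hLL1
    rwa [one_mul] at this
  have hlog2 : 10 * Real.log (2 * L) ≤ L := hL2 L hLL2
  obtain ⟨hθ1, hθ2⟩ := hbasic L hLL0 σ hσ1 hσ2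
  set θ := pθ L σ with hθdef
  have hθ0 : 0 < θ := lt_of_lt_of_le (by positivity) hθ1
  -- the size of `t` and `v`
  have htm : (t : ℝ) ≤ L / 4800 + 1 := by
    have h1 : (ptm θ : ℝ) < 1 / (20 * θ) + 1 := Nat.ceil_lt_add_one (by positivity)
    have h2 : (t : ℝ) ≤ ptm θ := by exact_mod_cast ht2
    have h3 : 1 / (20 * θ) ≤ L / 4800 := by
      rw [div_le_div_iff₀ (by positivity) (by norm_num)]
      have : 240 ≤ θ * L := by
        rw [div_le_iff₀ hLpos] at hθ1
        exact hθ1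
      nlinarith
    linarith
  have hv1 : 1 ≤ v := by omega
  have hvL : (v : ℝ) ≤ L := by
    have : (v : ℝ) ≤ 2 * t := by exact_mod_cast hv2
    linarith
  -- the number of vertices
  have hn0 : (0 : ℝ) < n := by
    have : n ≠ 0 := by
      rintro rfl
      simp at hLn
      linarith
    exact_mod_cast Nat.pos_of_ne_zero this
  have hnexp : (n : ℝ) = Real.exp L := by
    rw [hLn, Real.exp_log hn0]
  have h2Ln : 2 * L ≤ n := by
    rw [hnexp]
    have := Real.quadratic_le_exp_of_nonneg hLpos.le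
    nlinarith [sq_nonneg (L - 1)]
  have hch := choose_lower hv1 hvL h2Ln
  -- lower bound for the base
  have hbase : Real.exp (9 * L / 10) ≤ (n : ℝ) / (2 * L) := by
    rw [le_div_iff₀ (by positivity), hnexp]
    have h1 : 2 * L ≤ Real.exp (L / 10) := by
      calc 2 * L = Real.exp (Real.log (2 * L)) := (Real.exp_log (by positivity)).symm
        _ ≤ _ := Real.exp_le_exp.mpr (by linarith)
    calc Real.exp (9 * L / 10) * (2 * L) ≤ Real.exp (9 * L / 10) * Real.exp (L / 10) :=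
          mul_le_mul_of_nonneg_left h1 (Real.exp_pos _).le
      _ = Real.exp L := by
          rw [← Real.exp_add]
          congr 1
          ring
  have hC : Real.exp ((v : ℝ) * (9 * L / 10)) ≤ (n.choose v : ℝ) := by
    rw [Real.exp_nat_mul]
    exact le_trans (pow_le_pow_left₀ (Real.exp_pos _).le hbase v) hch
  -- lower bound for the power of `θ`
  have hθL : 1 / L ≤ θ := by
    refine le_trans ?_ hθ1
    exact div_le_div_of_nonneg_right (by norm_num) hLpos.le
  have hθt : Real.exp (-((t : ℝ) * Real.log L)) ≤ θ ^ t := by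
    have h1 : Real.exp (-Real.log L) ≤ θ := by
      rw [Real.exp_neg, Real.exp_log hLpos, ← one_div]
      exact hθL
    have h2 : Real.exp (-Real.log L) ^ t ≤ θ ^ t := pow_le_pow_left₀ (Real.exp_pos _).le h1 t
    rw [← Real.exp_nat_mul] at h2
    have e : (t : ℝ) * -Real.log L = -((t : ℝ) * Real.log L) := by ring
    rwa [e] at h2
  have hprod : Real.exp ((t : ℝ) * L / 4) ≤ (n.choose v : ℝ) * θ ^ t := by
    have h1 : Real.exp ((v : ℝ) * (9 * L / 10)) * Real.exp (-((t : ℝ) * Real.log L)) ≤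
        (n.choose v : ℝ) * θ ^ t :=
      mul_le_mul hC hθt (Real.exp_pos _).le (by positivity)
    refine le_trans ?_ h1
    rw [← Real.exp_add]
    apply Real.exp_le_exp.mpr
    have h3v : (t : ℝ) ≤ 3 * v := by exact_mod_cast ht3
    have ht0 : (0 : ℝ) ≤ t := by positivity
    have h5 : (t : ℝ) * Real.log L ≤ t * (L / 20) :=
      mul_le_mul_of_nonneg_left (by linarith) ht0
    nlinarith
  have hCpos : 0 < (n.choose v : ℝ) * θ ^ t := lt_of_lt_of_le (Real.exp_pos _) hprod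
  -- the two rational powers
  have hpa : pa_ L t ^ (-(40 / L)) = Real.exp (5 * ((t : ℝ) + 1) / 6) := by
    unfold pa_
    rw [← Real.exp_mul]
    congr 1
    field_simp
    ring
  have hpow : (1 / ((n.choose v : ℝ) * θ ^ t)) ^ (40 / L / 2) ≤ Real.exp (-(5 * (t : ℝ))) := by
    have h1 : 1 / ((n.choose v : ℝ) * θ ^ t) ≤ Real.exp (-((t : ℝ) * L / 4)) := by
      rw [Real.exp_neg, ← one_div]
      exact one_div_le_one_div_of_le (Real.exp_pos _) hprod
    have h2 := Real.rpow_le_rpow (by positivity) h1 (by positivity : 0 ≤ 40 / L / 2)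
    refine le_trans h2 (le_of_eq ?_)
    rw [← Real.exp_mul]
    congr 1
    field_simp
    ring
  rw [hpa]
  refine le_trans ?_ (count_final ht1)
  exact mul_le_mul_of_nonneg_left hpow (by positivity)

end Vale.Agent.Lib.P063
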