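import Vale.Agent.Lib.P063.NumA

/-!
Numeric facts on the parameters (3): the small terms.
-/

set_option linter.unusedVariables false
set_option linter.unusedSectionVars false
set_option linter.unusedSimpArgs false

namespace Vale.Agent.Lib.P063

open Filter Topology

lemma tiny_limit {ε : ℝ} (hε : 0 < ε) : ∃ L₀ : ℝ, ∀ L ≥ L₀, L ^ 6 * Real.exp (-(L / 300)) ≤ ε := by
  have h := Real.tendsto_pow_mul_exp_neg_atTop_nhds_zero 6
  have h2 : Tendsto (fun L : ℝ => L / 300) atTop atTop :=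
    tendsto_id.atTop_div_const (by norm_num)
  have h3 := h.comp h2
  have h4 : ∀ᶠ L : ℝ in atTop, ((fun x : ℝ => x ^ 6 * Real.exp (-x)) ∘ fun L : ℝ => L / 300) L <
      ε / 300 ^ 6 := h3.eventually (gt_mem_nhds (by positivity))
  obtain ⟨L₀, hL₀⟩ := eventually_atTop.mp h4
  refine ⟨L₀, fun L hL => ?_⟩
  have h5 := hL₀ L hL
  simp only [Function.comp] at h5
  rw [lt_div_iff₀ (by positivity)] at h5
  have e : (L / 300) ^ 6 * Real.exp (-(L / 300)) * 300 ^ 6 = L ^ 6 * Real.exp (-(L / 300)) := by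
    field_simp
  rw [e] at h5
  exact h5.le

/-- Powers of `4/σ`. -/
lemma R_pow_le {L σ c : ℝ} {k : ℕ} (hL : 0 < L) (h1 : 1 / (2 * L) ≤ σ) (h2 : σ ≤ 1 / 2)
    (hk : Real.log (4 / σ) * k ≤ c + Real.log (4 / σ)) :
    (4 / σ) ^ k ≤ Real.exp c * (8 * L) := by
  have hσ : 0 < σ := lt_of_lt_of_le (by positivity) h1
  have hy : 0 < 4 / σ := by positivity
  have e : 4 / σ = Real.exp (Real.log (4 / σ)) := (Real.exp_log hy).symm
  have hb : 4 / σ ≤ 8 * L := by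
    rw [div_le_iff₀ hσ]
    have : 1 ≤ 2 * L * σ := by
      rw [div_le_iff₀ (by positivity)] at h1
      linarith
    nlinarith
  calc (4 / σ) ^ k = Real.exp (Real.log (4 / σ)) ^ k := by rw [← e]
    _ = Real.exp ((k : ℝ) * Real.log (4 / σ)) := by rw [Real.exp_nat_mul]
    _ ≤ Real.exp (c + Real.log (4 / σ)) := by
        apply Real.exp_le_exp.mpr
        linarith
    _ = Real.exp c * (4 / σ) := by rw [Real.exp_add, Real.exp_log hy]
    _ ≤ _ := mul_le_mul_of_nonneg_left hb (Real.exp_pos _).le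

/-- The size of the level parameters. -/
lemma levels_bound {L σ : ℝ} (hL : 0 < L) (h1 : 1 / (2 * L) ≤ σ) (h2 : σ ≤ 1 / 2) :
    Real.log (4 / σ) * (ptm (pθ L σ) : ℝ) ≤ L / 2400 + Real.log (4 / σ) ∧
    Real.log (4 / σ) * (pl (pθ L σ) : ℝ) ≤ L / 240 + Real.log (4 / σ) ∧
    (ptm (pθ L σ) : ℝ) + 1 ≤ L / 4800 + 2 := by
  have hb := log_four_div_bounds hL h1 h2
  set D := Real.log (4 / σ) with hD
  have hDpos : 0 < D := by linarith [hb.1]
  have hθ : pθ L σ = 120 * D / L := rfl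
  have hθ0 : 0 < pθ L σ := by
    rw [hθ]
    positivity
  have h3 : (ptm (pθ L σ) : ℝ) < 1 / (20 * pθ L σ) + 1 := Nat.ceil_lt_add_one (by positivity)
  have h4 : (pl (pθ L σ) : ℝ) < 1 / (2 * pθ L σ) + 1 := Nat.ceil_lt_add_one (by positivity)
  have e3 : 1 / (20 * pθ L σ) = L / (2400 * D) := by
    rw [hθ]
    field_simp
    norm_num
  have e4 : 1 / (2 * pθ L σ) = L / (240 * D) := by
    rw [hθ]
    field_simp
    norm_num
  rw [e3] at h3
  rw [e4] at h4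
  have e5 : D * (L / (2400 * D) + 1) = L / 2400 + D := by
    field_simp
  have e6 : D * (L / (240 * D) + 1) = L / 240 + D := by
    field_simp
  refine ⟨?_, ?_, ?_⟩
  · rw [← e5]
    exact mul_le_mul_of_nonneg_left h3.le hDpos.le
  · rw [← e6]
    exact mul_le_mul_of_nonneg_left h4.le hDpos.le
  · have h5 : L / (2400 * D) ≤ L / 4800 := by
      apply div_le_div_of_nonneg_left hL.le (by norm_num)
      linarith [hb.1]
    linarith

/-- The sum over thresholds. -/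
lemma sum_threshold_le {L : ℝ} (hL : 0 < L) (tm : ℕ) :
    ∑ t ∈ Finset.Icc 1 tm, (Real.exp (L / 192) / Real.exp (-L / 48)) ^ t * pa_ L t ^ 2 ≤
      (tm : ℝ) * Real.exp (-(L / 24)) := by
  have hterm : ∀ t ∈ Finset.Icc 1 tm,
      (Real.exp (L / 192) / Real.exp (-L / 48)) ^ t * pa_ L t ^ 2 ≤ Real.exp (-(L / 24)) := by
    intro t _
    unfold pa_
    rw [← Real.exp_sub, ← Real.exp_nat_mul, ← Real.exp_nat_mul, ← Real.exp_add]
    apply Real.exp_le_exp.mpr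
    push_cast
    have ht : (0 : ℝ) ≤ t := by positivity
    have e : (t : ℝ) * (L / 192 - -L / 48) + 2 * (-((t : ℝ) + 1) * L / 48) =
        -(L / 24) - (t : ℝ) * L * (3 / 192) := by
      ring
    rw [e]
    have : 0 ≤ (t : ℝ) * L * (3 / 192) := by positivity
    linarith
  refine le_trans (Finset.sum_le_sum hterm) (le_of_eq ?_)
  rw [Finset.sum_const, Nat.card_Icc, nsmul_eq_mul]
  simp

/-- The edge-count term. -/
lemma low_term {n : ℕ} {L I : ℝ} (hLn : L = Real.log n) (hL : 2 ≤ L) (hI0 : 0 ≤ I) (hI : I ≤ L ^ 3) :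
    (n.choose 2 : ℝ) * (I / (n.choose 2 : ℝ)) ^ (3 / 2 : ℝ) ≤ 2 * L ^ 5 * Real.exp (-L) := by
  have hLpos : 0 < L := by linarith
  have hn0 : (0 : ℝ) < n := by
    have : n ≠ 0 := by
      rintro rfl
      simp at hLn
      linarith
    exact_mod_cast Nat.pos_of_ne_zero this
  have hnexp : (n : ℝ) = Real.exp L := by
    rw [hLn, Real.exp_log hn0]
  have hn2 : (2 : ℝ) ≤ n := by
    rw [hnexp]
    have := Real.add_one_le_exp L
    linarith
  have hN : (n : ℝ) ^ 2 / 4 ≤ (n.choose 2 : ℝ) := by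
    rw [Nat.cast_choose_two]
    nlinarith
  set N := (n.choose 2 : ℝ) with hNdef
  have hNpos : 0 < N := lt_of_lt_of_le (by positivity) hN
  set u := I / N with hu
  have hu0 : 0 ≤ u := by positivity
  have hsplit : u ^ (3 / 2 : ℝ) = u * √u := by
    rcases hu0.eq_or_lt with h | h
    · rw [← h]
      norm_num
    · rw [show (3 / 2 : ℝ) = 1 + 1 / 2 by norm_num, Real.rpow_add h, Real.rpow_one, Real.sqrt_eq_rpow]
  have hNu : N * u = I := by
    rw [hu]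
    field_simp
  rw [hsplit, ← mul_assoc, hNu]
  -- bound for the square root
  have hu1 : u ≤ 4 * L ^ 3 / (n : ℝ) ^ 2 := by
    rw [hu, div_le_div_iff₀ hNpos (by positivity)]
    nlinarith [sq_nonneg (n : ℝ), pow_pos hLpos 3]
  have hs : √u ≤ 2 * L ^ 2 / (n : ℝ) := by
    apply Real.sqrt_le_iff.mpr
    refine ⟨by positivity, le_trans hu1 ?_⟩
    rw [div_pow, mul_pow, div_le_div_iff₀ (by positivity) (by positivity)]
    have : L ^ 3 ≤ (L ^ 2) ^ 2 := by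
      have h4 : (L ^ 2) ^ 2 = L ^ 3 * L := by ring
      rw [h4]
      nlinarith [pow_pos hLpos 3]
    nlinarith [sq_nonneg (n : ℝ)]
  calc I * √u ≤ L ^ 3 * (2 * L ^ 2 / (n : ℝ)) :=
        mul_le_mul hI hs (Real.sqrt_nonneg _) (by positivity)
    _ = 2 * L ^ 5 * (n : ℝ)⁻¹ := by
        field_simp
    _ = 2 * L ^ 5 * Real.exp (-L) := by rw [hnexp, Real.exp_neg]

/-- Exponentials combine to `exp (-L/300)`. -/
lemma exp_comb {L : ℝ} (hL : 0 ≤ L) :
    Real.exp (L / 4800 + 2) * Real.exp (L / 2400 - L / 192) ≤ 8 * Real.exp (-(L / 300)) ∧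
    Real.exp (L / 4800 + 2) * Real.exp (-(L / 24)) ≤ 8 * Real.exp (-(L / 300)) ∧
    Real.exp (L / 4800 + 2) * Real.exp (-(L / 192)) ≤ 8 * Real.exp (-(L / 300)) ∧
    Real.exp (L / 240 - L) ≤ Real.exp (-(L / 300)) := by
  have h8 : Real.exp 2 ≤ 8 := by
    have := two_le_log_eight
    have h := Real.exp_le_exp.mpr this
    rwa [Real.exp_log (by norm_num)] at h
  have key : ∀ x, x ≤ -(L / 300) → Real.exp (x + 2) ≤ 8 * Real.exp (-(L / 300)) := by
    intro x hx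
    rw [Real.exp_add, mul_comm]
    exact mul_le_mul h8 (Real.exp_le_exp.mpr hx) (Real.exp_pos _).le (by norm_num)
  refine ⟨?_, ?_, ?_, ?_⟩
  · rw [← Real.exp_add]
    have := key (L / 4800 + (L / 2400 - L / 192)) (by linarith)
    convert this using 2
    ring
  · rw [← Real.exp_add]
    have := key (L / 4800 + -(L / 24)) (by linarith)
    convert this using 2
    ring
  · rw [← Real.exp_add]
    have := key (L / 4800 + -(L / 192)) (by linarith)
    convert this using 2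
    ring
  · exact Real.exp_le_exp.mpr (by linarith)

/-- First term. -/
lemma tiny_T1 {L σ : ℝ} {tm : ℕ} (hσsq : σ ^ 2 ≤ 1 / 4) (hLpos : 0 < L) (hσ : 0 < σ)
    (hR1 : (4 / σ) ^ tm ≤ Real.exp (L / 2400) * (8 * L)) :
    σ ^ 2 * (4 / σ) ^ tm * √(Real.exp (-L / 48)) * Real.exp (L / 192) ≤
      2 * L * Real.exp (L / 2400 - L / 192) := by
  have hsq : √(Real.exp (-L / 48)) = Real.exp (-L / 96) := by
    rw [Real.sqrt_eq_iff_mul_self_eq (Real.exp_pos _).le (Real.exp_pos _).le, ← Real.exp_add]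
    congr 1
    ring
  rw [hsq]
  have h1 : σ ^ 2 * (4 / σ) ^ tm ≤ 1 / 4 * (Real.exp (L / 2400) * (8 * L)) :=
    mul_le_mul hσsq hR1 (by positivity) (by norm_num)
  have h3 : σ ^ 2 * (4 / σ) ^ tm * Real.exp (-L / 96) * Real.exp (L / 192) ≤
      1 / 4 * (Real.exp (L / 2400) * (8 * L)) * Real.exp (-L / 96) * Real.exp (L / 192) := by
    apply mul_le_mul_of_nonneg_right _ (Real.exp_pos _).le
    exact mul_le_mul_of_nonneg_right h1 (Real.exp_pos _).le
  refine le_trans h3 (le_of_eq ?_)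
  have e : Real.exp (L / 2400 - L / 192) =
      Real.exp (L / 2400) * Real.exp (-L / 96) * Real.exp (L / 192) := by
    rw [← Real.exp_add, ← Real.exp_add]
    congr 1
    ring
  rw [e]
  ring

/-- Power of two. -/
lemma tiny_two_pow {L : ℝ} {tm : ℕ} (htm : (tm : ℝ) + 1 ≤ L / 4800 + 2) :
    (2 : ℝ) ^ (tm + 1) ≤ Real.exp (L / 4800 + 2) := by
  have h2e : (2 : ℝ) ≤ Real.exp 1 := by
    have := Real.add_one_le_exp (1 : ℝ)
    linarith
  have h3 : (2 : ℝ) ^ (tm + 1) ≤ Real.exp 1 ^ (tm + 1) := pow_le_pow_left₀ (by norm_num) h2e _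
  rw [← Real.exp_nat_mul] at h3
  refine le_trans h3 (Real.exp_le_exp.mpr ?_)
  push_cast
  linarith

/-- Low term with the power of `4/σ`. -/
lemma tiny_low {L σ W : ℝ} {l : ℕ} (hσsq : σ ^ 2 ≤ 1 / 4) (hLpos : 0 < L) (hσ : 0 < σ) (hW0 : 0 ≤ W)
    (hR2 : (4 / σ) ^ l ≤ Real.exp (L / 240) * (8 * L)) (hlow : W ≤ 2 * L ^ 5 * Real.exp (-L)) :
    σ ^ 2 * (4 / σ) ^ l * W ≤ 4 * (L ^ 6 * Real.exp (-(L / 300))) := by
  have hE4 := (exp_comb hLpos.le).2.2.2
  have h1 : σ ^ 2 * (4 / σ) ^ l ≤ 1 / 4 * (Real.exp (L / 240) * (8 * L)) :=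
    mul_le_mul hσsq hR2 (by positivity) (by norm_num)
  have h3 := mul_le_mul h1 hlow hW0 (by positivity)
  refine le_trans h3 ?_
  have e : 1 / 4 * (Real.exp (L / 240) * (8 * L)) * (2 * L ^ 5 * Real.exp (-L)) =
      4 * L ^ 6 * Real.exp (L / 240 - L) := by
    rw [sub_eq_add_neg, Real.exp_add]
    ring
  rw [e, mul_assoc]
  apply mul_le_mul_of_nonneg_left _ (by norm_num)
  exact mul_le_mul_of_nonneg_left hE4 (by positivity)

/-- The bracket of three terms. -/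
lemma tiny_bracket {L A1 A2 A3 T : ℝ} (hL : 1 ≤ L) (hA : 0 ≤ A1 + A2 + A3) (hT0 : 0 ≤ T)
    (h2pow : T ≤ Real.exp (L / 4800 + 2))
    (hT1 : A1 ≤ 2 * L * Real.exp (L / 2400 - L / 192)) (hT2 : A2 ≤ L * Real.exp (-(L / 24)))
    (hT3 : A3 ≤ 1 / 4 * L ^ 3 * Real.exp (-(L / 192))) :
    T * (A1 + A2 + A3) ≤ 32 * (L ^ 6 * Real.exp (-(L / 300))) := by
  have hLpos : 0 < L := by linarith
  obtain ⟨hE1, hE2, hE3, -⟩ := exp_comb hLpos.le
  set E := Real.exp (-(L / 300)) with hE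
  have hEpos : 0 < E := Real.exp_pos _
  have hX : 0 < Real.exp (L / 4800 + 2) := Real.exp_pos _
  have h1 := mul_le_mul_of_nonneg_right h2pow hA
  refine le_trans h1 ?_
  have h5 := add_le_add (add_le_add hT1 hT2) hT3
  have h6 := mul_le_mul_of_nonneg_left h5 hX.le
  refine le_trans h6 ?_
  have hp1 : L ≤ L ^ 6 := le_self_pow₀ hL (by norm_num)
  have hp3 : L ^ 3 ≤ L ^ 6 := pow_le_pow_right₀ hL (by norm_num)
  have e : Real.exp (L / 4800 + 2) * (2 * L * Real.exp (L / 2400 - L / 192) + L * Real.exp (-(L / 24))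
      + 1 / 4 * L ^ 3 * Real.exp (-(L / 192))) =
      2 * L * (Real.exp (L / 4800 + 2) * Real.exp (L / 2400 - L / 192))
      + L * (Real.exp (L / 4800 + 2) * Real.exp (-(L / 24)))
      + 1 / 4 * L ^ 3 * (Real.exp (L / 4800 + 2) * Real.exp (-(L / 192))) := by ring
  rw [e]
  have a1 := mul_le_mul_of_nonneg_left hE1 (by positivity : 0 ≤ 2 * L)
  have a2 := mul_le_mul_of_nonneg_left hE2 hLpos.le
  have a3 := mul_le_mul_of_nonneg_left hE3 (by positivity : 0 ≤ 1 / 4 * L ^ 3)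
  have hEL1 : L * E ≤ L ^ 6 * E := mul_le_mul_of_nonneg_right hp1 hEpos.le
  have hEL3 : L ^ 3 * E ≤ L ^ 6 * E := mul_le_mul_of_nonneg_right hp3 hEpos.le
  have b1 : 2 * L * (8 * E) = 16 * (L * E) := by ring
  have b2 : L * (8 * E) = 8 * (L * E) := by ring
  have b3 : 1 / 4 * L ^ 3 * (8 * E) = 2 * (L ^ 3 * E) := by ring
  rw [b1] at a1
  rw [b2] at a2
  rw [b3] at a3
  have hW : 0 ≤ L ^ 6 * E := by positivity
  linarith

/-- NUM4: the small terms. -/
theorem num_tiny (v₀ : ℝ) (hv₀ : 0 < v₀) : ∃ L₀ : ℝ, ∀ (n : ℕ) (L : ℝ), L = Real.log n → L₀ ≤ L → ∀ σ : ℝ,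
    1 / (2 * L) ≤ σ → σ ≤ 1 / 2 → ∀ I : ℝ, 0 ≤ I → I ≤ L ^ 3 →
    5 / 2 * (2 ^ (ptm (pθ L σ) + 1) * (σ ^ 2 * (4 / σ) ^ ptm (pθ L σ) *
        √(Real.exp (-L / 48)) * Real.exp (L / 192)
        + ∑ t ∈ Finset.Icc 1 (ptm (pθ L σ)),
            (Real.exp (L / 192) / Real.exp (-L / 48)) ^ t * pa_ L t ^ 2
        + pθ L σ * I / Real.exp (L / 192)))
      + σ ^ 2 * (4 / σ) ^ pl (pθ L σ) * ((n.choose 2 : ℝ) * (I / (n.choose 2 : ℝ)) ^ (3 / 2 : ℝ))
      ≤ v₀ / 8 := by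
  obtain ⟨L0, hL0, hbasic⟩ := num_basic
  obtain ⟨L1, hL1⟩ := tiny_limit (ε := v₀ / 800) (by positivity)
  refine ⟨max L0 L1, ?_⟩
  intro n L hLn hL σ hσ1 hσ2 I hI0 hI
  have hLL0 : L0 ≤ L := le_trans (le_max_left _ _) hL
  have hLL1 : L1 ≤ L := le_trans (le_max_right _ _) hL
  have hL40 : 40 < L := lt_of_lt_of_le hL0 hLL0
  have hLpos : 0 < L := by linarith
  have hσ : 0 < σ := lt_of_lt_of_le (by positivity) hσ1
  have hσsq : σ ^ 2 ≤ 1 / 4 := by nlinarith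
  obtain ⟨hθ1, hθ2⟩ := hbasic L hLL0 σ hσ1 hσ2
  obtain ⟨hD1, hD2, htm⟩ := levels_bound hLpos hσ1 hσ2
  have hR1 := R_pow_le hLpos hσ1 hσ2 hD1
  have hR2 := R_pow_le hLpos hσ1 hσ2 hD2
  have hθ0 : 0 < pθ L σ := lt_of_lt_of_le (by positivity) hθ1
  have hT1 := tiny_T1 hσsq hLpos hσ hR1
  have hT2 : ∑ t ∈ Finset.Icc 1 (ptm (pθ L σ)),
      (Real.exp (L / 192) / Real.exp (-L / 48)) ^ t * pa_ L t ^ 2 ≤ L * Real.exp (-(L / 24)) := by
    refine le_trans (sum_threshold_le hLpos _) ?_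
    apply mul_le_mul_of_nonneg_right _ (Real.exp_pos _).le
    linarith
  have hT3 : pθ L σ * I / Real.exp (L / 192) ≤ 1 / 4 * L ^ 3 * Real.exp (-(L / 192)) := by
    rw [div_eq_mul_inv, ← Real.exp_neg]
    apply mul_le_mul_of_nonneg_right _ (Real.exp_pos _).le
    exact mul_le_mul hθ2 hI hI0 (by norm_num)
  have hA : 0 ≤ σ ^ 2 * (4 / σ) ^ ptm (pθ L σ) * √(Real.exp (-L / 48)) * Real.exp (L / 192)
      + ∑ t ∈ Finset.Icc 1 (ptm (pθ L σ)),
        (Real.exp (L / 192) / Real.exp (-L / 48)) ^ t * pa_ L t ^ 2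
      + pθ L σ * I / Real.exp (L / 192) := by
    have h4 : 0 ≤ ∑ t ∈ Finset.Icc 1 (ptm (pθ L σ)),
        (Real.exp (L / 192) / Real.exp (-L / 48)) ^ t * pa_ L t ^ 2 :=
      Finset.sum_nonneg fun t _ => by positivity
    positivity
  have hbr := tiny_bracket (by linarith) hA (by positivity) (tiny_two_pow htm) hT1 hT2 hT3
  have hlow := low_term hLn (by linarith) hI0 hI
  have hW0 : 0 ≤ (n.choose 2 : ℝ) * (I / (n.choose 2 : ℝ)) ^ (3 / 2 : ℝ) := by positivity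
  have hLow := tiny_low hσsq hLpos hσ hW0 hR2 hlow
  have hfinal := hL1 L hLL1
  generalize (L ^ 6 * Real.exp (-(L / 300))) = W at *
  linarith

end Vale.Agent.Lib.P063
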