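import Vale.Agent.Lib.P063.Defs

/-!
Russo's formula on the biased cube, the passage from a lower bound on the derivative to a bound on
the width, and the basic facts on `μ_p(P)` for an increasing nontrivial property.
-/

set_option linter.unusedVariables false
set_option linter.unusedSectionVars false

namespace Vale.Agent.Lib.P063

open Finset

section Generic

variable {E : Type*} [Fintype E] [DecidableEq E]

lemma hasDerivAt_bw (p : ℝ) (v : Bool) :
    HasDerivAt (fun q => bw q v) (if v then (1 : ℝ) else -1) p := by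
  cases v
  · have h := (hasDerivAt_id p).const_sub 1
    simpa [bw] using h
  · have h := hasDerivAt_id' p
    simpa [bw] using h

/-- The coefficient of the derivative of a product weight in direction `e`. -/
lemma sum_erase_eq_Ex_D (p : ℝ) (k : E) (f : (E → Bool) → ℝ) :
    ∑ x : E → Bool, ((∏ j ∈ univ.erase k, bw p (x j)) * (if x k then (1 : ℝ) else -1)) * f x
      = Ex (fun _ : E => p) (D k f) := by
  classical
  set e := Equiv.funSplitAt k Bool with he
  have key : ∀ F : (E → Bool) → ℝ, ∑ x, F x = ∑ v : Bool, ∑ z : ({j // j ≠ k} → Bool),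
      F (e.symm (v, z)) := by
    intro F
    rw [← Fintype.sum_prod_type' (f := fun v z => F (e.symm (v, z)))]
    exact (Equiv.sum_comp e.symm F).symm
  have hk : ∀ v z, (e.symm (v, z)) k = v := by
    intro v z
    simp [he, Equiv.funSplitAt, Equiv.piSplitAt]
  have hne : ∀ v z (j : E) (hj : j ≠ k), (e.symm (v, z)) j = z ⟨j, hj⟩ := by
    intro v z j hj
    simp [he, Equiv.funSplitAt, Equiv.piSplitAt, hj]
  have hupd : ∀ v w z, Function.update (e.symm (v, z)) k w = e.symm (w, z) := by
    intro v w z
    funext j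
    by_cases hj : j = k
    · subst hj
      simp [hk]
    · rw [Function.update_of_ne hj, hne _ _ _ hj, hne _ _ _ hj]
  have hprod : ∀ v z, ∏ j ∈ univ.erase k, bw p ((e.symm (v, z)) j)
      = ∏ j : {j // j ≠ k}, bw p (z j) := by
    intro v z
    rw [Finset.prod_subtype (Finset.univ.erase k) (p := fun j => j ≠ k) (by simp)
      (fun j => bw p ((e.symm (v, z)) j))]
    refine Finset.prod_congr rfl fun j _ => ?_
    rw [hne _ _ _ j.2]
  have hwt : ∀ v z, wt (fun _ : E => p) (e.symm (v, z)) = bw p v *
      ∏ j : {j // j ≠ k}, bw p (z j) := by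
    intro v z
    unfold wt
    rw [← Finset.mul_prod_erase Finset.univ _ (Finset.mem_univ k), hk, hprod]
  unfold Ex D
  rw [key, key]
  simp only [Fintype.sum_bool, hwt, hupd, hprod, hk, bw_true, bw_false]
  rw [← Finset.sum_add_distrib, ← Finset.sum_add_distrib]
  refine Finset.sum_congr rfl fun z _ => ?_
  simp only [if_true, Bool.false_eq_true, if_false]
  ring

/-- Russo's formula. -/
theorem russo (f : (E → Bool) → ℝ) (p : ℝ) :
    HasDerivAt (fun p => Ex (fun _ : E => p) f) (∑ e, Ex (fun _ : E => p) (D e f)) p := by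
  have h1 : ∀ x : E → Bool, HasDerivAt (fun q => wt (fun _ : E => q) x)
      (∑ i, (∏ j ∈ univ.erase i, bw p (x j)) * (if x i then (1 : ℝ) else -1)) p := by
    intro x
    have := HasDerivAt.fun_finsetProd (u := (univ : Finset E)) (f := fun i q => bw q (x i))
      (f' := fun i => if x i then (1 : ℝ) else -1) (x := p)
      (fun i _ => hasDerivAt_bw p (x i))
    simpa [wt, smul_eq_mul] using this
  have h2 : HasDerivAt (fun q => ∑ x : E → Bool, wt (fun _ : E => q) x * f x)
      (∑ x : E → Bool, (∑ i, (∏ j ∈ univ.erase i, bw p (x j)) * (if x i then (1 : ℝ) else -1)) * f x)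
      p := by
    exact HasDerivAt.fun_sum (fun x _ => (h1 x).mul_const (f x))
  have h3 : (∑ x : E → Bool,
      (∑ i, (∏ j ∈ univ.erase i, bw p (x j)) * (if x i then (1 : ℝ) else -1)) * f x)
      = ∑ e, Ex (fun _ : E => p) (D e f) := by
    simp only [Finset.sum_mul]
    rw [Finset.sum_comm]
    exact Finset.sum_congr rfl fun e _ => sum_erase_eq_Ex_D p e f
  rw [h3] at h2
  exact h2

end Generic

/-- From a lower bound on the derivative to a bound on the width. -/
theorem width_of_deriv {μ : ℝ → ℝ} (hcont : Continuous μ) (hmono : MonotoneOn μ (Set.Icc 0 1))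
    (h0 : μ 0 = 0) (h1 : μ 1 = 1) {ε δ c : ℝ} (hε : 0 < ε) (hε2 : ε < 1/2) (hc : 0 < c)
    (hδ : 0 ≤ δ) (hδ1 : δ ≤ 1/2)
    (hderiv : ∀ p ∈ Set.Ioo δ (1-δ), ε ≤ μ p → μ p ≤ 1-ε → ∃ μ', HasDerivAt μ μ' p ∧ c ≤ μ') :
    sInf {p : ℝ | p ∈ Set.Icc (0:ℝ) 1 ∧ 1-ε ≤ μ p} - sInf {p : ℝ | p ∈ Set.Icc (0:ℝ) 1 ∧ ε ≤ μ p}
      ≤ 2*δ + 1/c := by
  set A : Set ℝ := {p : ℝ | p ∈ Set.Icc (0:ℝ) 1 ∧ ε ≤ μ p} with hA
  set B : Set ℝ := {p : ℝ | p ∈ Set.Icc (0:ℝ) 1 ∧ 1-ε ≤ μ p} with hB
  have hAc : IsClosed A := by
    have : A = Set.Icc (0:ℝ) 1 ∩ μ ⁻¹' Set.Ici ε := by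
      ext p; simp [hA]
    rw [this]
    exact isClosed_Icc.inter (isClosed_Ici.preimage hcont)
  have hBc : IsClosed B := by
    have : B = Set.Icc (0:ℝ) 1 ∩ μ ⁻¹' Set.Ici (1-ε) := by
      ext p; simp [hB]
    rw [this]
    exact isClosed_Icc.inter (isClosed_Ici.preimage hcont)
  have h1mem : (1:ℝ) ∈ Set.Icc (0:ℝ) 1 := ⟨by norm_num, le_refl _⟩
  have h0mem : (0:ℝ) ∈ Set.Icc (0:ℝ) 1 := ⟨le_refl _, by norm_num⟩
  have hAne : A.Nonempty := ⟨1, h1mem, by rw [h1]; linarith⟩
  have hBne : B.Nonempty := ⟨1, h1mem, by rw [h1]; linarith⟩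
  have hAbdd : BddBelow A := ⟨0, fun p hp => hp.1.1⟩
  have hBbdd : BddBelow B := ⟨0, fun p hp => hp.1.1⟩
  set a := sInf A with ha
  set b := sInf B with hb
  have haA : a ∈ A := hAc.csInf_mem hAne hAbdd
  have hbB : b ∈ B := hBc.csInf_mem hBne hBbdd
  -- the truncated interval
  set a' := max a δ with ha'
  set b' := min b (1 - δ) with hb'
  have ha'1 : a ≤ a' := le_max_left _ _
  have ha'2 : δ ≤ a' := le_max_right _ _
  have hb'1 : b' ≤ b := min_le_left _ _
  have hb'2 : b' ≤ 1 - δ := min_le_right _ _
  have hsplit : b - a ≤ 2 * δ + (b' - a') := by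
    have h3 : b - b' ≤ δ := by
      rcases le_total b (1 - δ) with h | h
      · have : b' = b := min_eq_left h
        rw [this]; linarith
      · have : b' = 1 - δ := min_eq_right h
        rw [this]; linarith [hbB.1.2]
    have h4 : a' - a ≤ δ := by
      rcases le_total a δ with h | h
      · have : a' = δ := max_eq_right h
        rw [this]; linarith [haA.1.1]
      · have : a' = a := max_eq_left h
        rw [this]; linarith
    linarith
  have hcpos : 0 < 1 / c := by positivity
  by_cases hle : b' ≤ a'
  · linarith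
  · push Not at hle
    have hInt : ∀ p ∈ Set.Ioo a' b', ∃ μ', HasDerivAt μ μ' p ∧ c ≤ μ' := by
      intro p hp
      have hp1 : a < p := lt_of_le_of_lt ha'1 hp.1
      have hp2 : p < b := lt_of_lt_of_le hp.2 hb'1
      have hp3 : δ < p := lt_of_le_of_lt ha'2 hp.1
      have hp4 : p < 1 - δ := lt_of_lt_of_le hp.2 hb'2
      have hp0 : p ∈ Set.Icc (0:ℝ) 1 := ⟨by linarith [haA.1.1], by linarith [hbB.1.2]⟩
      have hlow : ε ≤ μ p := le_trans haA.2 (hmono haA.1 hp0 hp1.le)
      have hhigh : μ p ≤ 1 - ε := by
        by_contra hcon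
        push Not at hcon
        have hpB : p ∈ B := ⟨hp0, hcon.le⟩
        have : b ≤ p := csInf_le hBbdd hpB
        linarith
      exact hderiv p ⟨hp3, hp4⟩ hlow hhigh
    have hdiff : DifferentiableOn ℝ μ (Set.Ioo a' b') := by
      intro p hp
      obtain ⟨μ', h, _⟩ := hInt p hp
      exact h.differentiableAt.differentiableWithinAt
    obtain ⟨ξ, hξ, hslope⟩ := exists_deriv_eq_slope μ hle hcont.continuousOn hdiff
    obtain ⟨μ', hξ1, hξ2⟩ := hInt ξ hξ
    have hpos : 0 < b' - a' := by linarith
    have hslope2 : μ' = (μ b' - μ a') / (b' - a') := by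
      rw [← hslope]; exact hξ1.deriv.symm
    have hkey : c * (b' - a') ≤ μ b' - μ a' := by
      have : c ≤ (μ b' - μ a') / (b' - a') := by rw [← hslope2]; exact hξ2
      rwa [le_div_iff₀ hpos] at this
    have ha'mem : a' ∈ Set.Icc (0:ℝ) 1 := by
      constructor
      · linarith [haA.1.1]
      · have : a' < b' := hle
        linarith [hbB.1.2]
    have hb'mem : b' ∈ Set.Icc (0:ℝ) 1 := by
      constructor
      · linarith [ha'mem.1]
      · linarith [hbB.1.2]
    have hm0 : 0 ≤ μ a' := by
      have := hmono h0mem ha'mem ha'mem.1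
      rwa [h0] at this
    have hm1 : μ b' ≤ 1 := by
      have := hmono hb'mem h1mem hb'mem.2
      rwa [h1] at this
    have hfinal : b' - a' ≤ 1 / c := by
      rw [le_div_iff₀ hc]
      nlinarith
    linarith

section Concrete

variable {n r : ℕ}

open Classical in
/-- The indicator of a property as a real function on the cube. -/
noncomputable def indP (P : Set (Edge n r → Bool)) : (Edge n r → Bool) → ℝ :=
  fun x => if x ∈ P then 1 else 0

lemma indP_isBool (P : Set (Edge n r → Bool)) : IsBool (indP P) := by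
  classical
  intro x
  unfold indP
  by_cases h : x ∈ P <;> simp [h]

theorem mu_eq_Ex (p : ℝ) (P : Set (Edge n r → Bool)) :
    mu p P = Ex (fun _ => p) (indP P) := by
  classical
  unfold mu Ex wt indP
  refine Finset.sum_congr rfl fun x _ => ?_
  by_cases h : x ∈ P
  · simp only [h, if_true, mul_one]
    refine Finset.prod_congr rfl fun e _ => ?_
    unfold bw
    rfl
  · simp [h]

theorem hasDerivAt_mu (P : Set (Edge n r → Bool)) (p : ℝ) :
    HasDerivAt (fun p => mu p P) (∑ e, Ex (fun _ => p) (D e (indP P))) p := by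
  have h := russo (E := Edge n r) (indP P) p
  have he : (fun p => mu p P) = fun p => Ex (fun _ : Edge n r => p) (indP P) := by
    funext q
    exact mu_eq_Ex q P
  rw [he]
  exact h

theorem continuous_mu (P : Set (Edge n r → Bool)) : Continuous (fun p => mu p P) := by
  rw [continuous_iff_continuousAt]
  intro p
  exact (hasDerivAt_mu P p).continuousAt

/-- The empty hypergraph is not in an increasing nontrivial property. -/
lemma bot_not_mem {P : Set (Edge n r → Bool)} (hinc : IsIncreasing P) (hnt : IsNontrivial P) :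
    (fun _ => false) ∉ P := by
  intro h
  apply hnt.2
  apply Set.eq_univ_of_forall
  intro y
  exact hinc (fun _ => false) y (by simp) h

/-- The complete hypergraph is in an increasing nontrivial property. -/
lemma top_mem {P : Set (Edge n r → Bool)} (hinc : IsIncreasing P) (hnt : IsNontrivial P) :
    (fun _ => true) ∈ P := by
  obtain ⟨x, hx⟩ := hnt.1
  exact hinc x (fun _ => true) (by simp) hx

theorem mu_zero {P : Set (Edge n r → Bool)} (hinc : IsIncreasing P) (hnt : IsNontrivial P) :
    mu 0 P = 0 := by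
  classical
  unfold mu
  refine Finset.sum_eq_zero fun x _ => ?_
  by_cases h : x ∈ P
  · rw [if_pos h]
    have hne : ∃ e, x e = true := by
      by_contra hcon
      push Not at hcon
      have : x = fun _ => false := by
        funext e
        cases hx : x e
        · rfl
        · exact absurd hx (hcon e)
      exact bot_not_mem hinc hnt (this ▸ h)
    obtain ⟨e, he⟩ := hne
    exact Finset.prod_eq_zero (Finset.mem_univ e) (by simp [he])
  · rw [if_neg h]

theorem mu_one {P : Set (Edge n r → Bool)} (hinc : IsIncreasing P) (hnt : IsNontrivial P) :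
    mu 1 P = 1 := by
  classical
  unfold mu
  rw [Finset.sum_eq_single (fun _ => true)]
  · rw [if_pos (top_mem hinc hnt)]
    simp
  · intro x _ hx
    by_cases h : x ∈ P
    · rw [if_pos h]
      have hne : ∃ e, x e = false := by
        by_contra hcon
        push Not at hcon
        apply hx
        funext e
        cases hxe : x e
        · exact absurd hxe (hcon e)
        · rfl
      obtain ⟨e, he⟩ := hne
      exact Finset.prod_eq_zero (Finset.mem_univ e) (by simp [he])
    · rw [if_neg h]
  · intro h
    exact absurd (Finset.mem_univ _) h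

/-- For an increasing property the Boolean derivative of the indicator takes the values `0`, `1`. -/
lemma D_indP {P : Set (Edge n r → Bool)} (hinc : IsIncreasing P) (e : Edge n r)
    (y : Edge n r → Bool) : D e (indP P) y = 0 ∨ D e (indP P) y = 1 := by
  classical
  unfold D indP
  have hmon : Function.update y e false ∈ P → Function.update y e true ∈ P := by
    apply hinc
    intro e' he'
    by_cases h : e' = e
    · subst h; simp
    · rw [Function.update_of_ne h] at he' ⊢
      exact he'
  by_cases h1 : Function.update y e true ∈ P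
  · by_cases h2 : Function.update y e false ∈ P
    · left; simp [h1, h2]
    · right; simp [h1, h2]
  · have h2 : Function.update y e false ∉ P := fun h => h1 (hmon h)
    left; simp [h1, h2]

lemma D_indP_sq {P : Set (Edge n r → Bool)} (hinc : IsIncreasing P) (e : Edge n r)
    (y : Edge n r → Bool) : D e (indP P) y ^ 2 = D e (indP P) y := by
  rcases D_indP hinc e y with h | h <;> rw [h] <;> norm_num

lemma D_indP_nonneg {P : Set (Edge n r → Bool)} (hinc : IsIncreasing P) (e : Edge n r)
    (y : Edge n r → Bool) : 0 ≤ D e (indP P) y := by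
  rcases D_indP hinc e y with h | h <;> rw [h] <;> norm_num

/-- The derivative of `μ_p(P)` is the total influence, for increasing `P` and every real `p`. -/
theorem hasDerivAt_mu_infl {P : Set (Edge n r → Bool)} (hinc : IsIncreasing P) (p : ℝ) :
    HasDerivAt (fun p => mu p P) (∑ e, infl (fun _ => p) (indP P) e) p := by
  have h := hasDerivAt_mu P p
  have he : (∑ e, infl (fun _ => p) (indP P) e) = ∑ e, Ex (fun _ => p) (D e (indP P)) := by
    refine Finset.sum_congr rfl fun e _ => ?_
    unfold infl
    exact Ex_congr fun y => D_indP_sq hinc e y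
  rw [he]
  exact h

/-- The derivative of `μ_p(P)` is the total influence, for increasing `P` and `p ∈ (0,1)`. -/
theorem deriv_mu {P : Set (Edge n r → Bool)} (hinc : IsIncreasing P) {p : ℝ}
    (hp : p ∈ Set.Ioo (0:ℝ) 1) :
    HasDerivAt (fun p => mu p P) (∑ e, infl (fun _ => p) (indP P) e) p :=
  hasDerivAt_mu_infl hinc p

/-- `μ_p(P)` is monotone in `p` for increasing `P`. -/
theorem mono_mu {P : Set (Edge n r → Bool)} (hinc : IsIncreasing P) :
    MonotoneOn (fun p => mu p P) (Set.Icc 0 1) := by
  apply monotoneOn_of_deriv_nonneg (convex_Icc 0 1) (continuous_mu P).continuousOn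
  · intro p _
    exact (hasDerivAt_mu P p).differentiableAt.differentiableWithinAt
  · intro p hp
    rw [interior_Icc] at hp
    rw [(hasDerivAt_mu P p).deriv]
    refine Finset.sum_nonneg fun e _ => ?_
    have hb : Bias (fun _ : Edge n r => p) := fun _ => ⟨hp.1, hp.2⟩
    exact Ex_nonneg hb (fun y => D_indP_nonneg hinc e y)

end Concrete

end Vale.Agent.Lib.P063
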