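import Vale.Agent.Lib.P063.Core
import Vale.Agent.Lib.P063.Width
import Vale.Agent.Lib.P063.NumB
import Vale.Agent.Lib.P063.NumC

/-!
Assembly: the influence lower bound and the width theorem.
-/

set_option linter.unusedVariables false
set_option linter.unusedSectionVars false
set_option linter.unusedSimpArgs false

namespace Vale.Agent.Lib.P063

open Finset

lemma pρ_facts {b : ℝ} (h0 : 0 < b) (h1 : b < 1) :
    0 < pρ b ∧ pρ b ^ 2 = sg b / 4 ∧ pρ b ^ 2 ≤ 1 / 4 ∧ 3 * pρ b ^ 4 ≤ sg b ^ 2 := by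
  have hs := sg_pos h0 h1
  have hs2 := sg_le_half h0 h1
  have hsq : √(sg b) ^ 2 = sg b := Real.sq_sqrt hs.le
  have hpos : 0 < pρ b := by
    unfold pρ
    positivity
  have h2 : pρ b ^ 2 = sg b / 4 := by
    unfold pρ
    rw [div_pow, hsq]
    norm_num
  refine ⟨hpos, h2, ?_, ?_⟩
  · rw [h2]
    linarith
  · have : pρ b ^ 4 = (sg b / 4) ^ 2 := by
      rw [← h2]
      ring
    rw [this]
    nlinarith [sq_nonneg (sg b)]

/-- Variance of a Boolean function from its Fourier weights. -/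
lemma var_eq {ι : Type*} [Fintype ι] [DecidableEq ι] {f : (ι → Bool) → ℝ} (hfb : IsBool f) {p : ℝ}
    (hp0 : 0 < p) (hp1 : p < 1) :
    ∑ S ∈ univ.filter (fun S : Finset ι => S.Nonempty), ww f p S =
      Ex (fun _ => p) f * (1 - Ex (fun _ => p) f) := by
  have hb : Bias (fun _ : ι => p) := fun _ => ⟨hp0, hp1⟩
  have h1 : Ex (fun _ => p) (fun x => f x ^ 2) = Ex (fun _ => p) f := by
    refine Ex_congr fun x => ?_
    rcases hfb x with h | h <;> rw [h] <;> norm_num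
  have h2 := Ex_sq_eq hb f
  have h3 : coef (fun _ => p) f ∅ = Ex (fun _ => p) f := by
    unfold coef phi
    simp
  rw [← Finset.sum_filter_add_sum_filter_not univ (fun S : Finset ι => S.Nonempty)] at h2
  have h4 : univ.filter (fun S : Finset ι => ¬ S.Nonempty) = {∅} := by
    ext S
    simp [Finset.not_nonempty_iff_eq_empty]
  rw [h4, Finset.sum_singleton, h3, h1] at h2
  unfold ww
  nlinarith

/-- The sigma lower bound on the relevant range of `p`. -/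
lemma sg_range {L p : ℝ} (hL : 2 ≤ L) (h1 : 1 / L ^ 2 ≤ p) (h2 : p ≤ 1 - 1 / L ^ 2) :
    0 < p ∧ p < 1 ∧ 1 / (2 * L) ≤ sg p := by
  have hLpos : 0 < L := by linarith
  have hu : 0 < 1 / L ^ 2 := by positivity
  have hu2 : 1 / L ^ 2 ≤ 1 / 4 := by
    rw [div_le_div_iff₀ (by positivity) (by norm_num)]
    nlinarith
  have hp0 : 0 < p := by linarith
  have hp1 : p < 1 := by linarith
  refine ⟨hp0, hp1, ?_⟩
  unfold sg
  apply Real.le_sqrt_of_sq_le
  have hprod : (1 / L ^ 2) * (3 / 4) ≤ p * (1 - p) := by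
    set u := 1 / L ^ 2 with hudef
    nlinarith [mul_nonneg (sub_nonneg.mpr h1) (sub_nonneg.mpr h2)]
  have : (1 / (2 * L)) ^ 2 = (1 / L ^ 2) * (1 / 4) := by
    field_simp
    ring
  rw [this]
  nlinarith

/-- The level facts. -/
lemma levels_facts {θ : ℝ} (hθ0 : 0 < θ) (hθ1 : θ ≤ 1 / 4) :
    1 ≤ 2 * θ * (pl θ : ℝ) ∧ (2 * θ) ^ 2 * (pm θ : ℝ) ≤ 1 / 100 ∧
    10 * (2 * θ) * (pm θ : ℝ) ≤ (ptm θ : ℝ) ∧ 2 * θ * (ptm θ : ℝ) ≤ 3 / 5 := by
  have hl : 1 ≤ 2 * θ * (pl θ : ℝ) := by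
    have h1 : 1 / (2 * θ) ≤ (pl θ : ℝ) := Nat.le_ceil _
    have h2 : 0 < 2 * θ := by positivity
    calc 1 = 2 * θ * (1 / (2 * θ)) := by field_simp
      _ ≤ _ := mul_le_mul_of_nonneg_left h1 h2.le
  have hm1 : (pm θ : ℝ) ≤ 1 / (400 * θ ^ 2) := Nat.floor_le (by positivity)
  have hmm : (2 * θ) ^ 2 * (pm θ : ℝ) ≤ 1 / 100 := by
    calc (2 * θ) ^ 2 * (pm θ : ℝ) ≤ (2 * θ) ^ 2 * (1 / (400 * θ ^ 2)) :=
          mul_le_mul_of_nonneg_left hm1 (by positivity)
      _ = 1 / 100 := by field_simp; norm_num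
  have htm1 : 1 / (20 * θ) ≤ (ptm θ : ℝ) := Nat.le_ceil _
  have hmt : 10 * (2 * θ) * (pm θ : ℝ) ≤ (ptm θ : ℝ) := by
    calc 10 * (2 * θ) * (pm θ : ℝ) ≤ 10 * (2 * θ) * (1 / (400 * θ ^ 2)) :=
          mul_le_mul_of_nonneg_left hm1 (by positivity)
      _ = 1 / (20 * θ) := by field_simp; norm_num
      _ ≤ _ := htm1
  have htm : 2 * θ * (ptm θ : ℝ) ≤ 3 / 5 := by
    have h1 : (ptm θ : ℝ) < 1 / (20 * θ) + 1 := Nat.ceil_lt_add_one (by positivity)
    have h2 : 2 * θ * (ptm θ : ℝ) ≤ 2 * θ * (1 / (20 * θ) + 1) :=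
      mul_le_mul_of_nonneg_left h1.le (by positivity)
    have h3 : 2 * θ * (1 / (20 * θ) + 1) = 1 / 10 + 2 * θ := by
      field_simp
      ring
    linarith
  exact ⟨hl, hmm, hmt, htm⟩

/-- The core estimate with the concrete parameters. -/
lemma core_params {n : ℕ} {f : (Edge n 2 → Bool) → ℝ} (hfb : IsBool f) (hf : FInv f)
    {p L θ : ℝ} (hp0 : 0 < p) (hp1 : p < 1) (hθ0 : 0 < θ) (hθ1 : θ ≤ 1 / 4) (hL : 40 < L)
    (hq : 1 - 2 * θ ≤ ((√(sg p) / 2) ^ (40 / L)) ^ 2 *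
      ((pρ θ ^ (40 / L)) ^ 2 * (θ * (1 - θ)) + (1 - θ) ^ 2))
    (hnum : ∀ t v : ℕ, 1 ≤ t → t ≤ ptm θ → t ≤ 3 * v → v ≤ 2 * t → v ≤ n →
      2 * 2 ^ t * pa_ L t ^ (-(40 / L)) *
        (1 / ((n.choose v : ℝ) * θ ^ t)) ^ (40 / L / 2) ≤ 3 / 20)
    (htiny : 5 / 2 * (2 ^ (ptm θ + 1) * (sg p ^ 2 * (4 / sg p) ^ ptm θ *
        √(Real.exp (-L / 48)) * Real.exp (L / 192)
        + ∑ t ∈ Finset.Icc 1 (ptm θ),
            (Real.exp (L / 192) / Real.exp (-L / 48)) ^ t * pa_ L t ^ 2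
        + θ * totI (fun _ => p) f / Real.exp (L / 192)))
      + sg p ^ 2 * (4 / sg p) ^ pl θ * ((n.choose 2 : ℝ) *
        (totI (fun _ => p) f / (n.choose 2 : ℝ)) ^ (3 / 2 : ℝ))
      ≤ (∑ S ∈ univ.filter (fun S : Finset (Edge n 2) => S.Nonempty), ww f p S) / 8) :
    (pm θ : ℝ) * ((∑ S ∈ univ.filter (fun S : Finset (Edge n 2) => S.Nonempty), ww f p S) / 2) ≤
      sg p ^ 2 * totI (fun _ => p) f := by
  have hθ1' : θ < 1 := by linarith
  have hLpos : 0 < L := by linarith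
  obtain ⟨hs0, hs2, hs1, hs3⟩ := pρ_facts hθ0 hθ1'
  obtain ⟨hx0, hx2, hx1, hx3⟩ := pρ_facts hp0 hp1
  have hσ0 := sg_pos hp0 hp1
  have hβ0 : 0 < 40 / L := by positivity
  have hβ1 : 40 / L < 1 := by
    rw [div_lt_one hLpos]
    exact hL
  have hinv : (pρ p ^ 2)⁻¹ = 4 / sg p := by
    rw [hx2]
    field_simp
  have hcard : (Fintype.card (Edge n 2) : ℝ) = (n.choose 2 : ℝ) := by
    rw [Fintype.card_finset_len, Fintype.card_fin]
  obtain ⟨hl, hmm, hmt, htm⟩ := levels_facts hθ0 hθ1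
  rw [← hinv, ← hcard] at htiny
  exact core (f := f) hfb hf hθ0 hθ1 hp0 hp1 hs0 hx0 hs1 hx1 hs3 hx3 hβ0 hβ1 hq
      (ptm θ) (pl θ) (pm θ) (pa_ L) (fun t => Real.exp_pos _) (τ := Real.exp (-L / 48))
      (K := Real.exp (L / 192)) (Real.exp_pos _) (Real.exp_pos _) hnum hl hmm hmt htm htiny

/-- The influence lower bound (graph case). -/
theorem infl_lower (v₀ : ℝ) (hv₀ : 0 < v₀) : ∃ L₀ : ℝ, 2 ≤ L₀ ∧ ∀ (n : ℕ) (L : ℝ), L = Real.log n → L₀ ≤ L →
    ∀ f : (Edge n 2 → Bool) → ℝ, IsBool f → FInv f → ∀ p : ℝ, 1 / L ^ 2 ≤ p →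
    p ≤ 1 - 1 / L ^ 2 →
    v₀ ≤ ∑ S ∈ univ.filter (fun S : Finset (Edge n 2) => S.Nonempty), ww f p S →
    (1 / 200000000) * L ^ 2 * (∑ S ∈ univ.filter (fun S : Finset (Edge n 2) => S.Nonempty), ww f p S)
      ≤ totI (fun _ => p) f := by
  obtain ⟨L1, hL1, hbasic⟩ := num_basic
  obtain ⟨L2, hq⟩ := num_q
  obtain ⟨L3, hcount⟩ := num_count
  obtain ⟨L4, htiny⟩ := num_tiny v₀ hv₀
  obtain ⟨L5, hm⟩ := num_m
  refine ⟨max (max (max (max L1 L2) L3) L4) (max L5 2), le_trans (le_max_right _ _) (le_max_right _ _), ?_⟩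
  intro n L hL hn f hfb hf p hp1 hp2 hVar
  have hLL1 : L1 ≤ L := by
    refine le_trans ?_ hn
    exact le_trans (le_trans (le_max_left _ _) (le_max_left _ _))
      (le_trans (le_max_left _ _) (le_max_left _ _))
  have hLL2 : L2 ≤ L := by
    refine le_trans ?_ hn
    exact le_trans (le_trans (le_max_right _ _) (le_max_left _ _))
      (le_trans (le_max_left _ _) (le_max_left _ _))
  have hLL3 : L3 ≤ L := by
    refine le_trans ?_ hn
    exact le_trans (le_trans (le_max_right _ _) (le_max_left _ _)) (le_max_left _ _)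
  have hLL4 : L4 ≤ L := by
    refine le_trans ?_ hn
    exact le_trans (le_max_right _ _) (le_max_left _ _)
  have hLL5 : L5 ≤ L := by
    refine le_trans ?_ hn
    exact le_trans (le_max_left _ _) (le_max_right _ _)
  have hL2 : 2 ≤ L := by
    refine le_trans ?_ hn
    exact le_trans (le_max_right _ _) (le_max_right _ _)
  have hL40 : 40 < L := lt_of_lt_of_le hL1 hLL1
  obtain ⟨hp0, hp1', hσL⟩ := sg_range hL2 hp1 hp2
  have hσ0 := sg_pos hp0 hp1'
  have hσ2 := sg_le_half hp0 hp1'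
  obtain ⟨hθlow, hθ1⟩ := hbasic L hLL1 (sg p) hσL hσ2
  have hLpos : 0 < L := by linarith
  have hθ0 : 0 < pθ L (sg p) := lt_of_lt_of_le (by positivity) hθlow
  have hVar0 := le_trans hv₀.le hVar
  by_cases hI : totI (fun _ => p) f ≤ L ^ 3
  · -- the main case
    have hb : Bias (fun _ : Edge n 2 => p) := fun _ => ⟨hp0, hp1'⟩
    have hI0 := totI_nonneg hb f
    have hcore := core_params hfb hf hp0 hp1' hθ0 hθ1 hL40 (hq L hLL2 (sg p) hσL hσ2)
      (hcount n L hL hLL3 (sg p) hσL hσ2)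
      (le_trans (htiny n L hL hLL4 (sg p) hσL hσ2 _ hI0 hI) (by linarith))
    have hm' := hm L hLL5 (sg p) hσL hσ2
    have hσsq : 0 < sg p ^ 2 := by positivity
    generalize (∑ S ∈ univ.filter (fun S : Finset (Edge n 2) => S.Nonempty), ww f p S) = Var at *
    have h5 : 2 * sg p ^ 2 * (1 / 200000000) * L ^ 2 * (Var / 2) ≤ sg p ^ 2 * totI (fun _ => p) f :=
      le_trans (mul_le_mul_of_nonneg_right hm' (by positivity)) hcore
    have h6 : sg p ^ 2 * ((1 / 200000000) * L ^ 2 * Var) ≤ sg p ^ 2 * totI (fun _ => p) f := by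
      refine le_trans (le_of_eq ?_) h5
      ring
    exact le_of_mul_le_mul_left h6 hσsq
  · -- huge influence
    push Not at hI
    have hVar1 := sum_ww_le_one hfb hp0 hp1'
    generalize (∑ S ∈ univ.filter (fun S : Finset (Edge n 2) => S.Nonempty), ww f p S) = Var at *
    have h1 : (1 / 200000000) * L ^ 2 * Var ≤ L ^ 3 := by
      have hL1' : 1 ≤ L := by linarith
      have h2 : L ^ 2 ≤ L ^ 3 := pow_le_pow_right₀ hL1' (by norm_num)
      have h3 : (0 : ℝ) ≤ L ^ 2 := by positivity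
      nlinarith
    linarith

/-- The invariance of the indicator of an invariant property. -/
lemma indP_inv {n r : ℕ} {P : Set (Edge n r → Bool)} (hP : IsInvariant P) : FInv (indP P) := by
  classical
  intro π x
  unfold indP
  by_cases h : x ∈ P
  · rw [if_pos h, if_pos ((hP π x).mp h)]
  · rw [if_neg h, if_neg (fun h' => h ((hP π x).mpr h'))]

/-- Width bound for large `n`. -/
theorem width_large {ε : ℝ} (hε : 0 < ε) (hε2 : ε < 1 / 2) : ∃ L₀ : ℝ, 2 ≤ L₀ ∧ ∀ n : ℕ, L₀ ≤ Real.log n →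
    ∀ P : Set (Edge n 2 → Bool), IsIncreasing P → IsInvariant P → IsNontrivial P →
    width ε P ≤ (2 + 200000000 / (ε * (1 - ε))) / Real.log n ^ 2 := by
  have hv : 0 < ε * (1 - ε) := mul_pos hε (by linarith)
  obtain ⟨L₀, hL₀, hinfl⟩ := infl_lower (ε * (1 - ε)) hv
  refine ⟨L₀, hL₀, ?_⟩
  intro n hn P hinc hinvP hnt
  obtain ⟨L, hL⟩ : ∃ L, L = Real.log n := ⟨_, rfl⟩
  rw [← hL] at hn ⊢
  have hL2 : 2 ≤ L := le_trans hL₀ hn
  have hLpos : 0 < L := by linarith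
  set c : ℝ := (1 / 200000000) * L ^ 2 * (ε * (1 - ε)) with hc
  have hcpos : 0 < c := by positivity
  set δ : ℝ := 1 / L ^ 2 with hδ
  have hδ0 : 0 ≤ δ := by positivity
  have hδ1 : δ ≤ 1 / 2 := by
    rw [hδ, div_le_div_iff₀ (by positivity) (by norm_num)]
    nlinarith
  have h := width_of_deriv (μ := fun p => mu p P) (continuous_mu P) (mono_mu hinc)
    (mu_zero hinc hnt) (mu_one hinc hnt) (ε := ε) (δ := δ) (c := c) hε hε2 hcpos hδ0 hδ1 ?_
  · unfold width pa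
    refine le_trans h (le_of_eq ?_)
    rw [hδ, hc]
    field_simp
  · intro p hp h1 h2
    have hp0 : 0 < p := lt_of_le_of_lt hδ0 hp.1
    have hp1 : p < 1 := by linarith [hp.2]
    refine ⟨_, deriv_mu hinc ⟨hp0, hp1⟩, ?_⟩
    have hfb : IsBool (indP P) := indP_isBool P
    have hfi : FInv (indP P) := indP_inv hinvP
    have hvar := var_eq (ι := Edge n 2) hfb hp0 hp1
    rw [← mu_eq_Ex] at hvar
    have h1' : ε ≤ mu p P := h1
    have h2' : mu p P ≤ 1 - ε := h2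
    have hV : ε * (1 - ε) ≤ ∑ S ∈ univ.filter (fun S : Finset (Edge n 2) => S.Nonempty), ww (indP P) p S := by
      rw [hvar]
      nlinarith
    have := hinfl n L hL hn (indP P) hfb hfi p hp.1.le hp.2.le hV
    refine le_trans ?_ this
    rw [hc]
    exact mul_le_mul_of_nonneg_left hV (by positivity)

/-- `p_a` lies in the unit interval. -/
lemma pa_mem {n r : ℕ} {P : Set (Edge n r → Bool)} (hinc : IsIncreasing P) (hnt : IsNontrivial P)
    {a : ℝ} (ha : a ≤ 1) : 0 ≤ pa a P ∧ pa a P ≤ 1 := by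
  have hmem : (1 : ℝ) ∈ {p : ℝ | p ∈ Set.Icc (0 : ℝ) 1 ∧ a ≤ mu p P} := by
    refine ⟨⟨by norm_num, le_rfl⟩, ?_⟩
    rw [mu_one hinc hnt]
    exact ha
  have hbdd : BddBelow {p : ℝ | p ∈ Set.Icc (0 : ℝ) 1 ∧ a ≤ mu p P} := ⟨0, fun p hp => hp.1.1⟩
  constructor
  · exact le_csInf ⟨1, hmem⟩ (fun p hp => hp.1.1)
  · exact csInf_le hbdd hmem

/-- The threshold width theorem for graph properties. -/
theorem width_thm {ε : ℝ} (hε : 0 < ε) (hε2 : ε < 1 / 2) : ∃ C : ℝ, ∀ n : ℕ, 2 ≤ n →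
    ∀ P : Set (Edge n 2 → Bool), IsIncreasing P → IsInvariant P → IsNontrivial P →
    width ε P ≤ C / Real.log n ^ 2 := by
  obtain ⟨L₀, hL₀, hlarge⟩ := width_large hε hε2
  refine ⟨max (2 + 200000000 / (ε * (1 - ε))) (L₀ ^ 2), ?_⟩
  intro n hn P hinc hinv hnt
  have hlog : 0 < Real.log n := Real.log_pos (by exact_mod_cast hn)
  have hlog2 : 0 < Real.log n ^ 2 := by positivity
  by_cases h : L₀ ≤ Real.log n
  · refine le_trans (hlarge n h P hinc hinv hnt) ?_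
    exact div_le_div_of_nonneg_right (le_max_left _ _) hlog2.le
  · push Not at h
    have h1 := pa_mem hinc hnt (a := 1 - ε) (by linarith)
    have h2 := pa_mem hinc hnt (a := ε) (by linarith)
    have hw : width ε P ≤ 1 := by
      unfold width
      linarith [h1.2, h2.1]
    refine le_trans hw ?_
    rw [le_div_iff₀ hlog2, one_mul]
    refine le_trans ?_ (le_max_right _ _)
    exact pow_le_pow_left₀ hlog.le h.le 2

end Vale.Agent.Lib.P063
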