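import Vale.Agent.Lib.P063.Sums

/-!
The joint cube of selector bits and value bits, and the functions `FF` whose values on alive
configurations are the Fourier coefficients of random restrictions.
-/

set_option linter.unusedVariables false
set_option linter.unusedSectionVars false
set_option linter.unusedSimpArgs false

namespace Vale.Agent.Lib.P063

open Finset

section General

variable {ι : Type*} [Fintype ι] [DecidableEq ι]

/-- `L²`-norm of the noise image of an explicit expansion with distinct characters. -/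
lemma Ex_noise_sq_expansion {b : ι → ℝ} (hb : Bias b) (r : ι → ℝ) {α : Type*} [DecidableEq α]
    (A : Finset α) (j : α → Finset ι) (hj : Set.InjOn j A) (d : α → ℝ) (G : (ι → Bool) → ℝ)
    (hG : ∀ x, G x = ∑ a ∈ A, d a * phi b (j a) x) :
    Ex b (fun x => noise b r G x ^ 2) = ∑ a ∈ A, (∏ i ∈ j a, r i) ^ 2 * d a ^ 2 := by
  have hcoef : ∀ T, coef b G T = ∑ a ∈ A, d a * (if j a = T then 1 else 0) := by
    intro T
    rw [coef_congr hG, coef_sum]
    refine Finset.sum_congr rfl fun a _ => ?_
    rw [coef_const_mul, coef_phi hb]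
  have hcoef1 : ∀ a ∈ A, coef b G (j a) = d a := by
    intro a ha
    rw [hcoef]
    rw [Finset.sum_eq_single a]
    · simp
    · intro a' ha' hne
      rw [if_neg (fun h => hne (hj ha' ha h)), mul_zero]
    · intro h
      exact absurd ha h
  have hcoef0 : ∀ T, T ∉ A.image j → coef b G T = 0 := by
    intro T hT
    rw [hcoef]
    apply Finset.sum_eq_zero
    intro a ha
    rw [if_neg, mul_zero]
    intro h
    exact hT (Finset.mem_image.mpr ⟨a, ha, h⟩)
  rw [Ex_noise_sq hb]
  rw [← Finset.sum_subset (Finset.subset_univ (A.image j))]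
  · rw [Finset.sum_image hj]
    refine Finset.sum_congr rfl fun a ha => ?_
    rw [hcoef1 a ha]
  · intro T _ hT
    rw [hcoef0 T hT]
    simp

lemma noise_one {b : ι → ℝ} (hb : Bias b) (h : (ι → Bool) → ℝ) (x : ι → Bool) :
    noise b (fun _ => 1) h x = h x := by
  unfold noise
  simp only [Finset.prod_const_one, one_mul]
  exact expansion hb h x

end General

variable {E : Type*} [Fintype E] [DecidableEq E]

/-- Biases on the joint cube: selector bits with bias `θ`, value bits with bias `p`. -/
noncomputable def jb (θ p : ℝ) : E ⊕ E → ℝ := Sum.elim (fun _ => θ) (fun _ => p)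

/-- Noise multipliers on the joint cube. -/
noncomputable def jr (ρs ρx : ℝ) : E ⊕ E → ℝ := Sum.elim (fun _ => ρs) (fun _ => ρx)

lemma jb_bias {θ p : ℝ} (hθ0 : 0 < θ) (hθ1 : θ < 1) (hp0 : 0 < p) (hp1 : p < 1) :
    Bias (jb θ p : E ⊕ E → ℝ) := by
  rintro (e | e)
  · exact ⟨hθ0, hθ1⟩
  · exact ⟨hp0, hp1⟩

/-- The factor `ψ_e`: zero when `e` is alive, otherwise the character of the value bit. -/
noncomputable def psi (p : ℝ) (e : E) (ω : E ⊕ E → Bool) : ℝ :=
  (if ω (Sum.inl e) then 0 else 1) * chi1 p (ω (Sum.inr e))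

/-- Coefficient at `U` of the restriction of `f`, as a function on the joint cube. -/
noncomputable def FF (f : (E → Bool) → ℝ) (p : ℝ) (U : Finset E) (ω : E ⊕ E → Bool) : ℝ :=
  ∑ S ∈ univ.filter (fun S => U ⊆ S), coef (fun _ => p) f S * ∏ e ∈ S \ U, psi p e ω

/-- Squared Fourier coefficients. -/
noncomputable def ww (f : (E → Bool) → ℝ) (p : ℝ) (S : Finset E) : ℝ := coef (fun _ => p) f S ^ 2

lemma ww_nonneg (f : (E → Bool) → ℝ) (p : ℝ) (S : Finset E) : 0 ≤ ww f p S := sq_nonneg _

lemma psi_expand {θ p : ℝ} (hθ0 : 0 < θ) (hθ1 : θ < 1) (e : E) (ω : E ⊕ E → Bool) :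
    psi p e ω = (-sg θ) * (chi (jb θ p) (Sum.inl e) ω * chi (jb θ p) (Sum.inr e) ω)
      + (1 - θ) * chi (jb θ p) (Sum.inr e) ω := by
  unfold psi chi jb
  simp only [Sum.elim_inl, Sum.elim_inr]
  have hs := sg_pos hθ0 hθ1
  cases h : ω (Sum.inl e)
  · simp only [chi1_false, Bool.false_eq_true, if_false]
    field_simp
    ring
  · simp only [chi1_true, if_true]
    field_simp
    ring

lemma prod_psi_expand {θ p : ℝ} (hθ0 : 0 < θ) (hθ1 : θ < 1) (W : Finset E) (ω : E ⊕ E → Bool) :
    ∏ e ∈ W, psi p e ω = ∑ B ∈ W.powerset,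
      ((-sg θ) ^ B.card * (1 - θ) ^ (W \ B).card) * phi (jb θ p) (B.disjSum W) ω := by
  simp only [psi_expand hθ0 hθ1]
  rw [Finset.prod_add]
  refine Finset.sum_congr rfl fun B hB => ?_
  have hB' := Finset.mem_powerset.mp hB
  unfold phi
  rw [Finset.prod_disjSum]
  simp only [Finset.prod_mul_distrib, Finset.prod_const]
  rw [← Finset.prod_sdiff hB']
  ring

/-- Explicit expansion of `FF` in the characters of the joint cube. -/
lemma FF_expansion {θ p : ℝ} (hθ0 : 0 < θ) (hθ1 : θ < 1) (f : (E → Bool) → ℝ) (U : Finset E)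
    (ω : E ⊕ E → Bool) :
    FF f p U ω = ∑ a ∈ (univ.filter (fun S => U ⊆ S)).sigma (fun S => (S \ U).powerset),
      (coef (fun _ => p) f a.1 * ((-sg θ) ^ a.2.card * (1 - θ) ^ ((a.1 \ U) \ a.2).card)) *
        phi (jb θ p) (a.2.disjSum (a.1 \ U)) ω := by
  unfold FF
  rw [Finset.sum_sigma]
  refine Finset.sum_congr rfl fun S _ => ?_
  rw [prod_psi_expand hθ0 hθ1, Finset.mul_sum]
  refine Finset.sum_congr rfl fun B _ => ?_
  ring

/-- The value of `FF` under the noise operator with constant multipliers on each kind of bit. -/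
theorem Ex_noise_FF {θ p : ℝ} (hθ0 : 0 < θ) (hθ1 : θ < 1) (hp0 : 0 < p) (hp1 : p < 1)
    (f : (E → Bool) → ℝ) (ρs ρx : ℝ) (U : Finset E) :
    Ex (jb θ p) (fun ω => noise (jb θ p) (jr ρs ρx) (FF f p U) ω ^ 2) =
      ∑ S ∈ univ.filter (fun S => U ⊆ S),
        (ρx ^ 2 * (ρs ^ 2 * (θ * (1 - θ)) + (1 - θ) ^ 2)) ^ (S \ U).card * ww f p S := by
  have hb : Bias (jb θ p : E ⊕ E → ℝ) := jb_bias hθ0 hθ1 hp0 hp1
  have hj : Set.InjOn (fun a : (Σ _ : Finset E, Finset E) => a.2.disjSum (a.1 \ U))
      ((univ.filter (fun S => U ⊆ S)).sigma (fun S => (S \ U).powerset) :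
        Finset (Σ _ : Finset E, Finset E)) := by
    rintro ⟨S, B⟩ hS ⟨S', B'⟩ hS' h
    simp only [Finset.coe_sigma, Set.mem_sigma_iff, Finset.mem_coe, Finset.mem_filter,
      Finset.mem_univ, true_and, Finset.mem_powerset] at hS hS'
    simp only [Finset.disjSum_inj] at h
    have e : S = S' := by
      have h1 : S = U ∪ (S \ U) := (Finset.union_sdiff_of_subset hS.1).symm
      have h2 : S' = U ∪ (S' \ U) := (Finset.union_sdiff_of_subset hS'.1).symm
      rw [h1, h2, h.2]
    subst e
    have e2 : B = B' := h.1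
    subst e2
    rfl
  rw [Ex_noise_sq_expansion hb (jr ρs ρx) _ (fun a : (Σ _ : Finset E, Finset E) =>
    a.2.disjSum (a.1 \ U)) hj _ (FF f p U) (FF_expansion hθ0 hθ1 f U)]
  rw [Finset.sum_sigma]
  refine Finset.sum_congr rfl fun S _ => ?_
  have key : ∀ B ∈ (S \ U).powerset,
      (∏ i ∈ B.disjSum (S \ U), jr ρs ρx i) ^ 2 *
        (coef (fun _ => p) f S * ((-sg θ) ^ B.card * (1 - θ) ^ ((S \ U) \ B).card)) ^ 2 =
      ww f p S * (ρx ^ 2) ^ (S \ U).card *
        ((ρs ^ 2 * (θ * (1 - θ))) ^ B.card * ((1 - θ) ^ 2) ^ ((S \ U).card - B.card)) := by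
    intro B hB
    have hB' := Finset.mem_powerset.mp hB
    rw [Finset.prod_disjSum]
    simp only [jr, Sum.elim_inl, Sum.elim_inr, Finset.prod_const]
    rw [Finset.card_sdiff_of_subset hB', ← sg_sq hθ0 hθ1]
    unfold ww
    generalize (1 - θ) = d
    generalize sg θ = s
    generalize coef (fun _ => p) f S = c
    generalize hk : B.card = k
    generalize hm : (S \ U).card = m
    have h : ((-s) ^ k) ^ 2 = (s ^ 2) ^ k := by
      rw [← pow_mul, mul_comm, pow_mul, neg_sq]
    rw [mul_pow (ρs ^ k), mul_pow c, mul_pow ((-s) ^ k), h]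
    ring
  rw [Finset.sum_congr rfl key, ← Finset.mul_sum, Finset.sum_pow_mul_eq_add_pow, mul_pow]
  ring

/-- The second moment of `FF` is the averaged weight `MM`. -/
theorem Ex_FF_sq {θ p : ℝ} (hθ0 : 0 < θ) (hθ1 : θ < 1) (hp0 : 0 < p) (hp1 : p < 1)
    (f : (E → Bool) → ℝ) (U : Finset E) :
    Ex (jb θ p) (fun ω => FF f p U ω ^ 2) = MM (ww f p) θ U := by
  have hb : Bias (jb θ p : E ⊕ E → ℝ) := jb_bias hθ0 hθ1 hp0 hp1
  have h := Ex_noise_FF hθ0 hθ1 hp0 hp1 f 1 1 U
  have hj : (jr 1 1 : E ⊕ E → ℝ) = fun _ => 1 := by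
    funext i
    cases i <;> rfl
  rw [hj] at h
  have e : (fun ω => noise (jb θ p) (fun _ => (1 : ℝ)) (FF f p U) ω ^ 2) =
      fun ω => FF f p U ω ^ 2 := by
    funext ω
    rw [noise_one hb]
  rw [e] at h
  rw [h]
  unfold MM
  refine Finset.sum_congr rfl fun S _ => ?_
  congr 2
  ring

/-- Mixing: alive coordinates read from `y`, dead coordinates from the value bits of `ω`. -/
def mix (ω : E ⊕ E → Bool) (y : E → Bool) : E → Bool :=
  fun e => if ω (Sum.inl e) then y e else ω (Sum.inr e)

/-- The restriction of `f` determined by `ω`. -/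
def gg (f : (E → Bool) → ℝ) (ω : E ⊕ E → Bool) (y : E → Bool) : ℝ := f (mix ω y)

/-- The set of alive coordinates. -/
def alive (ω : E ⊕ E → Bool) : Finset E := univ.filter (fun e => ω (Sum.inl e) = true)

lemma mem_alive {ω : E ⊕ E → Bool} {e : E} : e ∈ alive ω ↔ ω (Sum.inl e) = true := by
  simp [alive]

lemma gg_isBool {f : (E → Bool) → ℝ} (hf : IsBool f) (ω : E ⊕ E → Bool) : IsBool (gg f ω) :=
  fun y => hf _

/-- Fourier coefficients of the restriction. -/
theorem coef_gg {p : ℝ} (hp0 : 0 < p) (hp1 : p < 1) (f : (E → Bool) → ℝ) (ω : E ⊕ E → Bool)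
    (U : Finset E) :
    coef (fun _ => p) (gg f ω) U = if U ⊆ alive ω then FF f p U ω else 0 := by
  have hb : Bias (fun _ : E => p) := fun _ => ⟨hp0, hp1⟩
  set A := alive ω with hA
  -- the character at a mixed point
  have hphi : ∀ (S : Finset E) (y : E → Bool), phi (fun _ => p) S (mix ω y) =
      (∏ e ∈ S \ A, chi1 p (ω (Sum.inr e))) * phi (fun _ => p) (S ∩ A) y := by
    intro S y
    unfold phi chi
    rw [← Finset.prod_sdiff (Finset.inter_subset_left : S ∩ A ⊆ S)]
    have e1 : S \ (S ∩ A) = S \ A := by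
      ext e
      simp only [Finset.mem_sdiff, Finset.mem_inter]
      tauto
    rw [e1]
    congr 1
    · refine Finset.prod_congr rfl fun e he => ?_
      have : ω (Sum.inl e) ≠ true := fun h => (Finset.mem_sdiff.mp he).2 (mem_alive.mpr h)
      simp [mix, this]
    · refine Finset.prod_congr rfl fun e he => ?_
      have : ω (Sum.inl e) = true := mem_alive.mp (Finset.mem_inter.mp he).2
      simp [mix, this]
  -- expansion of the restriction
  have hexp : ∀ y, gg f ω y = ∑ S : Finset E, (coef (fun _ => p) f S *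
      ∏ e ∈ S \ A, chi1 p (ω (Sum.inr e))) * phi (fun _ => p) (S ∩ A) y := by
    intro y
    unfold gg
    conv_lhs => rw [← expansion hb f (mix ω y)]
    refine Finset.sum_congr rfl fun S _ => ?_
    rw [hphi]
    ring
  have hcoef : coef (fun _ => p) (gg f ω) U = ∑ S : Finset E, (coef (fun _ => p) f S *
      ∏ e ∈ S \ A, chi1 p (ω (Sum.inr e))) * (if S ∩ A = U then 1 else 0) := by
    rw [coef_congr hexp, coef_sum]
    refine Finset.sum_congr rfl fun S _ => ?_
    rw [coef_const_mul, coef_phi hb]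
  rw [hcoef]
  split_ifs with hU
  · unfold FF
    rw [Finset.sum_filter]
    refine Finset.sum_congr rfl fun S _ => ?_
    by_cases hUS : U ⊆ S
    · rw [if_pos hUS]
      by_cases hSA : S ∩ A = U
      · rw [if_pos hSA, mul_one]
        congr 1
        have e1 : S \ U = S \ A := by
          rw [← hSA]
          ext e
          simp only [Finset.mem_sdiff, Finset.mem_inter]
          tauto
        rw [e1]
        refine Finset.prod_congr rfl fun e he => ?_
        have : ω (Sum.inl e) ≠ true := fun h => (Finset.mem_sdiff.mp he).2 (mem_alive.mpr h)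
        simp [psi, this]
      · rw [if_neg hSA, mul_zero]
        -- an alive coordinate of `S` outside `U` kills the product
        have : ∃ e, e ∈ S ∩ A ∧ e ∉ U := by
          by_contra hcon
          push Not at hcon
          apply hSA
          apply Finset.Subset.antisymm
          · exact hcon
          · exact Finset.subset_inter hUS hU
        obtain ⟨e, he, heU⟩ := this
        have he' := Finset.mem_inter.mp he
        have hz : ∏ e ∈ S \ U, psi p e ω = 0 := by
          apply Finset.prod_eq_zero (Finset.mem_sdiff.mpr ⟨he'.1, heU⟩)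
          simp [psi, mem_alive.mp he'.2]
        rw [hz, mul_zero]
    · rw [if_neg hUS, if_neg, mul_zero]
      intro h
      apply hUS
      rw [← h]
      exact Finset.inter_subset_left
  · apply Finset.sum_eq_zero
    intro S _
    rw [if_neg, mul_zero]
    intro h
    apply hU
    rw [← h]
    exact Finset.inter_subset_right

/-- `FF f p U` does not depend on the selector bits at `U`. -/
lemma FF_update_inl (f : (E → Bool) → ℝ) (p : ℝ) {U : Finset E} {e : E} (he : e ∈ U)
    (ω : E ⊕ E → Bool) (v : Bool) : FF f p U (Function.update ω (Sum.inl e) v) = FF f p U ω := by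
  unfold FF
  refine Finset.sum_congr rfl fun S _ => ?_
  congr 1
  refine Finset.prod_congr rfl fun e' he' => ?_
  have hne : e' ≠ e := fun h => (Finset.mem_sdiff.mp he').2 (h ▸ he)
  unfold psi
  rw [Function.update_of_ne (by simpa using hne), Function.update_of_ne (by simp)]

/-- Independence of the selector event `U ⊆ alive` from anything not reading its selector bits. -/
lemma Ex_alive {θ p : ℝ} (U : Finset E) {Ψ : (E ⊕ E → Bool) → ℝ}
    (hΨ : ∀ e ∈ U, ∀ ω v, Ψ (Function.update ω (Sum.inl e) v) = Ψ ω) :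
    Ex (jb θ p) (fun ω => (if U ⊆ alive ω then 1 else 0) * Ψ ω) =
      θ ^ U.card * Ex (jb θ p) Ψ := by
  induction U using Finset.induction_on with
  | empty => simp
  | insert e U he ih =>
    have hΨ' : ∀ e' ∈ U, ∀ ω v, Ψ (Function.update ω (Sum.inl e') v) = Ψ ω :=
      fun e' he' => hΨ e' (Finset.mem_insert_of_mem he')
    have ih' := ih hΨ'
    set G : (E ⊕ E → Bool) → ℝ := fun ω => (if U ⊆ alive ω then 1 else 0) * Ψ ω with hG
    have hGu : ∀ y v, G (Function.update y (Sum.inl e) v) = G y := by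
      intro y v
      simp only [hG]
      rw [hΨ e (Finset.mem_insert_self e U)]
      congr 1
      have : U ⊆ alive (Function.update y (Sum.inl e) v) ↔ U ⊆ alive y := by
        constructor
        · intro h x hx
          have := mem_alive.mp (h hx)
          rw [Function.update_of_ne (by
            intro h'
            exact he (Sum.inl_injective h' ▸ hx))] at this
          exact mem_alive.mpr this
        · intro h x hx
          have := mem_alive.mp (h hx)
          apply mem_alive.mpr
          rw [Function.update_of_ne (by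
            intro h'
            exact he (Sum.inl_injective h' ▸ hx))]
          exact this
      simp only [this]
    have hI := Ex_indep (jb θ p) (Sum.inl e) hGu (fun v => if v then 1 else 0)
    have e1 : (fun ω => (if insert e U ⊆ alive ω then (1 : ℝ) else 0) * Ψ ω) =
        fun y => G y * (fun v : Bool => if v then (1 : ℝ) else 0) (y (Sum.inl e)) := by
      funext ω
      simp only [hG, Finset.insert_subset_iff, mem_alive]
      by_cases h1 : ω (Sum.inl e) = true <;> by_cases h2 : U ⊆ alive ω <;> simp [h1, h2]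
    rw [e1, hI, Finset.card_insert_of_notMem he, ih']
    simp only [jb, Sum.elim_inl, if_true, Bool.false_eq_true, if_false]
    ring

lemma Ex_alive_FF {θ p : ℝ} (f : (E → Bool) → ℝ) (U : Finset E) (Φ : ℝ → ℝ) :
    Ex (jb θ p) (fun ω => (if U ⊆ alive ω then 1 else 0) * Φ (FF f p U ω)) =
      θ ^ U.card * Ex (jb θ p) (fun ω => Φ (FF f p U ω)) :=
  Ex_alive U (fun e he ω v => by rw [FF_update_inl f p he])

/-- Expected total influence of the restriction. -/
theorem Ex_totI_gg {θ p : ℝ} (hθ0 : 0 < θ) (hθ1 : θ < 1) (hp0 : 0 < p) (hp1 : p < 1)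
    (f : (E → Bool) → ℝ) :
    Ex (jb θ p) (fun ω => totI (fun _ => p) (gg f ω)) = θ * totI (fun _ => p) f := by
  have hb : Bias (fun _ : E => p) := fun _ => ⟨hp0, hp1⟩
  have hs := sg_pos hp0 hp1
  have hs2 : sg p ^ 2 ≠ 0 := by positivity
  apply mul_left_cancel₀ hs2
  rw [← Ex_const_mul]
  have e1 : ∀ ω : E ⊕ E → Bool, sg p ^ 2 * totI (fun _ => p) (gg f ω) =
      ∑ U : Finset E, (U.card : ℝ) * ((if U ⊆ alive ω then 1 else 0) * FF f p U ω ^ 2) := by
    intro ω
    rw [← sum_card_coef hb]
    refine Finset.sum_congr rfl fun U _ => ?_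
    rw [coef_gg hp0 hp1]
    split_ifs <;> simp
  simp only [e1]
  rw [Ex_sum]
  have e2 : ∀ U : Finset E, Ex (jb θ p) (fun ω => (U.card : ℝ) *
      ((if U ⊆ alive ω then 1 else 0) * FF f p U ω ^ 2)) =
      (U.card : ℝ) * (θ ^ U.card * MM (ww f p) θ U) := by
    intro U
    rw [Ex_const_mul, Ex_alive_FF f U (fun t => t ^ 2), Ex_FF_sq hθ0 hθ1 hp0 hp1]
  simp only [e2]
  rw [sum_card_MM]
  have := sum_card_coef hb f
  unfold ww
  rw [this]
  ring

end Vale.Agent.Lib.P063
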