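import Vale.Agent.Lib.P063.Defs

/-!
Boolean derivatives, influences, the level-`t` influence bound, and the pointwise bound for small
coefficients of a Boolean function.
-/

set_option linter.unusedVariables false
set_option linter.unusedSectionVars false
set_option linter.unusedSimpArgs false

namespace Vale.Agent.Lib.P063

open Finset

variable {ι : Type*} [Fintype ι] [DecidableEq ι]

lemma D_update (k : ι) (g : (ι → Bool) → ℝ) (y : ι → Bool) (v : Bool) :
    D k g (Function.update y k v) = D k g y := by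
  unfold D
  simp [Function.update_idem]

lemma Ex_mul_chi {b : ι → ℝ} (hb : Bias b) (k : ι) (G : (ι → Bool) → ℝ) :
    Ex b (fun y => G y * chi b k y) = sg (b k) * Ex b (D k G) := by
  rw [Ex_tower b k, ← Ex_const_mul]
  refine Ex_congr fun y => ?_
  unfold D chi
  simp only [Function.update_self, chi1_true, chi1_false]
  have hs := sg_pos (hb k).1 (hb k).2
  have h2 := sg_sq (hb k).1 (hb k).2
  have h3 : b k * (1 - b k) = sg (b k) * sg (b k) := by rw [← sq, h2]
  have e1 : b k * (G (Function.update y k true) * ((1 - b k) / sg (b k))) =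
      (b k * (1 - b k)) / sg (b k) * G (Function.update y k true) := by ring
  have e2 : (1 - b k) * (G (Function.update y k false) * (-b k / sg (b k))) =
      - ((b k * (1 - b k)) / sg (b k) * G (Function.update y k false)) := by ring
  rw [e1, e2, h3, mul_div_assoc, div_self hs.ne', mul_one]
  ring

lemma coef_insert {b : ι → ℝ} (hb : Bias b) (g : (ι → Bool) → ℝ) {k : ι} {V : Finset ι}
    (hk : k ∉ V) : coef b g (insert k V) = sg (b k) * coef b (D k g) V := by
  have e1 : coef b g (insert k V) = Ex b (fun y => (g y * phi b V y) * chi b k y) := by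
    unfold coef phi
    refine Ex_congr fun y => ?_
    rw [Finset.prod_insert hk]
    ring
  rw [e1, Ex_mul_chi hb]
  congr 1
  unfold coef
  refine Ex_congr fun y => ?_
  unfold D
  beta_reduce
  rw [phi_update hk, phi_update hk]
  ring

lemma D_D (k : ι) (g : (ι → Bool) → ℝ) (y : ι → Bool) : D k (D k g) y = 0 := by
  unfold D
  simp [Function.update_idem]

lemma coef_D_mem {b : ι → ℝ} (hb : Bias b) (g : (ι → Bool) → ℝ) {k : ι} {V : Finset ι}
    (hk : k ∈ V) : coef b (D k g) V = 0 := by
  have h1 : k ∉ V.erase k := Finset.notMem_erase k V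
  have h2 : insert k (V.erase k) = V := Finset.insert_erase hk
  have := coef_insert hb (D k g) h1
  rw [h2] at this
  rw [this]
  have e : coef b (D k (D k g)) (V.erase k) = 0 := by
    unfold coef
    have : (fun x => D k (D k g) x * phi b (V.erase k) x) = fun _ => (0 : ℝ) := by
      funext x
      rw [D_D]
      ring
    rw [this, Ex_const]
  rw [e, mul_zero]

/-- Reindexing sums over the sets containing `k`. -/
lemma sum_mem_eq (Φ : Finset ι → ℝ) (k : ι) :
    ∑ U ∈ univ.filter (fun U : Finset ι => k ∈ U), Φ U =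
      ∑ V ∈ univ.filter (fun V : Finset ι => k ∉ V), Φ (insert k V) := by
  symm
  refine Finset.sum_nbij' (fun V => insert k V) (fun U => U.erase k) ?_ ?_ ?_ ?_ ?_
  · intro V hV
    simp
  · intro U hU
    simp
  · intro V hV
    have : k ∉ V := by simpa using hV
    simp [Finset.erase_insert this]
  · intro U hU
    have : k ∈ U := by simpa using hU
    simp [Finset.insert_erase this]
  · intro V hV
    rfl

lemma sum_D_sq {b : ι → ℝ} (hb : Bias b) (g : (ι → Bool) → ℝ) (k : ι) :
    infl b g k = ∑ V ∈ univ.filter (fun V : Finset ι => k ∉ V), coef b (D k g) V ^ 2 := by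
  unfold infl
  rw [Ex_sq_eq hb]
  rw [← Finset.sum_filter_add_sum_filter_not univ (fun V : Finset ι => k ∉ V)]
  have : ∑ x ∈ univ.filter (fun V : Finset ι => ¬ k ∉ V), coef b (D k g) x ^ 2 = 0 := by
    apply Finset.sum_eq_zero
    intro V hV
    have : k ∈ V := by simpa using hV
    rw [coef_D_mem hb g this]
    simp
  rw [this, add_zero]

/-- Total Fourier weight of the sets containing `k`. -/
lemma sum_coef_mem {b : ι → ℝ} (hb : Bias b) (g : (ι → Bool) → ℝ) (k : ι) :
    ∑ U ∈ univ.filter (fun U : Finset ι => k ∈ U), coef b g U ^ 2 = sg (b k) ^ 2 * infl b g k := by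
  rw [sum_mem_eq, sum_D_sq hb, Finset.mul_sum]
  refine Finset.sum_congr rfl fun V hV => ?_
  have : k ∉ V := by simpa using hV
  rw [coef_insert hb g this]
  ring

lemma infl_nonneg {b : ι → ℝ} (hb : Bias b) (g : (ι → Bool) → ℝ) (k : ι) : 0 ≤ infl b g k :=
  Ex_nonneg hb fun x => by positivity

/-- A Boolean derivative of a Boolean function is `0` or at least `1` in absolute value. -/
lemma D_abs {g : (ι → Bool) → ℝ} (hg : IsBool g) (k : ι) (x : ι → Bool) (hx : D k g x ≠ 0) :
    1 ≤ |D k g x| := by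
  unfold D at hx ⊢
  rcases hg (Function.update x k true) with h1 | h1 <;>
    rcases hg (Function.update x k false) with h2 | h2 <;> rw [h1, h2] at hx ⊢
  · exact absurd (by norm_num) hx
  · norm_num
  · norm_num
  · exact absurd (by norm_num) hx

/-- Level-`t` influence bound. -/
theorem kkl {b : ι → ℝ} (hb : Bias b) {g : (ι → Bool) → ℝ} (hg : IsBool g) {r₀ : ℝ} (hr0 : 0 < r₀)
    (hr1 : r₀ ^ 2 ≤ 1 / 4) (hr2 : ∀ i, 3 * r₀ ^ 4 ≤ sg (b i) ^ 2) (k : ι) (t : ℕ) :
    ∑ U ∈ univ.filter (fun U : Finset ι => k ∈ U ∧ U.card ≤ t), coef b g U ^ 2 ≤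
      sg (b k) ^ 2 * ((r₀ ^ 2)⁻¹) ^ t * infl b g k ^ (3 / 2 : ℝ) := by
  have hd := dual hb (r := fun _ => r₀) (fun _ => hr1) hr2 (D k g) one_pos
    (fun x hx => D_abs hg k x hx)
  rw [inv_one, one_mul, Ex_noise_sq hb] at hd
  have hr2pos : 0 < r₀ ^ 2 := by positivity
  have hrle : r₀ ^ 2 ≤ 1 := by linarith
  -- the truncated sum of derivative coefficients
  have h1 : (r₀ ^ 2) ^ t * ∑ V ∈ univ.filter (fun V : Finset ι => k ∉ V ∧ V.card ≤ t),
      coef b (D k g) V ^ 2 ≤ infl b g k ^ (3 / 2 : ℝ) := by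
    refine le_trans ?_ hd
    rw [Finset.mul_sum]
    refine le_trans (Finset.sum_le_sum (f := fun V => (r₀ ^ 2) ^ t * coef b (D k g) V ^ 2)
      (g := fun V => (∏ i ∈ V, r₀) ^ 2 * coef b (D k g) V ^ 2) ?_) ?_
    · intro V hV
      have hV' : V.card ≤ t := (Finset.mem_filter.mp hV).2.2
      apply mul_le_mul_of_nonneg_right _ (sq_nonneg _)
      rw [Finset.prod_const]
      calc (r₀ ^ 2) ^ t ≤ (r₀ ^ 2) ^ V.card := pow_le_pow_of_le_one hr2pos.le hrle hV'
        _ = (r₀ ^ V.card) ^ 2 := by rw [← pow_mul, ← pow_mul, mul_comm]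
    · apply Finset.sum_le_sum_of_subset_of_nonneg (Finset.filter_subset _ _)
      intro V _ _
      positivity
  -- comparison with the sum over sets containing `k`
  have h2 : ∑ U ∈ univ.filter (fun U : Finset ι => k ∈ U ∧ U.card ≤ t), coef b g U ^ 2 ≤
      sg (b k) ^ 2 * ∑ V ∈ univ.filter (fun V : Finset ι => k ∉ V ∧ V.card ≤ t),
        coef b (D k g) V ^ 2 := by
    rw [Finset.mul_sum]
    have e : ∑ U ∈ univ.filter (fun U : Finset ι => k ∈ U ∧ U.card ≤ t), coef b g U ^ 2 =
        ∑ U ∈ univ.filter (fun U : Finset ι => k ∈ U), if U.card ≤ t then coef b g U ^ 2 else 0 := by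
      rw [← Finset.sum_filter, Finset.filter_filter]
    rw [e, sum_mem_eq]
    have e2 : ∀ V ∈ univ.filter (fun V : Finset ι => k ∉ V),
        (if (insert k V).card ≤ t then coef b g (insert k V) ^ 2 else 0) ≤
        if V.card ≤ t then sg (b k) ^ 2 * coef b (D k g) V ^ 2 else 0 := by
      intro V hV
      have hkV : k ∉ V := by simpa using hV
      rw [Finset.card_insert_of_notMem hkV, coef_insert hb g hkV]
      split_ifs with h3 h4 h4
      · apply le_of_eq
        ring
      · omega
      · positivity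
      · exact le_rfl
    refine le_trans (Finset.sum_le_sum e2) (le_of_eq ?_)
    rw [← Finset.sum_filter, Finset.filter_filter]
  have hinv : ((r₀ ^ 2)⁻¹) ^ t * (r₀ ^ 2) ^ t = 1 := by
    rw [← mul_pow, inv_mul_cancel₀ hr2pos.ne', one_pow]
  set Sg := ∑ V ∈ univ.filter (fun V : Finset ι => k ∉ V ∧ V.card ≤ t), coef b (D k g) V ^ 2 with hSg
  have hs : 0 ≤ sg (b k) ^ 2 := by positivity
  have hR : 0 ≤ ((r₀ ^ 2)⁻¹) ^ t := by positivity
  calc _ ≤ sg (b k) ^ 2 * Sg := h2
    _ = sg (b k) ^ 2 * (((r₀ ^ 2)⁻¹) ^ t * ((r₀ ^ 2) ^ t * Sg)) := by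
        rw [← mul_assoc (((r₀ ^ 2)⁻¹) ^ t), hinv, one_mul]
    _ ≤ sg (b k) ^ 2 * (((r₀ ^ 2)⁻¹) ^ t * infl b g k ^ (3 / 2 : ℝ)) :=
        mul_le_mul_of_nonneg_left (mul_le_mul_of_nonneg_left h1 hR) hs
    _ = _ := by ring

/-- Total influence. -/
noncomputable def totI (b : ι → ℝ) (g : (ι → Bool) → ℝ) : ℝ := ∑ k, infl b g k

lemma totI_nonneg {b : ι → ℝ} (hb : Bias b) (g : (ι → Bool) → ℝ) : 0 ≤ totI b g :=
  Finset.sum_nonneg fun k _ => infl_nonneg hb g k

/-- Total influence in terms of the Fourier coefficients, for a constant bias. -/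
lemma sum_card_coef {p : ℝ} (hb : Bias (fun _ : ι => p)) (g : (ι → Bool) → ℝ) :
    ∑ U : Finset ι, (U.card : ℝ) * coef (fun _ => p) g U ^ 2 =
      sg p ^ 2 * totI (fun _ => p) g := by
  unfold totI
  rw [Finset.mul_sum]
  have : ∀ k, sg p ^ 2 * infl (fun _ => p) g k =
      ∑ U ∈ univ.filter (fun U : Finset ι => k ∈ U), coef (fun _ => p) g U ^ 2 := by
    intro k
    rw [sum_coef_mem hb]
  simp only [this]
  simp only [Finset.sum_filter]
  rw [Finset.sum_comm]
  refine Finset.sum_congr rfl fun U _ => ?_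
  rw [Finset.sum_ite_mem, Finset.univ_inter, Finset.sum_const, nsmul_eq_mul]

lemma IsBool.sq_le_one {g : (ι → Bool) → ℝ} (hg : IsBool g) (x : ι → Bool) : g x ^ 2 ≤ 1 := by
  rcases hg x with h | h <;> rw [h] <;> norm_num

lemma Ex_le_one_of_le_one {b : ι → ℝ} (hb : Bias b) {h : (ι → Bool) → ℝ} (H : ∀ x, h x ≤ 1) :
    Ex b h ≤ 1 := by
  have := Ex_mono hb (g := h) (h := fun _ => 1) H
  rwa [Ex_one] at this

/-- Pointwise bound for the small coefficients of a Boolean function. -/
theorem smallpart {p : ℝ} (hb : Bias (fun _ : ι => p)) {g : (ι → Bool) → ℝ} (hg : IsBool g) {r₀ : ℝ}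
    (hr0 : 0 < r₀) (hr1 : r₀ ^ 2 ≤ 1 / 4) (hr2 : 3 * r₀ ^ 4 ≤ sg p ^ 2) (tm : ℕ) (a : ℕ → ℝ)
    (ha : ∀ t, 0 ≤ a t) {τ K : ℝ} (hτ : 0 < τ) (hK : 0 < K) :
    ∑ U ∈ univ.filter (fun U : Finset ι => 1 ≤ U.card ∧ U.card ≤ tm),
        coef (fun _ => p) g U ^ 2 * (if |coef (fun _ => p) g U| < a U.card then 1 else 0) ≤
      sg p ^ 2 * ((r₀ ^ 2)⁻¹) ^ tm * √τ * K + ∑ t ∈ Finset.Icc 1 tm, (K / τ) ^ t * a t ^ 2
        + totI (fun _ => p) g / K := by
  classical
  set b : ι → ℝ := fun _ => p with hbdef
  set R := ((r₀ ^ 2)⁻¹) ^ tm with hR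
  have hR0 : 0 ≤ R := by positivity
  have hs0 : 0 ≤ sg p ^ 2 := by positivity
  have hI0 := totI_nonneg hb g
  have hterm0 : 0 ≤ sg p ^ 2 * R * √τ * K := by positivity
  have hsum0 : 0 ≤ ∑ t ∈ Finset.Icc 1 tm, (K / τ) ^ t * a t ^ 2 :=
    Finset.sum_nonneg fun t _ => by positivity
  have hind : ∀ U : Finset ι, 0 ≤ coef b g U ^ 2 * (if |coef b g U| < a U.card then (1 : ℝ) else 0) := by
    intro U
    split_ifs <;> positivity
  have hind2 : ∀ U : Finset ι, coef b g U ^ 2 * (if |coef b g U| < a U.card then (1 : ℝ) else 0) ≤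
      coef b g U ^ 2 := by
    intro U
    split_ifs
    · simp
    · simp only [mul_zero]
      positivity
  by_cases hIK : totI b g ≤ K
  · -- low total influence
    set J := univ.filter (fun k : ι => τ ≤ infl b g k) with hJ
    have hJcard : (J.card : ℝ) ≤ K / τ := by
      rw [le_div_iff₀ hτ]
      have : (J.card : ℝ) * τ ≤ ∑ k ∈ J, infl b g k := by
        rw [← nsmul_eq_mul]
        apply Finset.card_nsmul_le_sum
        intro k hk
        exact (Finset.mem_filter.mp hk).2
      refine le_trans this (le_trans ?_ hIK)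
      exact Finset.sum_le_sum_of_subset_of_nonneg (Finset.filter_subset _ _)
        (fun k _ _ => infl_nonneg hb g k)
    -- split according to whether `U ⊆ J`
    rw [← Finset.sum_filter_add_sum_filter_not _ (fun U : Finset ι => U ⊆ J)]
    have hpart1 : ∑ U ∈ (univ.filter (fun U : Finset ι => 1 ≤ U.card ∧ U.card ≤ tm)).filter
        (fun U => U ⊆ J), coef b g U ^ 2 * (if |coef b g U| < a U.card then 1 else 0) ≤
        ∑ t ∈ Finset.Icc 1 tm, (K / τ) ^ t * a t ^ 2 := by
      have hle : ∀ U ∈ (univ.filter (fun U : Finset ι => 1 ≤ U.card ∧ U.card ≤ tm)).filter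
          (fun U => U ⊆ J), coef b g U ^ 2 * (if |coef b g U| < a U.card then 1 else 0) ≤
          a U.card ^ 2 := by
        intro U _
        split_ifs with h
        · rw [mul_one]
          exact sq_le_sq' (by linarith [abs_lt.mp h]) (abs_lt.mp h).2.le
        · simp only [mul_zero]
          positivity
      refine le_trans (Finset.sum_le_sum hle) ?_
      have hmaps : ∀ U ∈ (univ.filter (fun U : Finset ι => 1 ≤ U.card ∧ U.card ≤ tm)).filter
          (fun U => U ⊆ J), U.card ∈ Finset.Icc 1 tm := by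
        intro U hU
        have := (Finset.mem_filter.mp (Finset.mem_filter.mp hU).1).2
        exact Finset.mem_Icc.mpr this
      rw [← Finset.sum_fiberwise_of_maps_to hmaps]
      refine Finset.sum_le_sum fun t ht => ?_
      have e : ∑ U ∈ ((univ.filter (fun U : Finset ι => 1 ≤ U.card ∧ U.card ≤ tm)).filter
          (fun U => U ⊆ J)).filter (fun U => U.card = t), a U.card ^ 2 =
          (((univ.filter (fun U : Finset ι => 1 ≤ U.card ∧ U.card ≤ tm)).filter
          (fun U => U ⊆ J)).filter (fun U => U.card = t)).card * a t ^ 2 := by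
        rw [← nsmul_eq_mul, ← Finset.sum_const]
        apply Finset.sum_congr rfl
        intro U hU
        rw [(Finset.mem_filter.mp hU).2]
      rw [e]
      apply mul_le_mul_of_nonneg_right _ (sq_nonneg _)
      have hsub : ((univ.filter (fun U : Finset ι => 1 ≤ U.card ∧ U.card ≤ tm)).filter
          (fun U => U ⊆ J)).filter (fun U => U.card = t) ⊆ J.powersetCard t := by
        intro U hU
        rw [Finset.mem_powersetCard]
        exact ⟨(Finset.mem_filter.mp (Finset.mem_filter.mp hU).1).2, (Finset.mem_filter.mp hU).2⟩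
      have hc := Finset.card_le_card hsub
      rw [Finset.card_powersetCard] at hc
      have hc2 : J.card.choose t ≤ J.card ^ t := Nat.choose_le_pow _ _
      calc _ ≤ ((J.card ^ t : ℕ) : ℝ) := by exact_mod_cast hc.trans hc2
        _ = (J.card : ℝ) ^ t := by push_cast; rfl
        _ ≤ (K / τ) ^ t := pow_le_pow_left₀ (by positivity) hJcard t
    have hpart2 : ∑ U ∈ (univ.filter (fun U : Finset ι => 1 ≤ U.card ∧ U.card ≤ tm)).filter
        (fun U => ¬ U ⊆ J), coef b g U ^ 2 * (if |coef b g U| < a U.card then 1 else 0) ≤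
        sg p ^ 2 * R * √τ * K := by
      -- each such set contains a coordinate of low influence
      have h1 : ∑ U ∈ (univ.filter (fun U : Finset ι => 1 ≤ U.card ∧ U.card ≤ tm)).filter
          (fun U => ¬ U ⊆ J), coef b g U ^ 2 * (if |coef b g U| < a U.card then 1 else 0) ≤
          ∑ k ∈ Jᶜ, ∑ U ∈ univ.filter (fun U : Finset ι => k ∈ U ∧ U.card ≤ tm), coef b g U ^ 2 := by
        have h11 : ∀ U ∈ (univ.filter (fun U : Finset ι => 1 ≤ U.card ∧ U.card ≤ tm)).filter
            (fun U => ¬ U ⊆ J), coef b g U ^ 2 * (if |coef b g U| < a U.card then 1 else 0) ≤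
            ∑ k ∈ Jᶜ, if (k ∈ U ∧ U.card ≤ tm) then coef b g U ^ 2 else 0 := by
          intro U hU
          have hU1 := Finset.mem_filter.mp hU
          have hU2 := (Finset.mem_filter.mp hU1.1).2
          obtain ⟨k, hkU, hkJ⟩ := Finset.not_subset.mp hU1.2
          have hk : k ∈ Jᶜ := Finset.mem_compl.mpr hkJ
          refine le_trans (hind2 U) ?_
          have := Finset.single_le_sum (f := fun k => if (k ∈ U ∧ U.card ≤ tm) then coef b g U ^ 2 else 0)
            (s := Jᶜ) (fun i _ => by split_ifs <;> positivity) hk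
          have hval : (if (k ∈ U ∧ U.card ≤ tm) then coef b g U ^ 2 else 0) = coef b g U ^ 2 :=
            if_pos ⟨hkU, hU2.2⟩
          calc coef b g U ^ 2 = _ := hval.symm
            _ ≤ _ := this
        refine le_trans (Finset.sum_le_sum h11) ?_
        rw [Finset.sum_comm]
        refine Finset.sum_le_sum fun k _ => ?_
        conv_rhs => rw [Finset.sum_filter]
        apply Finset.sum_le_sum_of_subset_of_nonneg (Finset.subset_univ _)
        intro U _ _
        split_ifs <;> positivity
      refine le_trans h1 ?_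
      have h2 : ∀ k ∈ Jᶜ, ∑ U ∈ univ.filter (fun U : Finset ι => k ∈ U ∧ U.card ≤ tm),
          coef b g U ^ 2 ≤ sg p ^ 2 * R * √τ * infl b g k := by
        intro k hk
        have hk' : infl b g k < τ := by
          have : k ∉ J := Finset.mem_compl.mp hk
          simpa [hJ] using this
        have hk0 := infl_nonneg hb g k
        have h3 := kkl hb hg hr0 hr1 (fun _ => hr2) k tm
        have h4 : infl b g k ^ (3 / 2 : ℝ) ≤ √τ * infl b g k := by
          have e : infl b g k ^ (3 / 2 : ℝ) = √(infl b g k) * infl b g k := by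
            rw [Real.sqrt_eq_rpow]
            rcases hk0.eq_or_lt with h0 | h0
            · rw [← h0]
              norm_num
            · rw [show (3 / 2 : ℝ) = 1 / 2 + 1 by norm_num, Real.rpow_add h0, Real.rpow_one]
          rw [e]
          exact mul_le_mul_of_nonneg_right (Real.sqrt_le_sqrt hk'.le) hk0
        refine le_trans h3 ?_
        calc sg p ^ 2 * R * infl b g k ^ (3 / 2 : ℝ) ≤ sg p ^ 2 * R * (√τ * infl b g k) :=
              mul_le_mul_of_nonneg_left h4 (by positivity)
          _ = _ := by ring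
      refine le_trans (Finset.sum_le_sum h2) ?_
      rw [← Finset.mul_sum]
      apply mul_le_mul_of_nonneg_left _ (by positivity)
      refine le_trans ?_ hIK
      exact Finset.sum_le_sum_of_subset_of_nonneg (Finset.subset_univ _)
        (fun k _ _ => infl_nonneg hb g k)
    have hIK0 : 0 ≤ totI b g / K := by positivity
    linarith
  · -- high total influence
    push Not at hIK
    have h1 : ∑ U ∈ univ.filter (fun U : Finset ι => 1 ≤ U.card ∧ U.card ≤ tm),
        coef b g U ^ 2 * (if |coef b g U| < a U.card then 1 else 0) ≤ 1 := by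
      refine le_trans (Finset.sum_le_sum fun U _ => hind2 U) ?_
      refine le_trans (Finset.sum_le_sum_of_subset_of_nonneg (Finset.subset_univ _)
        (fun U _ _ => sq_nonneg _)) ?_
      rw [← Ex_sq_eq hb]
      exact Ex_le_one_of_le_one hb hg.sq_le_one
    have h2 : 1 ≤ totI b g / K := by
      rw [le_div_iff₀ hK]
      linarith
    linarith

end Vale.Agent.Lib.P063
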