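import Vale.Agent.Lib.P063.Joint

/-!
The main inequality for an arbitrary Boolean function: the averaged weight at selection rate `2θ`
is controlled by a power of the averaged weight at rate `θ`, up to the small coefficients of random
restrictions.
-/

set_option linter.unusedVariables false
set_option linter.unusedSectionVars false
set_option linter.unusedSimpArgs false

namespace Vale.Agent.Lib.P063

open Finset

variable {E : Type*} [Fintype E] [DecidableEq E]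

lemma rp_jr (ρs ρx β : ℝ) : rp (jr ρs ρx : E ⊕ E → ℝ) β = jr (ρs ^ β) (ρx ^ β) := by
  funext i
  cases i <;> rfl

/-- Comparison of the averaged weights at two selection rates. -/
theorem M_bound {θ p q ρs ρx β a : ℝ} (hθ0 : 0 < θ) (hθ1 : θ < 1) (hp0 : 0 < p) (hp1 : p < 1)
    (hs0 : 0 < ρs) (hx0 : 0 < ρx) (hs1 : ρs ^ 2 ≤ 1 / 4) (hx1 : ρx ^ 2 ≤ 1 / 4)
    (hs2 : 3 * ρs ^ 4 ≤ sg θ ^ 2) (hx2 : 3 * ρx ^ 4 ≤ sg p ^ 2) (hβ0 : 0 < β) (hβ1 : β < 1)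
    (ha : 0 < a) (hq0 : 0 ≤ 1 - q)
    (hq : 1 - q ≤ (ρx ^ β) ^ 2 * ((ρs ^ β) ^ 2 * (θ * (1 - θ)) + (1 - θ) ^ 2))
    (f : (E → Bool) → ℝ) (U : Finset E) :
    MM (ww f p) q U ≤ 2 * a ^ (-β) * MM (ww f p) θ U ^ (1 + β / 2)
      + 2 * Ex (jb θ p) (fun ω => FF f p U ω ^ 2 * (if |FF f p U ω| < a then 1 else 0)) := by
  have hb : Bias (jb θ p : E ⊕ E → ℝ) := jb_bias hθ0 hθ1 hp0 hp1
  have hr0 : ∀ i : E ⊕ E, 0 < jr ρs ρx i := by
    rintro (e | e)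
    · exact hs0
    · exact hx0
  have hr1 : ∀ i : E ⊕ E, jr ρs ρx i ^ 2 ≤ 1 / 4 := by
    rintro (e | e)
    · exact hs1
    · exact hx1
  have hr2 : ∀ i : E ⊕ E, 3 * jr ρs ρx i ^ 4 ≤ sg (jb θ p i) ^ 2 := by
    rintro (e | e)
    · exact hs2
    · exact hx2
  have h := split_bound hb hr0 hr1 hr2 hβ0 hβ1 ha (FF f p U)
  rw [rp_jr, Ex_noise_FF hθ0 hθ1 hp0 hp1, Ex_FF_sq hθ0 hθ1 hp0 hp1] at h
  refine le_trans ?_ h
  unfold MM
  refine Finset.sum_le_sum fun S _ => ?_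
  apply mul_le_mul_of_nonneg_right _ (ww_nonneg f p S)
  exact pow_le_pow_left₀ hq0 hq _

/-- The total contribution of the small values of `FF`. -/
theorem small_sum {θ p r₀ τ K : ℝ} (hθ0 : 0 < θ) (hθ1 : θ < 1) (hp0 : 0 < p) (hp1 : p < 1)
    {f : (E → Bool) → ℝ} (hf : IsBool f) (hr0 : 0 < r₀) (hr1 : r₀ ^ 2 ≤ 1 / 4)
    (hr2 : 3 * r₀ ^ 4 ≤ sg p ^ 2) (tm : ℕ) (a : ℕ → ℝ) (ha : ∀ t, 0 ≤ a t) (hτ : 0 < τ) (hK : 0 < K) :
    ∑ U ∈ univ.filter (fun U : Finset E => 1 ≤ U.card ∧ U.card ≤ tm),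
        θ ^ U.card * Ex (jb θ p) (fun ω => FF f p U ω ^ 2 * (if |FF f p U ω| < a U.card then 1 else 0)) ≤
      sg p ^ 2 * ((r₀ ^ 2)⁻¹) ^ tm * √τ * K + ∑ t ∈ Finset.Icc 1 tm, (K / τ) ^ t * a t ^ 2
        + θ * totI (fun _ => p) f / K := by
  have hbj : Bias (jb θ p : E ⊕ E → ℝ) := jb_bias hθ0 hθ1 hp0 hp1
  have hb : Bias (fun _ : E => p) := fun _ => ⟨hp0, hp1⟩
  have e1 : ∀ U : Finset E, θ ^ U.card *
      Ex (jb θ p) (fun ω => FF f p U ω ^ 2 * (if |FF f p U ω| < a U.card then 1 else 0)) =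
      Ex (jb θ p) (fun ω => coef (fun _ => p) (gg f ω) U ^ 2 *
        (if |coef (fun _ => p) (gg f ω) U| < a U.card then 1 else 0)) := by
    intro U
    rw [← Ex_alive_FF f U (fun t => t ^ 2 * (if |t| < a U.card then 1 else 0))]
    refine Ex_congr fun ω => ?_
    rw [coef_gg hp0 hp1]
    split_ifs <;> simp_all
  simp only [e1]
  rw [← Ex_sum]
  set C := sg p ^ 2 * ((r₀ ^ 2)⁻¹) ^ tm * √τ * K + ∑ t ∈ Finset.Icc 1 tm, (K / τ) ^ t * a t ^ 2 with hC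
  have h2 : ∀ ω, ∑ U ∈ univ.filter (fun U : Finset E => 1 ≤ U.card ∧ U.card ≤ tm),
      coef (fun _ => p) (gg f ω) U ^ 2 * (if |coef (fun _ => p) (gg f ω) U| < a U.card then 1 else 0) ≤
      C + totI (fun _ => p) (gg f ω) / K :=
    fun ω => smallpart hb (gg_isBool hf ω) hr0 hr1 hr2 tm a ha hτ hK
  refine le_trans (Ex_mono hbj h2) (le_of_eq ?_)
  rw [Ex_add, Ex_const]
  have e3 : (fun ω => totI (fun _ => p) (gg f ω) / K) =
      fun ω => totI (fun _ => p) (gg f ω) * K⁻¹ := by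
    funext ω
    rw [div_eq_mul_inv]
  rw [e3, Ex_mul_const, Ex_totI_gg hθ0 hθ1 hp0 hp1, div_eq_mul_inv]

/-- The main inequality over a family of sets. -/
theorem main_sum {θ p ρs ρx β τ K : ℝ} (hθ0 : 0 < θ) (hθ1 : θ ≤ 1 / 2) (hp0 : 0 < p) (hp1 : p < 1)
    {f : (E → Bool) → ℝ} (hf : IsBool f)
    (hs0 : 0 < ρs) (hx0 : 0 < ρx) (hs1 : ρs ^ 2 ≤ 1 / 4) (hx1 : ρx ^ 2 ≤ 1 / 4)
    (hs2 : 3 * ρs ^ 4 ≤ sg θ ^ 2) (hx2 : 3 * ρx ^ 4 ≤ sg p ^ 2) (hβ0 : 0 < β) (hβ1 : β < 1)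
    (hq : 1 - 2 * θ ≤ (ρx ^ β) ^ 2 * ((ρs ^ β) ^ 2 * (θ * (1 - θ)) + (1 - θ) ^ 2))
    (tm : ℕ) (a : ℕ → ℝ) (ha : ∀ t, 0 < a t) (hτ : 0 < τ) (hK : 0 < K)
    (G : Finset (Finset E)) (hG : ∀ U ∈ G, 1 ≤ U.card ∧ U.card ≤ tm) :
    ∑ U ∈ G, (2 * θ) ^ U.card * MM (ww f p) (2 * θ) U ≤
      ∑ U ∈ G, (2 * θ) ^ U.card * (2 * a U.card ^ (-β) * MM (ww f p) θ U ^ (1 + β / 2))
      + 2 ^ (tm + 1) * (sg p ^ 2 * ((ρx ^ 2)⁻¹) ^ tm * √τ * K
        + ∑ t ∈ Finset.Icc 1 tm, (K / τ) ^ t * a t ^ 2 + θ * totI (fun _ => p) f / K) := by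
  have hθ1' : θ < 1 := by linarith
  have hbj : Bias (jb θ p : E ⊕ E → ℝ) := jb_bias hθ0 hθ1' hp0 hp1
  set Eterm : Finset E → ℝ := fun U => θ ^ U.card *
    Ex (jb θ p) (fun ω => FF f p U ω ^ 2 * (if |FF f p U ω| < a U.card then 1 else 0)) with hEterm
  have hE0 : ∀ U, 0 ≤ Eterm U := by
    intro U
    apply mul_nonneg (by positivity)
    apply Ex_nonneg hbj
    intro ω
    split_ifs <;> positivity
  have hterm : ∀ U ∈ G, (2 * θ) ^ U.card * MM (ww f p) (2 * θ) U ≤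
      (2 * θ) ^ U.card * (2 * a U.card ^ (-β) * MM (ww f p) θ U ^ (1 + β / 2))
        + 2 ^ (tm + 1) * Eterm U := by
    intro U hU
    have h1 := M_bound (f := f) (U := U) (a := a U.card) (q := 2 * θ) hθ0 hθ1' hp0 hp1 hs0 hx0 hs1
      hx1 hs2 hx2 hβ0 hβ1 (ha _) (by linarith) hq
    have h2 : (0 : ℝ) ≤ (2 * θ) ^ U.card := by positivity
    have h3 := mul_le_mul_of_nonneg_left h1 h2
    refine le_trans h3 ?_
    rw [mul_add]
    apply add_le_add le_rfl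
    have hE' : (2 * θ) ^ U.card * (2 * Ex (jb θ p) (fun ω => FF f p U ω ^ 2 *
        (if |FF f p U ω| < a U.card then 1 else 0))) = 2 ^ (U.card + 1) * Eterm U := by
      simp only [hEterm]
      rw [mul_pow, pow_succ]
      ring
    rw [hE']
    apply mul_le_mul_of_nonneg_right _ (hE0 U)
    exact pow_le_pow_right₀ (by norm_num) (by have := (hG U hU).2; omega)
  refine le_trans (Finset.sum_le_sum hterm) ?_
  rw [Finset.sum_add_distrib, ← Finset.mul_sum]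
  apply add_le_add le_rfl
  apply mul_le_mul_of_nonneg_left _ (by positivity)
  have hss := small_sum (f := f) hθ0 hθ1' hp0 hp1 hf hx0 hx1 hx2 tm a (fun t => (ha t).le) hτ hK
  refine le_trans ?_ hss
  apply Finset.sum_le_sum_of_subset_of_nonneg
  · intro U hU
    simp only [Finset.mem_filter, Finset.mem_univ, true_and]
    exact hG U hU
  · intro U _ _
    exact hE0 U

end Vale.Agent.Lib.P063
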