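import Vale.Agent.Lib.P063.NumDefs

/-! NUM1: elementary parameter facts. -/

namespace Vale.Agent.Lib.P063

/-- Eventually a fixed multiple of `log (8 L)` is at most `L`. -/
lemma eventually_mul_log_le (c : ℝ) : ∀ᶠ L : ℝ in Filter.atTop, c * Real.log (8 * L) ≤ L := by
  have h1 := Real.isLittleO_log_id_atTop
  have hcomp : Filter.Tendsto (fun L : ℝ => 8 * L) Filter.atTop Filter.atTop :=
    Filter.tendsto_id.const_mul_atTop (by norm_num)
  have h2 := h1.comp_tendsto hcomp
  have h3 := h2.def (c := 1 / (8 * (|c| + 1))) (by positivity)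
  filter_upwards [h3, Filter.eventually_ge_atTop (1 : ℝ)] with L hL hL1
  simp only [Function.comp, id, Real.norm_eq_abs] at hL
  have hL0 : 0 < L := by linarith
  have habs : |8 * L| = 8 * L := abs_of_pos (by positivity)
  rw [habs] at hL
  have hlog : 0 ≤ Real.log (8 * L) := Real.log_nonneg (by linarith)
  rw [abs_of_nonneg hlog] at hL
  have hc : 0 < |c| + 1 := by positivity
  have h4 : Real.log (8 * L) * (|c| + 1) ≤ L := by
    have : Real.log (8 * L) ≤ L / (|c| + 1) := by
      calc Real.log (8 * L) ≤ 1 / (8 * (|c| + 1)) * (8 * L) := hL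
        _ = L / (|c| + 1) := by field_simp
    rwa [le_div_iff₀ hc] at this
  calc c * Real.log (8 * L) ≤ |c| * Real.log (8 * L) :=
        mul_le_mul_of_nonneg_right (le_abs_self c) hlog
    _ ≤ Real.log (8 * L) * (|c| + 1) := by nlinarith
    _ ≤ L := h4

/-- `log 8` is at least `2`. -/
lemma two_le_log_eight : (2 : ℝ) ≤ Real.log 8 := by
  have h : Real.exp 2 ≤ 8 := by
    have h1 := Real.exp_one_lt_d9
    have h2 : Real.exp 2 = Real.exp 1 * Real.exp 1 := by
      rw [← Real.exp_add]; norm_num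
    have h3 := Real.exp_pos 1
    rw [h2]
    nlinarith
  exact (Real.le_log_iff_exp_le (by norm_num)).2 h

/-- Bounds on `log (4 / σ)`. -/
lemma log_bounds {L σ : ℝ} (hL : 0 < L) (h1 : 1 / (2 * L) ≤ σ) (h2 : σ ≤ 1 / 2) :
    2 ≤ Real.log (4 / σ) ∧ Real.log (4 / σ) ≤ Real.log (8 * L) := by
  have hσ : 0 < σ := lt_of_lt_of_le (by positivity) h1
  constructor
  · refine two_le_log_eight.trans (Real.log_le_log (by norm_num) ?_)
    rw [le_div_iff₀ hσ]; linarith
  · refine Real.log_le_log (by positivity) ?_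
    rw [div_le_iff₀ hσ]
    have : 1 ≤ 2 * L * σ := by
      rw [div_le_iff₀ (by positivity)] at h1
      linarith
    nlinarith

/-- NUM1: elementary parameter facts. -/
theorem num_basic : ∃ L₀ : ℝ, 40 < L₀ ∧ ∀ L ≥ L₀, ∀ σ : ℝ, 1 / (2 * L) ≤ σ → σ ≤ 1 / 2 →
    240 / L ≤ pθ L σ ∧ pθ L σ ≤ 1 / 4 := by
  obtain ⟨L₁, hL₁⟩ := Filter.eventually_atTop.1 (eventually_mul_log_le 480)
  refine ⟨max L₁ 41, lt_of_lt_of_le (by norm_num) (le_max_right _ _), ?_⟩
  intro L hL σ h1 h2
  have hL0 : 0 < L := by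
    have := le_max_right L₁ 41
    linarith
  have hmain := hL₁ L ((le_max_left _ _).trans hL)
  obtain ⟨hlo, hhi⟩ := log_bounds hL0 h1 h2
  unfold pθ
  constructor
  · rw [div_le_div_iff_of_pos_right hL0]
    linarith
  · rw [div_le_iff₀ hL0]
    linarith

end Vale.Agent.Lib.P063
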