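import Vale.Agent.Lib.P063.Num1

/-! NUM2: the comparison of selection rates. -/

namespace Vale.Agent.Lib.P063

/-- Eventually `(1 / L) ^ (40 / L)` is at least `1 / 2`. -/
lemma eventually_half_le : ∀ᶠ L : ℝ in Filter.atTop, (1 / 2 : ℝ) ≤ (1 / L) ^ (40 / L) := by
  have h1 := Real.isLittleO_log_id_atTop
  have h3 := h1.def (c := 1 / 80) (by positivity)
  filter_upwards [h3, Filter.eventually_ge_atTop (2 : ℝ)] with L hL hL2
  simp only [id, Real.norm_eq_abs] at hL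
  have hL0 : 0 < L := by linarith
  rw [abs_of_pos hL0] at hL
  have hlog : 0 ≤ Real.log L := Real.log_nonneg (by linarith)
  rw [abs_of_nonneg hlog] at hL
  have hrw : (1 / L) ^ (40 / L) = Real.exp (- (40 * Real.log L / L)) := by
    rw [Real.rpow_def_of_pos (by positivity), one_div, Real.log_inv]
    congr 1
    field_simp
  rw [hrw]
  have hbd : 40 * Real.log L / L ≤ 1 / 2 := by
    rw [div_le_iff₀ hL0]
    linarith
  have hexp : Real.exp (- (1 / 2)) ≤ Real.exp (- (40 * Real.log L / L)) :=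
    Real.exp_le_exp.2 (by linarith)
  refine le_trans ?_ hexp
  have h4 : (1 : ℝ) - 1 / 2 ≤ Real.exp (- (1 / 2)) := by
    have := Real.add_one_le_exp (- (1 / 2 : ℝ))
    linarith
  linarith

/-- NUM2: the comparison of selection rates. -/
theorem num_q : ∃ L₀ : ℝ, ∀ L ≥ L₀, ∀ σ : ℝ, 1 / (2 * L) ≤ σ → σ ≤ 1 / 2 →
    1 - 2 * pθ L σ ≤ ((√σ / 2) ^ (40 / L)) ^ 2 *
      ((pρ (pθ L σ) ^ (40 / L)) ^ 2 * (pθ L σ * (1 - pθ L σ)) + (1 - pθ L σ) ^ 2) := by
  obtain ⟨L₀, hL₀, hb⟩ := num_basic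
  obtain ⟨L₁, hL₁⟩ := Filter.eventually_atTop.1 eventually_half_le
  refine ⟨max L₀ L₁, ?_⟩
  intro L hL σ h1 h2
  have hLL₀ : L₀ ≤ L := (le_max_left _ _).trans hL
  have hLpos : 0 < L := by linarith
  have hσ : 0 < σ := lt_of_lt_of_le (by positivity) h1
  obtain ⟨hθlo, hθhi⟩ := hb L hLL₀ σ h1 h2
  obtain ⟨hlo, -⟩ := log_bounds hLpos h1 h2
  set θ : ℝ := pθ L σ with hθ
  have hθpos : 0 < θ := lt_of_lt_of_le (by positivity) hθlo
  set β : ℝ := 40 / L with hβ
  have hβ0 : 0 ≤ β := by positivity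
  -- first factor
  have hfirst : ((√σ / 2) ^ β) ^ 2 = Real.exp (- (θ / 3)) := by
    have hbase : (0 : ℝ) < √σ / 2 := by
      have := Real.sqrt_pos.2 hσ
      positivity
    have h3 : ((√σ / 2) ^ β) ^ 2 = (σ / 4) ^ β := by
      rw [← Real.rpow_natCast, ← Real.rpow_mul hbase.le, mul_comm, Real.rpow_mul hbase.le]
      congr 1
      rw [Real.rpow_natCast, div_pow, Real.sq_sqrt hσ.le]
      norm_num
    rw [h3, Real.rpow_def_of_pos (by positivity)]
    congr 1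
    have h4 : Real.log (σ / 4) = - Real.log (4 / σ) := by
      rw [← Real.log_inv, inv_div]
    rw [h4, hθ]
    unfold pθ
    rw [hβ]
    field_simp
    ring
  -- second factor
  have hθ34 : (3 : ℝ) / 4 ≤ 1 - θ := by linarith
  have hprod : 180 / L ≤ θ * (1 - θ) := by
    have h5 : 240 / L * (3 / 4) ≤ θ * (1 - θ) :=
      mul_le_mul hθlo hθ34 (by norm_num) hθpos.le
    calc 180 / L = 240 / L * (3 / 4) := by ring
      _ ≤ θ * (1 - θ) := h5
  have hLge1 : 1 ≤ L := by linarith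
  have hsg : 1 / L ≤ sg θ / 4 := by
    have h6 : (4 / L) ^ 2 ≤ θ * (1 - θ) := by
      refine le_trans ?_ hprod
      rw [div_pow, div_le_div_iff₀ (by positivity) hLpos]
      nlinarith
    have h7 : 4 / L ≤ sg θ := by
      unfold sg
      exact Real.le_sqrt_of_sq_le h6
    have : 1 / L = (4 / L) / 4 := by ring
    rw [this]
    linarith
  have hsecond : (1 / 2 : ℝ) ≤ (pρ θ ^ β) ^ 2 := by
    have hsg0 : 0 ≤ sg θ := Real.sqrt_nonneg _
    have hρ0 : 0 ≤ pρ θ := by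
      unfold pρ
      positivity
    have h8 : (pρ θ ^ β) ^ 2 = (sg θ / 4) ^ β := by
      rw [← Real.rpow_natCast, ← Real.rpow_mul hρ0, mul_comm, Real.rpow_mul hρ0]
      congr 1
      rw [Real.rpow_natCast]
      unfold pρ
      rw [div_pow, Real.sq_sqrt hsg0]
      norm_num
    rw [h8]
    have h9 : (1 / L) ^ β ≤ (sg θ / 4) ^ β :=
      Real.rpow_le_rpow (by positivity) hsg hβ0
    exact (hL₁ L ((le_max_right _ _).trans hL)).trans h9
  rw [hfirst]
  have hexp : 1 - θ / 3 ≤ Real.exp (- (θ / 3)) := by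
    have := Real.add_one_le_exp (- (θ / 3))
    linarith
  have hnonneg : 0 ≤ θ * (1 - θ) := by positivity
  have hB : θ * (1 - θ) / 2 + (1 - θ) ^ 2 ≤
      (pρ θ ^ β) ^ 2 * (θ * (1 - θ)) + (1 - θ) ^ 2 := by
    have := mul_le_mul_of_nonneg_right hsecond hnonneg
    linarith
  have hBpos : 0 ≤ θ * (1 - θ) / 2 + (1 - θ) ^ 2 := by positivity
  have h10 : (1 - θ / 3) * (θ * (1 - θ) / 2 + (1 - θ) ^ 2) ≤
      Real.exp (- (θ / 3)) * ((pρ θ ^ β) ^ 2 * (θ * (1 - θ)) + (1 - θ) ^ 2) :=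
    mul_le_mul hexp hB hBpos (Real.exp_pos _).le
  refine le_trans ?_ h10
  have hθ3 : 0 ≤ θ ^ 3 := by positivity
  nlinarith [sq_nonneg θ, mul_nonneg hθpos.le (sq_nonneg θ)]

end Vale.Agent.Lib.P063
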