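import Vale.Agent.Lib.P063.NumDefs

/-! NUM3: the counting estimate. -/

namespace Vale.Agent.Lib.P063

open Finset

lemma log_le_div_twenty {L : ℝ} (hL : 10000 ≤ L) : Real.log L ≤ L / 20 := by
  have hpos : 0 < L := by linarith
  have h1 : Real.log (L / 40) ≤ L / 40 - 1 := Real.log_le_sub_one_of_pos (by positivity)
  have h2 : Real.log (L / 40) = Real.log L - Real.log 40 := Real.log_div hpos.ne' (by norm_num)
  have h3 : Real.log 40 ≤ 4 := by
    rw [Real.log_le_iff_le_exp (by norm_num)]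
    have he := Real.exp_one_gt_d9
    have : Real.exp 4 = Real.exp 1 ^ 4 := by rw [← Real.exp_nat_mul]; norm_num
    rw [this]
    have h4 : (2.7:ℝ) ^ 4 ≤ Real.exp 1 ^ 4 := pow_le_pow_left₀ (by norm_num) (by linarith) 4
    norm_num at h4 ⊢
    linarith
  linarith

lemma log_two_mul_le {L : ℝ} (hL : 10000 ≤ L) : Real.log (2 * L) ≤ L / 10 := by
  have hpos : 0 < L := by linarith
  rw [Real.log_mul (by norm_num) hpos.ne']
  have := log_le_div_twenty hL
  have h2 : Real.log 2 ≤ 1 := by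
    have := Real.log_two_lt_d9; linarith
  linarith

lemma two_le_log_eight : 2 ≤ Real.log 8 := by
  have : (8:ℝ) = 2 ^ 3 := by norm_num
  rw [this, Real.log_pow]
  have := Real.log_two_gt_d9
  push_cast
  linarith

lemma two_le_exp_seven_tenths : (2:ℝ) ≤ Real.exp (7 / 10) := by
  have h := Real.sum_le_exp_of_nonneg (x := 7 / 10) (by norm_num) 4
  simp only [Finset.sum_range_succ, Finset.sum_range_zero, Nat.factorial] at h
  norm_num at h
  linarith

lemma exp_neg_bound : Real.exp (-(29 / 15)) ≤ 3 / 20 := by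
  have h := Real.sum_le_exp_of_nonneg (x := 29 / 15) (by norm_num) 6
  simp only [Finset.sum_range_succ, Finset.sum_range_zero, Nat.factorial] at h
  norm_num at h
  have hp : 0 < Real.exp (29 / 15) := Real.exp_pos _
  rw [Real.exp_neg, inv_le_comm₀ hp (by norm_num)]
  norm_num
  linarith

/-- NUM3: counting. -/
theorem num_count : ∃ L₀ : ℝ, ∀ (n : ℕ) (L : ℝ), L = Real.log n → L₀ ≤ L → ∀ σ : ℝ,
    1 / (2 * L) ≤ σ → σ ≤ 1 / 2 →
    ∀ t v : ℕ, 1 ≤ t → t ≤ ptm (pθ L σ) → t ≤ 3 * v → v ≤ 2 * t → v ≤ n →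
      2 * 2 ^ t * pa_ L t ^ (-(40 / L)) *
        (1 / ((n.choose v : ℝ) * pθ L σ ^ t)) ^ (40 / L / 2) ≤ 3 / 20 := by
  refine ⟨10000, ?_⟩
  intro n L hLn hL σ hσ1 hσ2 t v ht1 ht2 htv hvt hvn
  have hLpos : 0 < L := by linarith
  have hσpos : 0 < σ := lt_of_lt_of_le (by positivity) hσ1
  -- the parameter `D`
  set D := Real.log (4 / σ) with hD
  have hD2 : 2 ≤ D := by
    refine two_le_log_eight.trans (Real.log_le_log (by norm_num) ?_)
    rw [le_div_iff₀ hσpos]
    linarith
  set θ := pθ L σ with hθ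
  have hθeq : θ = 120 * D / L := rfl
  have hθpos : 0 < θ := by rw [hθeq]; positivity
  have hθlow : 1 / L ≤ θ := by
    rw [hθeq]
    exact div_le_div_of_nonneg_right (by linarith) hLpos.le
  -- size of `t` and `v`
  have ht3 : (t : ℝ) ≤ L / 4800 + 1 := by
    have h1 : (t : ℝ) ≤ (ptm θ : ℝ) := by exact_mod_cast ht2
    have h2 : (ptm θ : ℝ) < 1 / (20 * θ) + 1 := Nat.ceil_lt_add_one (by positivity)
    have h3 : 1 / (20 * θ) ≤ L / 4800 := by
      rw [hθeq, div_le_div_iff₀ (by positivity) (by norm_num)]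
      have : 20 * (120 * D / L) * L = 2400 * D := by field_simp; ring
      nlinarith
    linarith
  have ht0 : (1:ℝ) ≤ t := by exact_mod_cast ht1
  have hv1 : 1 ≤ v := by omega
  have hvreal : (v : ℝ) ≤ 2 * t := by exact_mod_cast hvt
  have hvL : (v : ℝ) ≤ L := by linarith
  have hv0 : (1:ℝ) ≤ v := by exact_mod_cast hv1
  -- `n = exp L`
  have hn0 : 0 < (n : ℝ) := by
    rcases Nat.eq_zero_or_pos n with h | h
    · subst h
      simp at hLn
      linarith
    · exact_mod_cast h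
  have hnexp : (n : ℝ) = Real.exp L := by rw [hLn, Real.exp_log hn0]
  have hL2 : 2 * L ≤ Real.exp L := by
    have h1 := Real.add_one_le_exp (L / 2)
    have h2 : Real.exp L = Real.exp (L / 2) ^ 2 := by
      rw [← Real.exp_nat_mul]; congr 1; push_cast; ring
    rw [h2]
    nlinarith
  -- the binomial bound
  have hchoose : Real.exp (3 * t * L / 10) ≤ (n.choose v : ℝ) := by
    have hnat : ((n + 1 - v : ℕ) : ℝ) ^ v ≤ ((v.factorial : ℕ) : ℝ) * (n.choose v : ℝ) := by
      have h := Nat.pow_le_choose (α := ℝ) v n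
      rw [div_le_iff₀ (by positivity)] at h
      linarith [mul_comm ((v.factorial : ℕ) : ℝ) (n.choose v : ℝ)]
    have hfac : ((v.factorial : ℕ) : ℝ) ≤ L ^ v := by
      have h1 : ((v.factorial : ℕ) : ℝ) ≤ (v : ℝ) ^ v := by
        exact_mod_cast Nat.factorial_le_pow v
      exact h1.trans (pow_le_pow_left₀ (by positivity) hvL v)
    have hsub : (n : ℝ) / 2 ≤ ((n + 1 - v : ℕ) : ℝ) := by
      rw [Nat.cast_sub (by omega)]
      push_cast
      rw [hnexp]
      linarith
    have hpow : ((n : ℝ) / 2) ^ v ≤ ((n + 1 - v : ℕ) : ℝ) ^ v :=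
      pow_le_pow_left₀ (by positivity) hsub v
    have hC0 : (0:ℝ) ≤ (n.choose v : ℝ) := by positivity
    have h1 : ((n : ℝ) / 2) ^ v ≤ L ^ v * (n.choose v : ℝ) :=
      hpow.trans (hnat.trans (mul_le_mul_of_nonneg_right hfac hC0))
    have h3 : Real.exp (9 * L / 10) ≤ (n : ℝ) / (2 * L) := by
      rw [le_div_iff₀ (by positivity), hnexp]
      have h4 : 2 * L = Real.exp (Real.log (2 * L)) := (Real.exp_log (by positivity)).symm
      have h5 := log_two_mul_le hL
      calc Real.exp (9 * L / 10) * (2 * L) = Real.exp (9 * L / 10 + Real.log (2 * L)) := by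
            rw [Real.exp_add, ← h4]
        _ ≤ Real.exp L := Real.exp_le_exp.2 (by linarith)
    have h6 : Real.exp (9 * L / 10) ^ v ≤ (n.choose v : ℝ) := by
      have h7 : Real.exp (9 * L / 10) ^ v ≤ ((n : ℝ) / (2 * L)) ^ v :=
        pow_le_pow_left₀ (Real.exp_pos _).le h3 v
      have h8 : ((n : ℝ) / (2 * L)) ^ v * L ^ v = ((n : ℝ) / 2) ^ v := by
        rw [← mul_pow]; congr 1; field_simp
      have hLv : 0 < L ^ v := by positivity
      have h9 : ((n : ℝ) / (2 * L)) ^ v ≤ (n.choose v : ℝ) := by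
        have : ((n : ℝ) / (2 * L)) ^ v * L ^ v ≤ (n.choose v : ℝ) * L ^ v := by
          rw [h8, mul_comm (n.choose v : ℝ)]; exact h1
        exact le_of_mul_le_mul_right this hLv
      exact h7.trans h9
    refine le_trans ?_ h6
    rw [← Real.exp_nat_mul]
    apply Real.exp_le_exp.2
    have h10 : (t : ℝ) ≤ 3 * v := by exact_mod_cast htv
    nlinarith
  -- the power of `θ`
  have hθt : Real.exp (-(t * L / 20)) ≤ θ ^ t := by
    have h1 : Real.exp (-(L / 20)) ≤ θ := by
      refine le_trans ?_ hθlow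
      rw [Real.exp_neg, one_div]
      apply inv_anti₀ hLpos
      calc L = Real.exp (Real.log L) := (Real.exp_log hLpos).symm
        _ ≤ Real.exp (L / 20) := Real.exp_le_exp.2 (log_le_div_twenty hL)
    have h2 : Real.exp (-(L / 20)) ^ t ≤ θ ^ t := pow_le_pow_left₀ (Real.exp_pos _).le h1 t
    refine le_trans (le_of_eq ?_) h2
    rw [← Real.exp_nat_mul]
    congr 1; ring
  have hprod : Real.exp (t * L / 4) ≤ (n.choose v : ℝ) * θ ^ t := by
    calc Real.exp (t * L / 4) = Real.exp (3 * t * L / 10) * Real.exp (-(t * L / 20)) := by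
          rw [← Real.exp_add]; congr 1; ring
      _ ≤ _ := mul_le_mul hchoose hθt (Real.exp_pos _).le (by positivity)
  have hprodpos : 0 < (n.choose v : ℝ) * θ ^ t := lt_of_lt_of_le (Real.exp_pos _) hprod
  have hexpo : 0 ≤ 40 / L / 2 := by positivity
  have hpart1 : (1 / ((n.choose v : ℝ) * θ ^ t)) ^ (40 / L / 2) ≤ Real.exp (-(5 * t)) := by
    have h1 : 1 / ((n.choose v : ℝ) * θ ^ t) ≤ Real.exp (-(t * L / 4)) := by
      rw [Real.exp_neg, one_div]
      exact inv_anti₀ (Real.exp_pos _) hprod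
    have h2 := Real.rpow_le_rpow (by positivity) h1 hexpo
    refine h2.trans (le_of_eq ?_)
    rw [← Real.exp_mul]
    congr 1
    field_simp
    ring
  have hpart2 : pa_ L t ^ (-(40 / L)) = Real.exp (5 * (t + 1) / 6) := by
    unfold pa_
    rw [← Real.exp_mul]
    congr 1
    field_simp
    ring
  have hpart3 : 2 * (2:ℝ) ^ t ≤ Real.exp (7 * (t + 1) / 10) := by
    have h1 : (2:ℝ) ^ (t + 1) ≤ Real.exp (7 / 10) ^ (t + 1) :=
      pow_le_pow_left₀ (by norm_num) two_le_exp_seven_tenths _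
    calc 2 * (2:ℝ) ^ t = 2 ^ (t + 1) := by ring
      _ ≤ _ := h1
      _ = _ := by
        rw [← Real.exp_nat_mul]
        congr 1; push_cast; ring
  rw [hpart2]
  calc 2 * 2 ^ t * Real.exp (5 * (t + 1) / 6) * (1 / ((n.choose v : ℝ) * θ ^ t)) ^ (40 / L / 2)
      ≤ Real.exp (7 * (t + 1) / 10) * Real.exp (5 * (t + 1) / 6) * Real.exp (-(5 * t)) := by
        gcongr
    _ = Real.exp (7 * (t + 1) / 10 + 5 * (t + 1) / 6 + -(5 * t)) := by
        rw [Real.exp_add, Real.exp_add]
    _ ≤ Real.exp (-(29 / 15)) := by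
        apply Real.exp_le_exp.2
        linarith
    _ ≤ 3 / 20 := exp_neg_bound

end Vale.Agent.Lib.P063
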