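import Vale.Agent.Lib.P063.NumDefs

/-! The small terms of the final estimate: NUM4. -/

namespace Vale.Agent.Lib.P063

open Finset

private lemma aux_D {L σ : ℝ} (hL1 : 1 ≤ L) (hσ1 : 1 / (2 * L) ≤ σ) (hσ2 : σ ≤ 1 / 2) :
    0 < σ ∧ 3 * Real.log 2 ≤ Real.log (4 / σ) ∧ 1 ≤ Real.log (4 / σ) ∧ Real.log (4 / σ) ≤ 8 * L := by
  have hLpos : 0 < L := by linarith
  have hσ0 : 0 < σ := lt_of_lt_of_le (by positivity) hσ1
  have h4a : 8 ≤ 4 / σ := by
    rw [le_div_iff₀ hσ0]; linarith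
  have h4b : 4 / σ ≤ 8 * L := by
    rw [div_le_iff₀ hσ0]
    have : 1 / (2 * L) * (8 * L) = 4 := by field_simp; norm_num
    calc (4 : ℝ) = 1 / (2 * L) * (8 * L) := this.symm
      _ ≤ σ * (8 * L) := mul_le_mul_of_nonneg_right hσ1 (by positivity)
      _ = 8 * L * σ := by ring
  have hlog : 3 * Real.log 2 ≤ Real.log (4 / σ) := by
    have h8 : Real.log 8 = 3 * Real.log 2 := by
      rw [show (8 : ℝ) = 2 ^ 3 by norm_num, Real.log_pow]; norm_num
    rw [← h8]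
    exact Real.log_le_log (by norm_num) h4a
  refine ⟨hσ0, hlog, ?_, ?_⟩
  · have := Real.log_two_gt_d9
    linarith
  · have := Real.log_le_sub_one_of_pos (show 0 < 4 / σ by positivity)
    linarith

private lemma aux_tm {L D θ : ℝ} (hLpos : 0 < L) (hDlow : 3 * Real.log 2 ≤ D) (hD1 : 1 ≤ D)
    (hθeq : θ = 120 * D / L) :
    ((ptm θ : ℕ) : ℝ) * D ≤ L / 2400 + D ∧ ((ptm θ : ℕ) : ℝ) ≤ L + 1 ∧
      (2 : ℝ) ^ (ptm θ + 1) ≤ 4 * Real.exp (L / 7200) := by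
  have hDpos : 0 < D := by linarith
  have hθpos : 0 < θ := by rw [hθeq]; positivity
  have hlog2 : 0 < Real.log 2 := Real.log_pos (by norm_num)
  have htmlt : ((ptm θ : ℕ) : ℝ) < 1 / (20 * θ) + 1 := Nat.ceil_lt_add_one (by positivity)
  have hq1 : 1 / (20 * θ) * D = L / 2400 := by
    rw [hθeq]; field_simp; norm_num
  refine ⟨?_, ?_, ?_⟩
  · have := mul_le_mul_of_nonneg_right htmlt.le hDpos.le
    rw [add_mul, hq1, one_mul] at this
    exact this
  · have h1 : 1 / (20 * θ) ≤ L := by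
      have h2 : 1 / (20 * θ) * 1 ≤ 1 / (20 * θ) * D :=
        mul_le_mul_of_nonneg_left hD1 (by positivity)
      rw [hq1, mul_one] at h2
      linarith
    linarith
  · have he2 : Real.exp (Real.log 2) = 2 := Real.exp_log (by norm_num)
    have h1 : ((ptm θ + 1 : ℕ) : ℝ) * Real.log 2 ≤ L / 7200 + 2 * Real.log 2 := by
      have h3 : 1 / (20 * θ) * Real.log 2 ≤ L / 7200 := by
        have h4 : 1 / (20 * θ) * (3 * Real.log 2) ≤ 1 / (20 * θ) * D :=
          mul_le_mul_of_nonneg_left hDlow (by positivity)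
        rw [hq1] at h4
        linarith
      have h5 := mul_le_mul_of_nonneg_right htmlt.le hlog2.le
      rw [add_mul, one_mul] at h5
      push_cast
      linarith
    calc (2 : ℝ) ^ (ptm θ + 1) = Real.exp (((ptm θ + 1 : ℕ) : ℝ) * Real.log 2) := by
          rw [Real.exp_nat_mul, he2]
      _ ≤ Real.exp (L / 7200 + 2 * Real.log 2) := Real.exp_le_exp.2 h1
      _ = 4 * Real.exp (L / 7200) := by
          rw [Real.exp_add, show 2 * Real.log 2 = ((2 : ℕ) : ℝ) * Real.log 2 by norm_num,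
            Real.exp_nat_mul, he2]
          ring

private lemma aux_l {L D θ : ℝ} (hLpos : 0 < L) (hD1 : 1 ≤ D) (hθeq : θ = 120 * D / L) :
    ((pl θ : ℕ) : ℝ) * D ≤ L / 240 + D := by
  have hDpos : 0 < D := by linarith
  have hθpos : 0 < θ := by rw [hθeq]; positivity
  have hllt : ((pl θ : ℕ) : ℝ) < 1 / (2 * θ) + 1 := Nat.ceil_lt_add_one (by positivity)
  have hq2 : 1 / (2 * θ) * D = L / 240 := by
    rw [hθeq]; field_simp; norm_num
  have := mul_le_mul_of_nonneg_right hllt.le hDpos.le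
  rw [add_mul, hq2, one_mul] at this
  exact this

private lemma aux_pow {σ : ℝ} (hσ0 : 0 < σ) (hσ2 : σ ≤ 1 / 2) (k : ℕ) (c : ℝ)
    (hk : (k : ℝ) * Real.log (4 / σ) ≤ c + Real.log (4 / σ)) :
    σ ^ 2 * (4 / σ) ^ k ≤ 2 * Real.exp c := by
  have hexpD : Real.exp (Real.log (4 / σ)) = 4 / σ := Real.exp_log (by positivity)
  have h1 : (4 / σ) ^ k = Real.exp ((k : ℝ) * Real.log (4 / σ)) := by
    rw [Real.exp_nat_mul, hexpD]
  have h2 : Real.exp ((k : ℝ) * Real.log (4 / σ)) ≤ Real.exp c * (4 / σ) := by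
    have h3 : Real.exp c * (4 / σ) = Real.exp (c + Real.log (4 / σ)) := by
      rw [Real.exp_add, hexpD]
    rw [h3]
    exact Real.exp_le_exp.2 hk
  have h3 : σ ^ 2 * (Real.exp c * (4 / σ)) = 4 * σ * Real.exp c := by
    field_simp
  rw [h1]
  calc σ ^ 2 * Real.exp ((k : ℝ) * Real.log (4 / σ)) ≤ σ ^ 2 * (Real.exp c * (4 / σ)) :=
        mul_le_mul_of_nonneg_left h2 (by positivity)
    _ = 4 * σ * Real.exp c := h3
    _ ≤ 2 * Real.exp c := by
        apply mul_le_mul_of_nonneg_right _ (Real.exp_pos c).le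
        linarith

private lemma aux_A {L X : ℝ} (hLpos : 0 < L) (hX : X ≤ 2 * Real.exp (L / 2400)) :
    Real.exp (L / 7200) * (X * √(Real.exp (-L / 48)) * Real.exp (L / 192)) ≤
      2 * Real.exp (-L / 250) := by
  have hsqrt : √(Real.exp (-L / 48)) = Real.exp (-L / 96) := by
    rw [show -L / 48 = -L / 96 + -L / 96 by ring, Real.exp_add,
      Real.sqrt_mul_self (Real.exp_pos _).le]
  rw [hsqrt]
  have h2 : Real.exp (L / 7200) * (2 * Real.exp (L / 2400) * Real.exp (-L / 96) * Real.exp (L / 192))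
      ≤ 2 * Real.exp (-L / 250) := by
    have : Real.exp (L / 7200) * (2 * Real.exp (L / 2400) * Real.exp (-L / 96) * Real.exp (L / 192))
        = 2 * Real.exp (L / 7200 + L / 2400 + -L / 96 + L / 192) := by
      rw [Real.exp_add, Real.exp_add, Real.exp_add]; ring
    rw [this]
    apply mul_le_mul_of_nonneg_left _ (by norm_num)
    apply Real.exp_le_exp.2
    linarith
  refine le_trans ?_ h2
  apply mul_le_mul_of_nonneg_left _ (Real.exp_pos _).le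
  apply mul_le_mul_of_nonneg_right _ (Real.exp_pos _).le
  exact mul_le_mul_of_nonneg_right hX (Real.exp_pos _).le

private lemma aux_B {L : ℝ} (hLpos : 0 < L) (tm : ℕ) (htmL : (tm : ℝ) ≤ L + 1) :
    Real.exp (L / 7200) * ∑ t ∈ Finset.Icc 1 tm,
      (Real.exp (L / 192) / Real.exp (-L / 48)) ^ t * pa_ L t ^ 2 ≤ (L + 1) * Real.exp (-L / 250) := by
  have h1 : ∀ t ∈ Finset.Icc 1 tm, (Real.exp (L / 192) / Real.exp (-L / 48)) ^ t * pa_ L t ^ 2
      ≤ Real.exp (-(11 * L / 192)) := by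
    intro t ht
    have ht1 : (1 : ℝ) ≤ t := by
      have := (Finset.mem_Icc.1 ht).1
      exact_mod_cast this
    unfold pa_
    rw [← Real.exp_sub, ← Real.exp_nat_mul, ← Real.exp_nat_mul, ← Real.exp_add]
    apply Real.exp_le_exp.2
    push_cast
    have : (t : ℝ) * (L / 192 - -L / 48) + 2 * (-((t : ℝ) + 1) * L / 48) =
        -((3 * (t : ℝ) + 8) * L / 192) := by ring
    rw [this]
    have h3 : (3 + 8) * L ≤ (3 * (t : ℝ) + 8) * L := by
      apply mul_le_mul_of_nonneg_right _ hLpos.le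
      linarith
    linarith
  have h2 : ∑ t ∈ Finset.Icc 1 tm, (Real.exp (L / 192) / Real.exp (-L / 48)) ^ t * pa_ L t ^ 2
      ≤ (L + 1) * Real.exp (-(11 * L / 192)) := by
    refine (Finset.sum_le_card_nsmul _ _ _ h1).trans ?_
    rw [nsmul_eq_mul, Nat.card_Icc]
    simp only [add_tsub_cancel_right]
    exact mul_le_mul_of_nonneg_right htmL (Real.exp_pos _).le
  calc Real.exp (L / 7200) * ∑ t ∈ Finset.Icc 1 tm,
        (Real.exp (L / 192) / Real.exp (-L / 48)) ^ t * pa_ L t ^ 2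
      ≤ Real.exp (L / 7200) * ((L + 1) * Real.exp (-(11 * L / 192))) :=
        mul_le_mul_of_nonneg_left h2 (Real.exp_pos _).le
    _ = (L + 1) * Real.exp (L / 7200 + -(11 * L / 192)) := by
        rw [Real.exp_add]; ring
    _ ≤ (L + 1) * Real.exp (-L / 250) := by
        apply mul_le_mul_of_nonneg_left _ (by linarith)
        apply Real.exp_le_exp.2
        linarith

private lemma aux_C {L θ I : ℝ} (hLpos : 0 < L) (hθ0 : 0 ≤ θ) (hθup : θ ≤ 960) (hI0 : 0 ≤ I)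
    (hI1 : I ≤ L ^ 3) :
    Real.exp (L / 7200) * (θ * I / Real.exp (L / 192)) ≤ 960 * L ^ 3 * Real.exp (-L / 250) := by
  have h1 : θ * I ≤ 960 * L ^ 3 := mul_le_mul hθup hI1 hI0 (by norm_num)
  have h2 : Real.exp (L / 7200) * (θ * I / Real.exp (L / 192)) =
      θ * I * Real.exp (L / 7200 - L / 192) := by
    rw [Real.exp_sub]; field_simp
  rw [h2]
  have h3 : Real.exp (L / 7200 - L / 192) ≤ Real.exp (-L / 250) := by
    apply Real.exp_le_exp.2
    linarith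
  exact mul_le_mul h1 h3 (Real.exp_pos _).le (by positivity)

private lemma aux_big {L P A B C W : ℝ} (hP : P ≤ 4 * Real.exp (L / 7200)) (hA0 : 0 ≤ A) (hB0 : 0 ≤ B)
    (hC0 : 0 ≤ C) (hA : Real.exp (L / 7200) * A ≤ 2 * W) (hB : Real.exp (L / 7200) * B ≤ (L + 1) * W)
    (hC : Real.exp (L / 7200) * C ≤ 960 * L ^ 3 * W) :
    P * (A + B + C) ≤ 4 * ((2 + (L + 1) + 960 * L ^ 3) * W) := by
  have hnn : 0 ≤ A + B + C := by linarith
  calc P * (A + B + C) ≤ (4 * Real.exp (L / 7200)) * (A + B + C) :=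
        mul_le_mul_of_nonneg_right hP hnn
    _ = 4 * (Real.exp (L / 7200) * A + Real.exp (L / 7200) * B + Real.exp (L / 7200) * C) := by ring
    _ ≤ 4 * (2 * W + (L + 1) * W + 960 * L ^ 3 * W) := by
        apply mul_le_mul_of_nonneg_left _ (by norm_num)
        linarith
    _ = 4 * ((2 + (L + 1) + 960 * L ^ 3) * W) := by ring

private lemma aux_Cr {L I : ℝ} {n : ℕ} (hL1 : 1 ≤ L) (hn2 : 2 ≤ n) (hnexp : Real.exp L = n)
    (hI0 : 0 ≤ I) (hI1 : I ≤ L ^ 3) :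
    (n.choose 2 : ℝ) * (I / (n.choose 2 : ℝ)) ^ (3 / 2 : ℝ) ≤ 2 * L ^ 5 * Real.exp (-L) := by
  have hLpos : 0 < L := by linarith
  have hnpos : (0 : ℝ) < n := by
    have : 0 < n := by omega
    exact_mod_cast this
  set Cn : ℝ := (n.choose 2 : ℝ) with hCn
  have hCnval : Cn = (n : ℝ) * (n - 1) / 2 := Nat.cast_choose_two ℝ n
  have hn2' : (2 : ℝ) ≤ n := by exact_mod_cast hn2
  have hCnlow : (n : ℝ) ^ 2 / 4 ≤ Cn := by
    rw [hCnval]; nlinarith
  have hCnpos : 0 < Cn := lt_of_lt_of_le (by positivity) hCnlow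
  set r : ℝ := I / Cn with hr
  have hr0 : 0 ≤ r := by positivity
  have hrpow : r ^ (3 / 2 : ℝ) = r * √r := by
    rcases eq_or_lt_of_le hr0 with h | h
    · rw [← h]; simp
    · rw [Real.sqrt_eq_rpow, show (3 / 2 : ℝ) = 1 + 1 / 2 by norm_num, Real.rpow_add h, Real.rpow_one]
  have hrup : r ≤ (2 * L ^ 2 / n) ^ 2 := by
    have h1 : r ≤ L ^ 3 / ((n : ℝ) ^ 2 / 4) := by
      rw [hr]
      exact div_le_div₀ (by positivity) hI1 (by positivity) hCnlow
    refine h1.trans ?_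
    have h2 : L ^ 3 / ((n : ℝ) ^ 2 / 4) = 4 * L ^ 3 / (n : ℝ) ^ 2 := by
      field_simp
    have h3 : (2 * L ^ 2 / (n : ℝ)) ^ 2 = 4 * L ^ 4 / (n : ℝ) ^ 2 := by
      field_simp; ring
    rw [h2, h3]
    apply div_le_div_of_nonneg_right _ (by positivity)
    have h4 : L ^ 3 * 1 ≤ L ^ 3 * L := mul_le_mul_of_nonneg_left hL1 (by positivity)
    have h5 : L ^ 4 = L ^ 3 * L := by ring
    rw [h5]
    linarith
  have hsq : √r ≤ 2 * L ^ 2 / n := Real.sqrt_le_iff.2 ⟨by positivity, hrup⟩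
  rw [hrpow]
  have h1 : Cn * (r * √r) = I * √r := by
    rw [hr]; field_simp
  rw [h1]
  have h2 : I * √r ≤ L ^ 3 * (2 * L ^ 2 / n) :=
    mul_le_mul hI1 hsq (Real.sqrt_nonneg _) (by positivity)
  refine h2.trans (le_of_eq ?_)
  rw [Real.exp_neg, hnexp]
  field_simp

private lemma aux_E {L X Y : ℝ} (hLpos : 0 < L) (hX : X ≤ 2 * Real.exp (L / 240)) (hY0 : 0 ≤ Y)
    (hY : Y ≤ 2 * L ^ 5 * Real.exp (-L)) : X * Y ≤ 4 * L ^ 5 * Real.exp (-L / 250) := by
  calc X * Y ≤ (2 * Real.exp (L / 240)) * (2 * L ^ 5 * Real.exp (-L)) :=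
        mul_le_mul hX hY hY0 (by positivity)
    _ = 4 * L ^ 5 * Real.exp (L / 240 + -L) := by
        rw [Real.exp_add]; ring
    _ ≤ 4 * L ^ 5 * Real.exp (-L / 250) := by
        apply mul_le_mul_of_nonneg_left _ (by positivity)
        apply Real.exp_le_exp.2
        linarith

private lemma aux_fin {L W : ℝ} (hL1 : 1 ≤ L) (hW : 0 ≤ W) :
    5 / 2 * (4 * ((2 + (L + 1) + 960 * L ^ 3) * W)) + 4 * L ^ 5 * W ≤ 10000 * L ^ 5 * W := by
  have hL3 : L ^ 3 ≤ L ^ 5 := pow_le_pow_right₀ hL1 (by norm_num)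
  have hL0 : 1 ≤ L ^ 3 := one_le_pow₀ hL1
  have hLL3 : L ≤ L ^ 3 := by
    calc L = L ^ 1 := (pow_one L).symm
      _ ≤ L ^ 3 := pow_le_pow_right₀ hL1 (by norm_num)
  have : 5 / 2 * (4 * ((2 + (L + 1) + 960 * L ^ 3) * W)) + 4 * L ^ 5 * W =
      (10 * (2 + (L + 1) + 960 * L ^ 3) + 4 * L ^ 5) * W := by ring
  rw [this]
  apply mul_le_mul_of_nonneg_right _ hW
  linarith

private lemma aux_L0 {v₀ : ℝ} (hv₀ : 0 < v₀) :
    ∃ L₀ : ℝ, 1 ≤ L₀ ∧ ∀ L ≥ L₀, 10000 * L ^ 5 * Real.exp (-L / 250) ≤ v₀ / 8 := by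
  have hlim := Real.tendsto_pow_mul_exp_neg_atTop_nhds_zero 5
  set ε : ℝ := v₀ / (8 * 10000 * 250 ^ 5) with hε
  have hεpos : 0 < ε := by positivity
  have hev := hlim.eventually (gt_mem_nhds hεpos)
  obtain ⟨x₀, hx₀⟩ := Filter.eventually_atTop.1 hev
  refine ⟨max (250 * x₀) 1, le_max_right _ _, ?_⟩
  intro L hL
  have hLx : x₀ ≤ L / 250 := by
    have := (le_max_left (250 * x₀) 1).trans hL
    linarith
  have h := hx₀ (L / 250) hLx
  have he : (L / 250) ^ 5 * Real.exp (-(L / 250)) = L ^ 5 * Real.exp (-L / 250) / 250 ^ 5 := by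
    rw [show -(L / 250) = -L / 250 by ring]
    ring
  rw [he, div_lt_iff₀ (by positivity), hε] at h
  have h2 : L ^ 5 * Real.exp (-L / 250) < v₀ / (8 * 10000) := by
    have : v₀ / (8 * 10000 * 250 ^ 5) * 250 ^ 5 = v₀ / (8 * 10000) := by
      field_simp
    linarith
  rw [lt_div_iff₀ (by positivity)] at h2
  linarith

private lemma aux_n {n : ℕ} {L : ℝ} (hL : L = Real.log n) (hL1 : 1 ≤ L) :
    2 ≤ n ∧ Real.exp L = n := by
  have hn2 : 2 ≤ n := by
    by_contra hc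
    have hn : n ≤ 1 := by omega
    have hlog : Real.log n = 0 := by
      interval_cases n <;> simp
    rw [hlog] at hL
    linarith
  refine ⟨hn2, ?_⟩
  have hnpos : (0 : ℝ) < n := by
    have : 0 < n := by omega
    exact_mod_cast this
  rw [hL, Real.exp_log hnpos]

/-- NUM4: the small terms. -/
theorem num_tiny (v₀ : ℝ) (hv₀ : 0 < v₀) : ∃ L₀ : ℝ, ∀ (n : ℕ) (L : ℝ), L = Real.log n → L₀ ≤ L → ∀ σ : ℝ,
    1 / (2 * L) ≤ σ → σ ≤ 1 / 2 → ∀ I : ℝ, 0 ≤ I → I ≤ L ^ 3 →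
    5 / 2 * (2 ^ (ptm (pθ L σ) + 1) * (σ ^ 2 * (4 / σ) ^ ptm (pθ L σ) *
        √(Real.exp (-L / 48)) * Real.exp (L / 192)
        + ∑ t ∈ Finset.Icc 1 (ptm (pθ L σ)),
            (Real.exp (L / 192) / Real.exp (-L / 48)) ^ t * pa_ L t ^ 2
        + pθ L σ * I / Real.exp (L / 192)))
      + σ ^ 2 * (4 / σ) ^ pl (pθ L σ) * ((n.choose 2 : ℝ) * (I / (n.choose 2 : ℝ)) ^ (3 / 2 : ℝ))
      ≤ v₀ / 8 := by
  obtain ⟨L₀, hL₀1, hL₀⟩ := aux_L0 hv₀
  refine ⟨L₀, ?_⟩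
  intro n L hL hLbig σ hσ1 hσ2 I hI0 hI1
  have hL1 : 1 ≤ L := hL₀1.trans hLbig
  have hLpos : 0 < L := by linarith
  obtain ⟨hn2, hnexp⟩ := aux_n hL hL1
  obtain ⟨hσ0, hDlow, hD1, hDup⟩ := aux_D hL1 hσ1 hσ2
  have hθeq : pθ L σ = 120 * Real.log (4 / σ) / L := rfl
  have hθ0 : 0 ≤ pθ L σ := by rw [hθeq]; positivity
  have hθup : pθ L σ ≤ 960 := by
    rw [hθeq, div_le_iff₀ hLpos]; linarith
  obtain ⟨htmD, htmL, h2pow⟩ := aux_tm hLpos hDlow hD1 hθeq
  have hlD := aux_l hLpos hD1 hθeq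
  have hpow1 := aux_pow hσ0 hσ2 (ptm (pθ L σ)) (L / 2400) htmD
  have hpow2 := aux_pow hσ0 hσ2 (pl (pθ L σ)) (L / 240) hlD
  have hA := aux_A hLpos hpow1
  have hB := aux_B hLpos (ptm (pθ L σ)) htmL
  have hC := aux_C hLpos hθ0 hθup hI0 hI1
  have hA0 : 0 ≤ σ ^ 2 * (4 / σ) ^ ptm (pθ L σ) * √(Real.exp (-L / 48)) * Real.exp (L / 192) := by
    positivity
  have hB0 : 0 ≤ ∑ t ∈ Finset.Icc 1 (ptm (pθ L σ)),
      (Real.exp (L / 192) / Real.exp (-L / 48)) ^ t * pa_ L t ^ 2 :=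
    Finset.sum_nonneg fun t _ => by positivity
  have hC0 : 0 ≤ pθ L σ * I / Real.exp (L / 192) := by positivity
  have hbig := aux_big h2pow hA0 hB0 hC0 hA hB hC
  have hCr := aux_Cr hL1 hn2 hnexp hI0 hI1
  have hY0 : 0 ≤ (n.choose 2 : ℝ) * (I / (n.choose 2 : ℝ)) ^ (3 / 2 : ℝ) := by positivity
  have hE := aux_E hLpos hpow2 hY0 hCr
  have hfin := aux_fin hL1 (Real.exp_pos (-L / 250)).le
  have hkey := hL₀ L hLbig
  have hstep := mul_le_mul_of_nonneg_left hbig (by norm_num : (0 : ℝ) ≤ 5 / 2)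
  linarith

end Vale.Agent.Lib.P063
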