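import Vale.Agent.Lib.P063.Num1

/-! NUM5: the level cap is large. -/

namespace Vale.Agent.Lib.P063

/-- A crude bound for `σ log (4 / σ)`. -/
lemma sigma_log_sq_le {σ : ℝ} (h0 : 0 < σ) (h1 : σ ≤ 1 / 2) : (σ * Real.log (4 / σ)) ^ 2 ≤ 8 := by
  set y : ℝ := 4 / σ with hy
  have hy0 : 0 < y := by positivity
  have hy8 : 8 ≤ y := by
    rw [hy, le_div_iff₀ h0]; linarith
  set s : ℝ := √y with hs
  have hs0 : 0 < s := Real.sqrt_pos.2 hy0
  have hss : s ^ 2 = y := Real.sq_sqrt hy0.le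
  have hlog : Real.log y = 2 * Real.log s := by
    rw [← hss, Real.log_pow]; norm_num
  have hlog1 : Real.log s ≤ s - 1 := Real.log_le_sub_one_of_pos hs0
  have hσ : σ = 4 / s ^ 2 := by rw [hss, hy]; field_simp
  have hprod : σ * Real.log y ≤ 4 / s ^ 2 * (2 * (s - 1)) := by
    rw [hσ, hlog]
    have : 0 < 4 / s ^ 2 := by positivity
    apply mul_le_mul_of_nonneg_left _ this.le
    linarith
  have hub : 4 / s ^ 2 * (2 * (s - 1)) ≤ 2 := by
    rw [div_mul_eq_mul_div, div_le_iff₀ (by positivity)]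
    nlinarith [sq_nonneg (s - 2)]
  have hup : σ * Real.log y ≤ 2 := hprod.trans hub
  have hnn : 0 ≤ Real.log y := Real.log_nonneg (by linarith)
  have h2 : 0 ≤ σ * Real.log y := mul_nonneg h0.le hnn
  nlinarith

/-- NUM5: the level cap is large. -/
theorem num_m : ∃ L₀ : ℝ, ∀ L ≥ L₀, ∀ σ : ℝ, 1 / (2 * L) ≤ σ → σ ≤ 1 / 2 →
    2 * σ ^ 2 * (1 / 200000000) * L ^ 2 ≤ (pm (pθ L σ) : ℝ) := by
  obtain ⟨L₁, hL₁⟩ := Filter.eventually_atTop.1 (eventually_mul_log_le 2400)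
  refine ⟨max L₁ 1, ?_⟩
  intro L hL σ h1 h2
  have hLpos : 0 < L := by
    have := le_max_right L₁ 1
    linarith
  have hσ : 0 < σ := lt_of_lt_of_le (by positivity) h1
  have hmain := hL₁ L ((le_max_left _ _).trans hL)
  obtain ⟨hlo, hhi⟩ := log_bounds hLpos h1 h2
  set D : ℝ := Real.log (4 / σ) with hD
  have hD0 : 0 < D := by linarith
  -- the argument of the floor
  have hθ : pθ L σ = 120 * D / L := rfl
  have hx : 1 / (400 * (pθ L σ) ^ 2) = L ^ 2 / (5760000 * D ^ 2) := by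
    rw [hθ]; field_simp; ring
  have hx1 : 1 ≤ L ^ 2 / (5760000 * D ^ 2) := by
    rw [le_div_iff₀ (by positivity)]
    have : 2400 * D ≤ L := by linarith
    nlinarith
  -- floor bound
  have hfloor : L ^ 2 / (5760000 * D ^ 2) / 2 ≤ (pm (pθ L σ) : ℝ) := by
    unfold pm
    rw [hx]
    set x : ℝ := L ^ 2 / (5760000 * D ^ 2) with hxdef
    have h3 : x < (⌊x⌋₊ : ℝ) + 1 := Nat.lt_floor_add_one x
    have h4 : (1 : ℝ) ≤ (⌊x⌋₊ : ℝ) := by
      have : 1 ≤ ⌊x⌋₊ := Nat.le_floor (by simpa using hx1)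
      exact_mod_cast this
    linarith
  refine le_trans ?_ hfloor
  -- compare using `(σ D) ^ 2 ≤ 8`
  have hsq := sigma_log_sq_le hσ h2
  rw [← hD] at hsq
  have hkey : 2 * σ ^ 2 * (1 / 200000000) * (5760000 * D ^ 2 * 2) ≤ 1 := by
    have : σ ^ 2 * D ^ 2 = (σ * D) ^ 2 := by ring
    nlinarith
  have hpos : 0 < 5760000 * D ^ 2 * 2 := by positivity
  rw [div_div, le_div_iff₀ hpos]
  have hL2 : 0 ≤ L ^ 2 := by positivity
  nlinarith

end Vale.Agent.Lib.P063
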