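import Vale.Agent.Lib.P063.NumDefs

/-!
Numeric facts on the parameters (1): the size of `θ`, the comparison of selection rates, the level cap.
-/

set_option linter.unusedVariables false
set_option linter.unusedSectionVars false
set_option linter.unusedSimpArgs false

namespace Vale.Agent.Lib.P063

open Filter

/-- Logarithms are eventually negligible. -/
lemma log_ev {c a : ℝ} (hc : 0 < c) (ha : 0 < a) : ∀ᶠ L : ℝ in atTop, c * Real.log (a * L) ≤ L := by
  have h1 := Real.isLittleO_log_id_atTop.def (c := 1 / (2 * c)) (by positivity)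
  have h2 := eventually_gt_atTop (0 : ℝ)
  have h3 := eventually_ge_atTop (2 * c * Real.log a)
  filter_upwards [h1, h2, h3] with L h1 h2 h3
  rw [Real.log_mul ha.ne' h2.ne', mul_add]
  simp only [Real.norm_eq_abs, id] at h1
  have h4 : Real.log L ≤ 1 / (2 * c) * L := by
    refine le_trans (le_abs_self _) (le_trans h1 ?_)
    rw [abs_of_pos h2]
  have h5 : c * Real.log L ≤ c * (1 / (2 * c) * L) := mul_le_mul_of_nonneg_left h4 hc.le
  have h6 : c * (1 / (2 * c) * L) = L / 2 := by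
    field_simp
  linarith

lemma two_le_log_eight : 2 ≤ Real.log 8 := by
  rw [Real.le_log_iff_exp_le (by norm_num)]
  have h : Real.exp 1 < 2.7182818286 := Real.exp_one_lt_d9
  have h0 := Real.exp_pos 1
  have : Real.exp 2 = Real.exp 1 * Real.exp 1 := by
    rw [← Real.exp_add]
    norm_num
  rw [this]
  nlinarith

/-- Bounds on the logarithm appearing in `θ`. -/
lemma log_four_div_bounds {L σ : ℝ} (hL : 0 < L) (h1 : 1 / (2 * L) ≤ σ) (h2 : σ ≤ 1 / 2) :
    2 ≤ Real.log (4 / σ) ∧ Real.log (4 / σ) ≤ Real.log (8 * L) := by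
  have hσ : 0 < σ := lt_of_lt_of_le (by positivity) h1
  constructor
  · refine le_trans two_le_log_eight (Real.log_le_log (by norm_num) ?_)
    rw [le_div_iff₀ hσ]
    linarith
  · apply Real.log_le_log (by positivity)
    rw [div_le_iff₀ hσ]
    have : 1 ≤ 2 * L * σ := by
      rw [div_le_iff₀ (by positivity)] at h1
      linarith
    nlinarith

/-- NUM1: elementary parameter facts. -/
theorem num_basic : ∃ L₀ : ℝ, 40 < L₀ ∧ ∀ L ≥ L₀, ∀ σ : ℝ, 1 / (2 * L) ≤ σ → σ ≤ 1 / 2 →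
    240 / L ≤ pθ L σ ∧ pθ L σ ≤ 1 / 4 := by
  have h1 := log_ev (c := 480) (a := 8) (by norm_num) (by norm_num)
  obtain ⟨L1, hL1⟩ := eventually_atTop.mp h1
  refine ⟨max L1 41, lt_of_lt_of_le (by norm_num) (le_max_right _ _), ?_⟩
  intro L hL σ hσ1 hσ2
  have hL41 : 41 ≤ L := le_trans (le_max_right _ _) hL
  have hLpos : 0 < L := by linarith
  have hb := log_four_div_bounds hLpos hσ1 hσ2
  have h480 := hL1 L (le_trans (le_max_left _ _) hL)
  unfold pθ
  constructor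
  · apply div_le_div_of_nonneg_right _ hLpos.le
    linarith [hb.1]
  · rw [div_le_iff₀ hLpos]
    linarith [hb.2]

/-- NUM2: the comparison of selection rates. -/
theorem num_q : ∃ L₀ : ℝ, ∀ L ≥ L₀, ∀ σ : ℝ, 1 / (2 * L) ≤ σ → σ ≤ 1 / 2 →
    1 - 2 * pθ L σ ≤ ((√σ / 2) ^ (40 / L)) ^ 2 *
      ((pρ (pθ L σ) ^ (40 / L)) ^ 2 * (pθ L σ * (1 - pθ L σ)) + (1 - pθ L σ) ^ 2) := by
  obtain ⟨L0, hL0, hbasic⟩ := num_basic
  have h1 := log_ev (c := 80) (a := 1) (by norm_num) (by norm_num)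
  obtain ⟨L1, hL1⟩ := eventually_atTop.mp h1
  refine ⟨max L0 L1, ?_⟩
  intro L hL σ hσ1 hσ2
  have hLL0 : L0 ≤ L := le_trans (le_max_left _ _) hL
  have hLL1 : L1 ≤ L := le_trans (le_max_right _ _) hL
  have hL40 : 40 < L := lt_of_lt_of_le hL0 hLL0
  have hLpos : 0 < L := by linarith
  have hσ : 0 < σ := lt_of_lt_of_le (by positivity) hσ1
  obtain ⟨hθ1, hθ2⟩ := hbasic L hLL0 σ hσ1 hσ2
  set θ := pθ L σ with hθdef
  have hθ0 : 0 < θ := lt_of_lt_of_le (by positivity) hθ1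
  have hβ0 : 0 < 40 / L := by positivity
  -- the value-bit factor
  have hx : ((√σ / 2) ^ (40 / L)) ^ 2 = Real.exp (-(θ / 3)) := by
    have h0 : 0 ≤ √σ / 2 := by positivity
    rw [← Real.rpow_natCast, ← Real.rpow_mul h0, mul_comm, Real.rpow_mul h0, Real.rpow_natCast]
    have h2 : (√σ / 2) ^ 2 = σ / 4 := by
      rw [div_pow, Real.sq_sqrt hσ.le]
      norm_num
    rw [h2, Real.rpow_def_of_pos (by positivity)]
    congr 1
    have h3 : Real.log (σ / 4) = - Real.log (4 / σ) := by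
      rw [← Real.log_inv]
      congr 1
      field_simp
    rw [h3, hθdef]
    unfold pθ
    field_simp
    ring
  -- the selector-bit factor
  have hs : 1 / 2 ≤ (pρ θ ^ (40 / L)) ^ 2 := by
    have hθ1' : θ < 1 := by linarith
    have hp := sg_pos hθ0 hθ1'
    have h0 : 0 ≤ pρ θ := by
      unfold pρ
      positivity
    rw [← Real.rpow_natCast, ← Real.rpow_mul h0, mul_comm, Real.rpow_mul h0, Real.rpow_natCast]
    have h2 : pρ θ ^ 2 = sg θ / 4 := by
      unfold pρ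
      rw [div_pow, Real.sq_sqrt hp.le]
      norm_num
    rw [h2]
    have h3 : 1 / L ≤ sg θ / 4 := by
      have : 4 / L ≤ sg θ := by
        unfold sg
        apply Real.le_sqrt_of_sq_le
        have h4 : (240 / L) * (3 / 4) ≤ θ * (1 - θ) := by
          apply mul_le_mul hθ1 (by linarith) (by norm_num) hθ0.le
        have h5 : (4 / L) ^ 2 ≤ (240 / L) * (3 / 4) := by
          rw [div_pow, div_mul_eq_mul_div, div_le_div_iff₀ (by positivity) hLpos]
          nlinarith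
        linarith
      have e : 1 / L = (4 / L) / 4 := by
        field_simp
      rw [e]
      linarith
    have h4 : (1 / L) ^ (40 / L) ≤ (sg θ / 4) ^ (40 / L) :=
      Real.rpow_le_rpow (by positivity) h3 hβ0.le
    refine le_trans ?_ h4
    have h80 := hL1 L hLL1
    rw [one_mul, ] at h80
    rw [Real.rpow_def_of_pos (by positivity)]
    have h5 : Real.log (1 / L) * (40 / L) = -(40 * Real.log L / L) := by
      rw [one_div, Real.log_inv]
      field_simp
    rw [h5]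
    have h6 : 40 * Real.log L / L ≤ 1 / 2 := by
      rw [div_le_iff₀ hLpos]
      linarith
    have h7 := Real.add_one_le_exp (-(40 * Real.log L / L))
    linarith
  rw [hx]
  have he : 1 - θ / 3 ≤ Real.exp (-(θ / 3)) := by
    have := Real.add_one_le_exp (-(θ / 3))
    linarith
  have hA : 0 ≤ θ * (1 - θ) := mul_nonneg hθ0.le (by linarith)
  have hB : (1 / 2) * (θ * (1 - θ)) + (1 - θ) ^ 2 ≤
      (pρ θ ^ (40 / L)) ^ 2 * (θ * (1 - θ)) + (1 - θ) ^ 2 := by
    have := mul_le_mul_of_nonneg_right hs hA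
    linarith
  have hC : 0 ≤ (1 / 2) * (θ * (1 - θ)) + (1 - θ) ^ 2 := by positivity
  have hD : (1 - θ / 3) * ((1 / 2) * (θ * (1 - θ)) + (1 - θ) ^ 2) ≤
      Real.exp (-(θ / 3)) * ((pρ θ ^ (40 / L)) ^ 2 * (θ * (1 - θ)) + (1 - θ) ^ 2) :=
    mul_le_mul he hB hC (Real.exp_pos _).le
  refine le_trans ?_ hD
  nlinarith [mul_pos hθ0 hθ0, mul_pos (mul_pos hθ0 hθ0) hθ0]

/-- Crude bound for `σ log(4/σ)`. -/
lemma sq_mul_log_le {σ : ℝ} (h0 : 0 < σ) (h1 : σ ≤ 1 / 2) : (σ * Real.log (4 / σ)) ^ 2 ≤ 8 := by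
  have hy : 0 < 4 / σ := by positivity
  have hs : 0 < √(4 / σ) := Real.sqrt_pos.mpr hy
  have h2 : Real.log (4 / σ) ≤ 2 * √(4 / σ) := by
    have h3 : Real.log (4 / σ) = 2 * Real.log (√(4 / σ)) := by
      rw [Real.log_sqrt hy.le]
      ring
    rw [h3]
    have h4 := Real.log_le_sub_one_of_pos hs
    linarith
  have h5 : 0 ≤ Real.log (4 / σ) := by
    apply Real.log_nonneg
    rw [le_div_iff₀ h0]
    linarith
  have h6 : (Real.log (4 / σ)) ^ 2 ≤ (2 * √(4 / σ)) ^ 2 := pow_le_pow_left₀ h5 h2 2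
  have h7 : (2 * √(4 / σ)) ^ 2 = 16 / σ := by
    rw [mul_pow, Real.sq_sqrt hy.le]
    ring
  rw [h7] at h6
  have h8 : σ ^ 2 * (Real.log (4 / σ)) ^ 2 ≤ σ ^ 2 * (16 / σ) :=
    mul_le_mul_of_nonneg_left h6 (by positivity)
  have h9 : σ ^ 2 * (16 / σ) = 16 * σ := by
    field_simp
  rw [mul_pow]
  linarith

/-- NUM5: the level cap is large. -/
theorem num_m : ∃ L₀ : ℝ, ∀ L ≥ L₀, ∀ σ : ℝ, 1 / (2 * L) ≤ σ → σ ≤ 1 / 2 →
    2 * σ ^ 2 * (1 / 200000000) * L ^ 2 ≤ (pm (pθ L σ) : ℝ) := by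
  have h1 := log_ev (c := 4800) (a := 8) (by norm_num) (by norm_num)
  obtain ⟨L1, hL1⟩ := eventually_atTop.mp h1
  refine ⟨max L1 1, ?_⟩
  intro L hL σ hσ1 hσ2
  have hLL1 : L1 ≤ L := le_trans (le_max_left _ _) hL
  have hL1' : 1 ≤ L := le_trans (le_max_right _ _) hL
  have hLpos : 0 < L := by linarith
  have hσ : 0 < σ := lt_of_lt_of_le (by positivity) hσ1
  obtain ⟨hD2, hD8⟩ := log_four_div_bounds hLpos hσ1 hσ2
  set D := Real.log (4 / σ) with hD
  have hDpos : 0 < D := by linarith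
  have h4800 : 4800 * D ≤ L := le_trans (mul_le_mul_of_nonneg_left hD8 (by norm_num)) (hL1 L hLL1)
  have hθ : pθ L σ = 120 * D / L := rfl
  have hx : 1 / (400 * pθ L σ ^ 2) = L ^ 2 / (5760000 * D ^ 2) := by
    rw [hθ]
    field_simp
    ring
  unfold pm
  rw [hx]
  set x := L ^ 2 / (5760000 * D ^ 2) with hxdef
  have hx2 : 2 ≤ x := by
    rw [hxdef, le_div_iff₀ (by positivity)]
    nlinarith
  have hfl : x - 1 ≤ (⌊x⌋₊ : ℝ) := by
    have := Nat.lt_floor_add_one x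
    linarith
  refine le_trans ?_ hfl
  have hxh : x / 2 ≤ x - 1 := by linarith
  refine le_trans ?_ hxh
  have hsq := sq_mul_log_le hσ hσ2
  rw [← hD, mul_pow] at hsq
  rw [hxdef, div_div, le_div_iff₀ (by positivity)]
  have hL2 : 0 ≤ L ^ 2 := by positivity
  have e : 2 * σ ^ 2 * (1 / 200000000) * L ^ 2 * (5760000 * D ^ 2 * 2) =
      L ^ 2 * ((σ ^ 2 * D ^ 2) * (5760000 * 4 / 200000000)) := by ring
  rw [e]
  have h3 : (σ ^ 2 * D ^ 2) * (5760000 * 4 / 200000000) ≤ 1 := by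
    nlinarith
  nlinarith

end Vale.Agent.Lib.P063
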