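import Vale.Agent.Lib.P063.Cube

/-! Parameter definitions for the numeric lemmas. -/

namespace Vale.Agent.Lib.P063

/-- `θ` as a function of `L` and `σ`. -/
noncomputable def pθ (L σ : ℝ) : ℝ := 120 * Real.log (4 / σ) / L

/-- The noise multiplier attached to a bias `b`. -/
noncomputable def pρ (b : ℝ) : ℝ := √(sg b) / 2

/-- Size cap for the sets in the counting argument. -/
noncomputable def ptm (θ : ℝ) : ℕ := ⌈1 / (20 * θ)⌉₊

/-- Low level cutoff. -/
noncomputable def pl (θ : ℝ) : ℕ := ⌈1 / (2 * θ)⌉₊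

/-- Level cap. -/
noncomputable def pm (θ : ℝ) : ℕ := ⌊1 / (400 * θ ^ 2)⌋₊

/-- Coefficient thresholds. -/
noncomputable def pa_ (L : ℝ) (t : ℕ) : ℝ := Real.exp (-(t + 1) * L / 48)

end Vale.Agent.Lib.P063
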