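import Vale.Agent.Lib.P063.Kkl

/-!
Identities for the subset law `pw` and the averaged weights `MM`.
-/

set_option linter.unusedVariables false
set_option linter.unusedSectionVars false
set_option linter.unusedSimpArgs false

namespace Vale.Agent.Lib.P063

open Finset

section PW

variable {α : Type*} [DecidableEq α]

lemma pw_sum_one (q : ℝ) (S : Finset α) : ∑ U ∈ S.powerset, pw q S U = 1 := by
  have := Finset.sum_pow_mul_eq_add_pow q (1 - q) S
  rw [add_sub_cancel, one_pow] at this
  rw [← this]
  refine Finset.sum_congr rfl fun U hU => ?_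
  unfold pw
  rw [Finset.card_sdiff_of_subset (Finset.mem_powerset.mp hU)]

lemma pw_nonneg_s {q : ℝ} (h0 : 0 ≤ q) (h1 : q ≤ 1) (S U : Finset α) : 0 ≤ pw q S U :=
  mul_nonneg (pow_nonneg h0 _) (pow_nonneg (by linarith) _)

lemma pw_insert_of_notMem {q : ℝ} {S U : Finset α} {a : α} (ha : a ∉ S) (hU : U ⊆ S) :
    pw q (insert a S) U = (1 - q) * pw q S U := by
  unfold pw
  have haU : a ∉ U := fun h => ha (hU h)
  rw [Finset.insert_sdiff_of_notMem _ haU, Finset.card_insert_of_notMem
    (fun h => ha (Finset.mem_sdiff.mp h).1)]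
  ring

lemma pw_insert_insert {q : ℝ} {S U : Finset α} {a : α} (ha : a ∉ S) (hU : U ⊆ S) :
    pw q (insert a S) (insert a U) = q * pw q S U := by
  unfold pw
  have haU : a ∉ U := fun h => ha (hU h)
  rw [Finset.insert_sdiff_insert, Finset.sdiff_insert_of_notMem ha, Finset.card_insert_of_notMem haU]
  ring

/-- Mean size of the random subset. -/
lemma pw_sum_card (q : ℝ) (S : Finset α) :
    ∑ U ∈ S.powerset, (U.card : ℝ) * pw q S U = q * S.card := by
  induction S using Finset.induction_on with
  | empty => simp
  | insert a S ha ih =>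
    rw [Finset.sum_powerset_insert ha]
    have h1 : ∑ U ∈ S.powerset, (U.card : ℝ) * pw q (insert a S) U = (1 - q) * (q * S.card) := by
      rw [← ih, Finset.mul_sum]
      refine Finset.sum_congr rfl fun U hU => ?_
      rw [pw_insert_of_notMem ha (Finset.mem_powerset.mp hU)]
      ring
    have h2 : ∑ U ∈ S.powerset, ((insert a U).card : ℝ) * pw q (insert a S) (insert a U) =
        q * (q * S.card + 1) := by
      have : ∀ U ∈ S.powerset, ((insert a U).card : ℝ) * pw q (insert a S) (insert a U) =
          q * ((U.card : ℝ) * pw q S U) + q * pw q S U := by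
        intro U hU
        have hU' := Finset.mem_powerset.mp hU
        have haU : a ∉ U := fun h => ha (hU' h)
        rw [Finset.card_insert_of_notMem haU, pw_insert_insert ha hU']
        push_cast
        ring
      rw [Finset.sum_congr rfl this, Finset.sum_add_distrib, ← Finset.mul_sum, ← Finset.mul_sum, ih,
        pw_sum_one]
      ring
    rw [h1, h2, Finset.card_insert_of_notMem ha]
    push_cast
    ring

/-- Probability that the random subset contains a given set. -/
lemma pw_sum_superset (q : ℝ) {Z S : Finset α} (hZ : Z ⊆ S) :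
    ∑ U ∈ S.powerset.filter (fun U => Z ⊆ U), pw q S U = q ^ Z.card := by
  classical
  induction S using Finset.induction_on generalizing Z with
  | empty =>
    have : Z = ∅ := Finset.subset_empty.mp hZ
    subst this
    simp [pw]
  | insert a S ha ih =>
    rw [Finset.sum_filter, Finset.sum_powerset_insert ha]
    by_cases haZ : a ∈ Z
    · -- `a` must be kept
      have hZ' : Z.erase a ⊆ S := by
        intro x hx
        have h1 := Finset.mem_erase.mp hx
        have h2 := hZ h1.2
        rcases Finset.mem_insert.mp h2 with h3 | h3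
        · exact absurd h3 h1.1
        · exact h3
      have h1 : ∀ U ∈ S.powerset, (if Z ⊆ U then pw q (insert a S) U else 0) = 0 := by
        intro U hU
        have : ¬ Z ⊆ U := fun h => ha (Finset.mem_powerset.mp hU (h haZ))
        rw [if_neg this]
      have h2 : ∀ U ∈ S.powerset, (if Z ⊆ insert a U then pw q (insert a S) (insert a U) else 0) =
          q * (if Z.erase a ⊆ U then pw q S U else 0) := by
        intro U hU
        have hU' := Finset.mem_powerset.mp hU
        have haU : a ∉ U := fun h => ha (hU' h)
        have hiff : Z ⊆ insert a U ↔ Z.erase a ⊆ U := by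
          rw [Finset.subset_insert_iff]
        by_cases h : Z.erase a ⊆ U
        · rw [if_pos h, if_pos (hiff.mpr h), pw_insert_insert ha hU']
        · rw [if_neg h, if_neg (fun h' => h (hiff.mp h')), mul_zero]
      rw [Finset.sum_congr rfl h1, Finset.sum_congr rfl h2, ← Finset.mul_sum, Finset.sum_const_zero,
        zero_add, ← Finset.sum_filter, ih hZ', Finset.card_erase_of_mem haZ, ← pow_succ']
      congr 1
      have := Finset.card_pos.mpr ⟨a, haZ⟩
      omega
    · have hZ' : Z ⊆ S := by
        intro x hx
        rcases Finset.mem_insert.mp (hZ hx) with h3 | h3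
        · exact absurd (h3 ▸ hx) haZ
        · exact h3
      have h1 : ∀ U ∈ S.powerset, (if Z ⊆ U then pw q (insert a S) U else 0) =
          (1 - q) * (if Z ⊆ U then pw q S U else 0) := by
        intro U hU
        split_ifs
        · rw [pw_insert_of_notMem ha (Finset.mem_powerset.mp hU)]
        · simp
      have h2 : ∀ U ∈ S.powerset, (if Z ⊆ insert a U then pw q (insert a S) (insert a U) else 0) =
          q * (if Z ⊆ U then pw q S U else 0) := by
        intro U hU
        have hU' := Finset.mem_powerset.mp hU
        have hiff : Z ⊆ insert a U ↔ Z ⊆ U := by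
          rw [Finset.subset_insert_iff, Finset.erase_eq_of_notMem haZ]
        by_cases h : Z ⊆ U
        · rw [if_pos h, if_pos (hiff.mpr h), pw_insert_insert ha hU']
        · rw [if_neg h, if_neg (fun h' => h (hiff.mp h')), mul_zero]
      rw [Finset.sum_congr rfl h1, Finset.sum_congr rfl h2, ← Finset.mul_sum, ← Finset.mul_sum,
        ← Finset.sum_filter, ih hZ']
      ring

end PW

section MMs

variable {E : Type*} [Fintype E] [DecidableEq E]

/-- Exchanging the order of summation in a weighted sum of `MM`. -/
lemma sum_weight_MM (w : Finset E → ℝ) (θ : ℝ) (h : Finset E → ℝ) :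
    ∑ U : Finset E, h U * (θ ^ U.card * MM w θ U) =
      ∑ S : Finset E, w S * ∑ U ∈ S.powerset, h U * pw θ S U := by
  unfold MM pw
  simp only [Finset.mul_sum, Finset.sum_filter]
  rw [Finset.sum_comm]
  refine Finset.sum_congr rfl fun S _ => ?_
  have e : ∀ U : Finset E, h U * (θ ^ U.card * (if U ⊆ S then (1 - θ) ^ (S \ U).card * w S else 0)) =
      (if U ∈ S.powerset then w S * (h U * (θ ^ U.card * (1 - θ) ^ (S \ U).card)) else 0) := by
    intro U
    simp only [Finset.mem_powerset]
    split_ifs
    · ring
    · ring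
  simp only [e]
  rw [Finset.sum_ite_mem, Finset.univ_inter]

/-- The weighted sum of `MM` over a family of sets. -/
lemma sum_family_MM (w : Finset E → ℝ) (θ : ℝ) (G : Finset (Finset E)) :
    ∑ U ∈ G, θ ^ U.card * MM w θ U =
      ∑ S : Finset E, w S * ∑ U ∈ S.powerset ∩ G, pw θ S U := by
  have := sum_weight_MM w θ (fun U => if U ∈ G then 1 else 0)
  simp only [ite_mul, one_mul, zero_mul] at this
  rw [Finset.sum_ite_mem, Finset.univ_inter] at this
  rw [this]
  refine Finset.sum_congr rfl fun S _ => ?_
  rw [Finset.sum_ite_mem]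

lemma MM_nonneg {w : Finset E → ℝ} (hw : ∀ S, 0 ≤ w S) {θ : ℝ} (h1 : θ ≤ 1) (U : Finset E) :
    0 ≤ MM w θ U :=
  Finset.sum_nonneg fun S _ => mul_nonneg (pow_nonneg (by linarith) _) (hw S)

/-- The sum over nonempty sets of `θ^|U| MM(U)` is at most the variance. -/
lemma sum_nonempty_MM_le {w : Finset E → ℝ} (hw : ∀ S, 0 ≤ w S) {θ : ℝ} (h0 : 0 ≤ θ) (h1 : θ ≤ 1) :
    ∑ U ∈ univ.filter (fun U : Finset E => U.Nonempty), θ ^ U.card * MM w θ U ≤
      ∑ S ∈ univ.filter (fun S : Finset E => S.Nonempty), w S := by
  rw [sum_family_MM]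
  rw [← Finset.sum_filter_add_sum_filter_not univ (fun S : Finset E => S.Nonempty)]
  have hz : ∑ S ∈ univ.filter (fun S : Finset E => ¬ S.Nonempty),
      w S * ∑ U ∈ S.powerset ∩ univ.filter (fun U : Finset E => U.Nonempty), pw θ S U = 0 := by
    apply Finset.sum_eq_zero
    intro S hS
    have hS' : S = ∅ := Finset.not_nonempty_iff_eq_empty.mp (Finset.mem_filter.mp hS).2
    subst hS'
    have : (∅ : Finset E).powerset ∩ univ.filter (fun U : Finset E => U.Nonempty) = ∅ := by
      ext U
      simp only [Finset.mem_inter, Finset.mem_powerset, Finset.subset_empty, Finset.mem_filter,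
        Finset.mem_univ, true_and, Finset.notMem_empty, iff_false, not_and]
      rintro rfl
      simp
    rw [this]
    simp
  rw [hz, add_zero]
  refine Finset.sum_le_sum fun S _ => ?_
  have : ∑ U ∈ S.powerset ∩ univ.filter (fun U : Finset E => U.Nonempty), pw θ S U ≤ 1 := by
    rw [← pw_sum_one θ S]
    apply Finset.sum_le_sum_of_subset_of_nonneg Finset.inter_subset_left
    intro U _ _
    exact pw_nonneg_s h0 h1 S U
  nlinarith [hw S]

/-- Mean-size identity. -/
lemma sum_card_MM (w : Finset E → ℝ) (θ : ℝ) :
    ∑ U : Finset E, (U.card : ℝ) * (θ ^ U.card * MM w θ U) =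
      θ * ∑ S : Finset E, (S.card : ℝ) * w S := by
  rw [sum_weight_MM, Finset.mul_sum]
  refine Finset.sum_congr rfl fun S _ => ?_
  rw [pw_sum_card]
  ring

end MMs

end Vale.Agent.Lib.P063
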